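import Vale.Agent.P335.Graph

/-! The flip of a four-tuple: the switch at the level of Boolean matrices. -/

set_option linter.unusedSectionVars false

open Finset BigOperators

namespace Vale.Agent.P335

variable {V : Type*} [Fintype V] [DecidableEq V] {d : V → ℕ}

/-- Four pairwise distinct vertices. -/
structure Dist4 (a b c e : V) : Prop where
  ab : a ≠ b
  ac : a ≠ c
  ae : a ≠ e
  bc : b ≠ c
  be : b ≠ e
  ce : c ≠ e

lemma Dist4.swap12 {a b c e : V} (h : Dist4 a b c e) : Dist4 c e a b :=
  ⟨h.ce, h.ac.symm, h.bc.symm, h.ae.symm, h.be.symm, h.ab⟩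

/-- The tuple is at the centre of a switch: `ac, be` are both present and `ae, bc` absent
or conversely. -/
def center (a b c e : V) (G : Om d) : Prop :=
  G.1 a c = G.1 b e ∧ G.1 a e = G.1 b c ∧ G.1 a c ≠ G.1 a e

instance (a b c e : V) (G : Om d) : Decidable (center a b c e G) := by
  unfold center; infer_instance

lemma center_symm {a b c e : V} {G : Om d} : center a b c e G ↔ center c e a b G := by
  unfold center
  rw [G.2.symm c a, G.2.symm e b, G.2.symm c b, G.2.symm e a]
  constructor
  · rintro ⟨h1, h2, h3⟩
    exact ⟨h1, h2.symm, by rw [← h2]; exact h3⟩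
  · rintro ⟨h1, h2, h3⟩
    exact ⟨h1, h2.symm, by rw [← h2]; exact h3⟩

/-- New rows at the vertices `a, b` after a flip of their entries at `c, e`. -/
def flipRows (c e : V) (x : V → V → Bool) : V → V → Bool :=
  fun u v => if v = c ∨ v = e then !x u v else x u v

lemma not_toNat_add {p q : Bool} (h : p ≠ q) : (!p).toNat + (!q).toNat = p.toNat + q.toNat := by
  revert p q; decide

lemma not_toNat_add' {p q : Bool} (h : q = !p) : (!p).toNat + (!q).toNat = p.toNat + q.toNat := by
  revert p q; decide

lemma flip_valid {a b c e : V} (hd : Dist4 a b c e) {G : Om d} (hc : center a b c e G) :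
    IsGr d (repl G.1 {a, b} (flipRows c e G.1)) := by
  obtain ⟨h1, h2, h3⟩ := hc
  have hne : ∀ u, u ∈ ({a, b} : Finset V) → u ≠ c ∧ u ≠ e := by
    intro u hu
    simp only [mem_insert, mem_singleton] at hu
    rcases hu with rfl | rfl
    · exact ⟨hd.ac, hd.ae⟩
    · exact ⟨hd.bc, hd.be⟩
  apply repl_isGr G.2
  · intro u hu v hv
    have h4 := hne u hu
    have h5 := hne v hv
    simp only [flipRows, h4.1, h4.2, h5.1, h5.2, or_self, if_false]
    exact G.2.symm u v
  · intro u hu
    have h4 := hne u hu
    simp only [flipRows, h4.1, h4.2, or_self, if_false]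
    exact G.2.irrefl u
  · intro v hv
    rw [sum_pair hd.ab, sum_pair hd.ab]
    simp only [flipRows]
    by_cases h4 : v = c
    · subst h4
      simp only [true_or, if_true]
      rw [← h2]
      exact not_toNat_add h3
    by_cases h5 : v = e
    · subst h5
      simp only [or_true, if_true]
      rw [← h1]
      exact not_toNat_add h3.symm
    simp [h4, h5]
  · intro u hu
    rw [← G.2.deg u, dg_split G.1 u {c, e}, ← sum_add_sum_compl ({c, e} : Finset V)]
    have h6 : ∑ v ∈ ({c, e} : Finset V)ᶜ, ((flipRows c e G.1) u v).toNat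
        = ∑ v ∈ ({c, e} : Finset V)ᶜ, (G.1 u v).toNat := by
      refine sum_congr rfl (fun v hv => ?_)
      have : ¬ (v = c ∨ v = e) := by
        simpa using hv
      simp [flipRows, this]
    rw [h6, sum_pair hd.ce, sum_pair hd.ce]
    simp only [flipRows, true_or, or_true, if_true]
    congr 1
    simp only [mem_insert, mem_singleton] at hu
    rcases hu with rfl | rfl
    · exact not_toNat_add h3
    · rw [← h1, ← h2]
      exact not_toNat_add h3.symm

open Classical in
/-- The flip at `(a, b | c, e)`: an involution of the graphs, the identity off the centre. -/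
noncomputable def sw4 (a b c e : V) (G : Om d) : Om d :=
  if h : Dist4 a b c e ∧ center a b c e G then ⟨_, flip_valid h.1 h.2⟩ else G

lemma sw4_of_not {a b c e : V} {G : Om d} (h : ¬ center a b c e G) : sw4 a b c e G = G := by
  unfold sw4
  rw [dif_neg (fun h' => h h'.2)]

lemma sw4_val {a b c e : V} (hd : Dist4 a b c e) {G : Om d} (h : center a b c e G) :
    (sw4 a b c e G).1 = repl G.1 {a, b} (flipRows c e G.1) := by
  unfold sw4
  rw [dif_pos ⟨hd, h⟩]

/-- Explicit description of the flip. -/
lemma sw4_apply {a b c e : V} (hd : Dist4 a b c e) {G : Om d} (h : center a b c e G) (u v : V) :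
    (sw4 a b c e G).1 u v = if ((u = a ∨ u = b) ∧ (v = c ∨ v = e))
        ∨ ((u = c ∨ u = e) ∧ (v = a ∨ v = b)) then !G.1 u v else G.1 u v := by
  rw [sw4_val hd h]
  by_cases hu : u ∈ ({a, b} : Finset V)
  · rw [repl_mem hu]
    have hu' : u = a ∨ u = b := by simpa using hu
    have h1 : ¬ (u = c ∨ u = e) := by
      rcases hu' with rfl | rfl
      · simp [hd.ac, hd.ae]
      · simp [hd.bc, hd.be]
    simp [flipRows, hu', h1]
  · have hu' : ¬ (u = a ∨ u = b) := by simpa using hu
    by_cases hv : v ∈ ({a, b} : Finset V)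
    · rw [repl_mem' hu hv]
      have hv' : v = a ∨ v = b := by simpa using hv
      simp only [flipRows, hu', false_and, false_or, hv', and_true]
      rw [G.2.symm v u]
    · have hv' : ¬ (v = a ∨ v = b) := by simpa using hv
      rw [repl_not hu hv]
      simp [hu', hv']

lemma center_sw4 {a b c e : V} (hd : Dist4 a b c e) {G : Om d} (h : center a b c e G) :
    center a b c e (sw4 a b c e G) := by
  unfold center
  simp only [sw4_apply hd h]
  simp only [true_or, or_true, true_and, and_self, if_true]
  obtain ⟨h1, h2, h3⟩ := h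
  rw [h1, h2] at *
  refine ⟨rfl, rfl, ?_⟩
  simpa using h3

lemma sw4_sw4 {a b c e : V} (hd : Dist4 a b c e) (G : Om d) :
    sw4 a b c e (sw4 a b c e G) = G := by
  by_cases h : center a b c e G
  · apply Om.ext'
    intro u v
    rw [sw4_apply hd (center_sw4 hd h), sw4_apply hd h]
    split_ifs <;> simp
  · rw [sw4_of_not h, sw4_of_not h]

lemma key_ab_sw4 {a b c e : V} (hd : Dist4 a b c e) (G : Om d) :
    key {a, b} (sw4 a b c e G) = key {a, b} G := by
  by_cases h : center a b c e G
  · rw [key_eq_iff]
    intro u v hu hv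
    rw [sw4_apply hd h]
    have hu' : ¬ (u = a ∨ u = b) := by simpa using hu
    have hv' : ¬ (v = a ∨ v = b) := by simpa using hv
    simp [hu', hv']
  · rw [sw4_of_not h]

lemma key_ce_sw4 {a b c e : V} (hd : Dist4 a b c e) (G : Om d) :
    key {c, e} (sw4 a b c e G) = key {c, e} G := by
  by_cases h : center a b c e G
  · rw [key_eq_iff]
    intro u v hu hv
    rw [sw4_apply hd h]
    have hu' : ¬ (u = c ∨ u = e) := by simpa using hu
    have hv' : ¬ (v = c ∨ v = e) := by simpa using hv
    simp [hu', hv']
  · rw [sw4_of_not h]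

end Vale.Agent.P335
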