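import Vale.Agent.P335.Defs
import Vale.Agent.P335.GraphFlip

/-! Graphs as edge sets and as Boolean matrices. -/

set_option linter.unusedSectionVars false

open Finset BigOperators

namespace Vale.Agent.P335

variable {n : ℕ} {d : Fin n → ℕ}

/-- The edge set of a Boolean matrix. -/
def psi (x : Om d) : EdgeSet n :=
  (powersetCard 2 univ).filter (fun e => ∃ u v, e = {u, v} ∧ x.1 u v = true)

lemma pair_eq_pair_iff' {a b c e : Fin n} :
    ({a, b} : Finset (Fin n)) = {c, e} ↔ (a = c ∧ b = e) ∨ (a = e ∧ b = c) := by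
  rw [← coe_inj]
  push_cast
  exact Set.pair_eq_pair_iff

lemma pair_card_two {u v : Fin n} (h : u ≠ v) : ({u, v} : Finset (Fin n)).card = 2 :=
  card_pair h

lemma mem_pairs {u v : Fin n} (h : u ≠ v) : ({u, v} : Finset (Fin n)) ∈
    powersetCard 2 (univ : Finset (Fin n)) :=
  mem_powersetCard.2 ⟨subset_univ _, card_pair h⟩

lemma ne_of_entry {x : Om d} {u v : Fin n} (h : x.1 u v = true) : u ≠ v := by
  rintro rfl
  rw [x.2.irrefl] at h
  exact Bool.false_ne_true h

lemma mem_psi_pair {x : Om d} {u v : Fin n} : ({u, v} : Finset (Fin n)) ∈ psi x ↔ x.1 u v = true := by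
  unfold psi
  rw [mem_filter]
  constructor
  · rintro ⟨_, u', v', he, h⟩
    rcases pair_eq_pair_iff'.1 he with ⟨rfl, rfl⟩ | ⟨rfl, rfl⟩
    · exact h
    · rw [x.2.symm]; exact h
  · intro h
    exact ⟨mem_pairs (ne_of_entry h), u, v, rfl, h⟩

lemma psi_subset (x : Om d) : psi x ⊆ powersetCard 2 (univ : Finset (Fin n)) :=
  filter_subset _ _

lemma exists_pair_of_mem {e : Finset (Fin n)} (h : e ∈ powersetCard 2 (univ : Finset (Fin n))) :
    ∃ u v, u ≠ v ∧ e = {u, v} := by
  have := (mem_powersetCard.1 h).2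
  obtain ⟨u, v, huv, he⟩ := card_eq_two.1 this
  exact ⟨u, v, huv, he⟩

/-- Extensionality for graphs. -/
lemma edges_ext {A B : EdgeSet n} (hA : A ⊆ powersetCard 2 univ) (hB : B ⊆ powersetCard 2 univ)
    (h : ∀ u v : Fin n, u ≠ v → (({u, v} : Finset (Fin n)) ∈ A ↔ ({u, v} : Finset (Fin n)) ∈ B)) :
    A = B := by
  ext e
  constructor
  · intro he
    obtain ⟨u, v, huv, rfl⟩ := exists_pair_of_mem (hA he)
    exact (h u v huv).1 he
  · intro he
    obtain ⟨u, v, huv, rfl⟩ := exists_pair_of_mem (hB he)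
    exact (h u v huv).2 he

lemma psi_inj {x y : Om d} (h : psi x = psi y) : x = y := by
  apply Om.ext'
  intro u v
  apply bool_eq_of_iff
  rw [← mem_psi_pair, ← mem_psi_pair, h]
where
  bool_eq_of_iff {p q : Bool} (h : p = true ↔ q = true) : p = q := by
    cases p <;> cases q <;> simp_all

/-- The degree as a sum of Boolean entries. -/
lemma degreeG_eq {G : EdgeSet n} (hG : G ⊆ powersetCard 2 univ) (v : Fin n) :
    degreeG G v = ∑ u, (decide (({v, u} : Finset (Fin n)) ∈ G)).toNat := by
  have h1 : ∑ u, (decide (({v, u} : Finset (Fin n)) ∈ G)).toNat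
      = (univ.filter (fun u => ({v, u} : Finset (Fin n)) ∈ G)).card := by
    rw [card_filter]
    refine sum_congr rfl (fun u _ => ?_)
    by_cases h : ({v, u} : Finset (Fin n)) ∈ G <;> simp [h]
  rw [h1]
  symm
  unfold degreeG
  have hne : ∀ u, ({v, u} : Finset (Fin n)) ∈ G → v ≠ u := by
    rintro u hu rfl
    have := (mem_powersetCard.1 (hG hu)).2
    simp at this
  apply card_nbij (fun u => ({v, u} : Finset (Fin n)))
  · intro u hu
    have hu' : ({v, u} : Finset (Fin n)) ∈ G := (mem_filter.1 (mem_coe.1 hu)).2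
    exact mem_coe.2 (mem_filter.2 ⟨hu', by simp⟩)
  · intro u hu u' hu' he
    have h2 : ({v, u} : Finset (Fin n)) ∈ G := (mem_filter.1 (mem_coe.1 hu)).2
    have h3 : ({v, u'} : Finset (Fin n)) ∈ G := (mem_filter.1 (mem_coe.1 hu')).2
    have he' : ({v, u} : Finset (Fin n)) = {v, u'} := he
    have h4 : u ∈ ({v, u'} : Finset (Fin n)) := by rw [← he']; simp
    simp only [mem_insert, mem_singleton] at h4
    rcases h4 with h4 | h4
    · exact absurd h4.symm (hne u h2)
    · exact h4
  · intro e he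
    obtain ⟨he1, he2⟩ := mem_filter.1 (mem_coe.1 he)
    obtain ⟨p, q, hpq, rfl⟩ := exists_pair_of_mem (hG he1)
    simp only [mem_insert, mem_singleton] at he2
    rcases he2 with rfl | rfl
    · exact ⟨q, mem_coe.2 (mem_filter.2 ⟨mem_univ _, he1⟩), rfl⟩
    · refine ⟨p, mem_coe.2 (mem_filter.2 ⟨mem_univ _, ?_⟩), pair_comm _ _⟩
      rw [pair_comm]; exact he1

lemma psi_mem_Omega (x : Om d) : psi x ∈ Omega d := by
  unfold Omega
  rw [mem_filter, mem_powerset]
  refine ⟨psi_subset x, fun v => ?_⟩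
  rw [degreeG_eq (psi_subset x), ← x.2.deg v]
  unfold dg
  refine sum_congr rfl (fun u _ => ?_)
  congr 1
  cases h : x.1 v u
  · simp [mem_psi_pair, h]
  · simp [mem_psi_pair, h]

/-- The Boolean matrix of an edge set. -/
def adjOf (G : EdgeSet n) (u v : Fin n) : Bool := decide (({u, v} : Finset (Fin n)) ∈ G)

lemma adjOf_isGr {G : EdgeSet n} (hG : G ∈ Omega d) : IsGr d (adjOf G) := by
  unfold Omega at hG
  rw [mem_filter, mem_powerset] at hG
  obtain ⟨h1, h2⟩ := hG
  constructor
  · intro u v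
    unfold adjOf
    rw [pair_comm]
  · intro u
    unfold adjOf
    have : ({u, u} : Finset (Fin n)) ∉ G := by
      intro h
      have := (mem_powersetCard.1 (h1 h)).2
      simp at this
    simp only [this, decide_false]
  · intro u
    rw [← h2 u, degreeG_eq h1]
    rfl

lemma exists_psi {G : EdgeSet n} (hG : G ∈ Omega d) : ∃ x : Om d, psi x = G := by
  refine ⟨⟨adjOf G, adjOf_isGr hG⟩, ?_⟩
  unfold Omega at hG
  rw [mem_filter, mem_powerset] at hG
  apply edges_ext (psi_subset _) hG.1
  intro u v _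
  rw [mem_psi_pair]
  simp [adjOf]

lemma Omega_eq_image : Omega d = (univ : Finset (Om d)).image psi := by
  ext G
  rw [mem_image]
  constructor
  · intro hG
    obtain ⟨x, hx⟩ := exists_psi hG
    exact ⟨x, mem_univ x, hx⟩
  · rintro ⟨x, _, rfl⟩
    exact psi_mem_Omega x

lemma sum_Omega {M : Type*} [AddCommMonoid M] (F : EdgeSet n → M) :
    ∑ H ∈ Omega d, F H = ∑ x : Om d, F (psi x) := by
  rw [Omega_eq_image, sum_image (fun x _ y _ h => psi_inj h)]

lemma card_Omega : (Omega d).card = Fintype.card (Om d) := by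
  rw [Omega_eq_image, card_image_of_injective _ (fun x y h => psi_inj h), card_univ]

lemma card_Omega_le : (Omega d).card ≤ 2 ^ (n.choose 2) := by
  have h1 : (Omega d).card ≤ (powersetCard 2 (univ : Finset (Fin n))).powerset.card :=
    card_le_card (filter_subset _ _)
  rw [card_powerset, card_powersetCard, card_univ, Fintype.card_fin] at h1
  exact h1

end Vale.Agent.P335
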