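import Vale.Agent.P335.Bridge1

/-! The proposed switch on edge sets against the flip on Boolean matrices. -/

set_option linter.unusedSectionVars false

open Finset BigOperators

namespace Vale.Agent.P335

variable {n : ℕ} {d : Fin n → ℕ} {a b c e : Fin n}

/-- The matching `ac, be`. -/
def mFirst (a b c e : Fin n) : EdgeSet n := {{a, c}, {b, e}}

/-- The matching `ae, bc`. -/
def mSecond (a b c e : Fin n) : EdgeSet n := {{a, e}, {b, c}}

lemma mSecond_eq (a b c e : Fin n) : mSecond a b c e = mFirst a b e c := rfl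

lemma mFirst_eq (a b c e : Fin n) : mFirst a b c e = mSecond a b e c := rfl

lemma mem_mFirst {u v : Fin n} : ({u, v} : Finset (Fin n)) ∈ mFirst a b c e ↔
    (u = a ∧ v = c) ∨ (u = c ∧ v = a) ∨ (u = b ∧ v = e) ∨ (u = e ∧ v = b) := by
  unfold mFirst
  rw [mem_insert, mem_singleton, pair_eq_pair_iff', pair_eq_pair_iff']
  tauto

lemma subset_mFirst {x : Om d} : mFirst a b c e ⊆ psi x ↔ x.1 a c = true ∧ x.1 b e = true := by
  unfold mFirst
  rw [insert_subset_iff, singleton_subset_iff, mem_psi_pair, mem_psi_pair]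

lemma disjoint_mFirst {x : Om d} : Disjoint (mFirst a b c e) (psi x) ↔
    x.1 a c = false ∧ x.1 b e = false := by
  unfold mFirst
  rw [insert_eq, disjoint_union_left, disjoint_singleton_left, disjoint_singleton_left,
    mem_psi_pair, mem_psi_pair]
  simp

lemma mFirst_subset_pairs (hd : Dist4 a b c e) : mFirst a b c e ⊆ powersetCard 2 univ := by
  unfold mFirst
  rw [insert_subset_iff, singleton_subset_iff]
  exact ⟨mem_pairs hd.ac, mem_pairs hd.be⟩

lemma Dist4.swap34 (hd : Dist4 a b c e) : Dist4 a b e c :=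
  ⟨hd.ab, hd.ae, hd.ac, hd.be, hd.bc, hd.ce.symm⟩

lemma center_swap34 {G : Om d} : center a b e c G ↔ center a b c e G := by
  unfold center
  constructor
  · rintro ⟨h1, h2, h3⟩
    exact ⟨h2, h1, h3.symm⟩
  · rintro ⟨h1, h2, h3⟩
    exact ⟨h2, h1, h3.symm⟩

lemma sw4_swap34 (hd : Dist4 a b c e) (x : Om d) : sw4 a b e c x = sw4 a b c e x := by
  by_cases h : center a b c e x
  · apply Om.ext'
    intro u v
    rw [sw4_apply hd h, sw4_apply hd.swap34 (center_swap34.2 h)]
    have e1 : ((u = a ∨ u = b) ∧ (v = e ∨ v = c)) ∨ ((u = e ∨ u = c) ∧ (v = a ∨ v = b))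
        ↔ ((u = a ∨ u = b) ∧ (v = c ∨ v = e)) ∨ ((u = c ∨ u = e) ∧ (v = a ∨ v = b)) := by
      tauto
    simp only [e1]
  · rw [sw4_of_not h, sw4_of_not (fun h' => h (center_swap34.1 h'))]

/-- The edge set after a switch. -/
lemma edges_after (hd : Dist4 a b c e) {x : Om d} (h1 : x.1 a c = true) (h2 : x.1 b e = true)
    (h3 : x.1 a e = false) (h4 : x.1 b c = false) :
    (psi x \ mFirst a b c e) ∪ mSecond a b c e = psi (sw4 a b c e x) := by
  have hc : center a b c e x := ⟨by rw [h1, h2], by rw [h3, h4], by rw [h1, h3]; decide⟩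
  apply edges_ext
  · refine union_subset ((sdiff_subset).trans (psi_subset x)) ?_
    rw [mSecond_eq]
    exact mFirst_subset_pairs hd.swap34
  · exact psi_subset _
  · intro u v huv
    rw [mem_psi_pair, sw4_apply hd hc, mem_union, mem_sdiff, mem_psi_pair, mSecond_eq, mem_mFirst,
      mem_mFirst]
    have h5 : x.1 c a = true := by rw [x.2.symm]; exact h1
    have h6 : x.1 e b = true := by rw [x.2.symm]; exact h2
    have h7 : x.1 e a = false := by rw [x.2.symm]; exact h3
    have h8 : x.1 c b = false := by rw [x.2.symm]; exact h4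
    have n1 := hd.ab
    have n2 := hd.ac
    have n3 := hd.ae
    have n4 := hd.bc
    have n5 := hd.be
    have n6 := hd.ce
    by_cases hb : ((u = a ∨ u = b) ∧ (v = c ∨ v = e)) ∨ ((u = c ∨ u = e) ∧ (v = a ∨ v = b))
    · rw [if_pos hb]
      rcases hb with ⟨rfl | rfl, rfl | rfl⟩ | ⟨rfl | rfl, rfl | rfl⟩
      · simp [h1, n1, n2, n3, n4, n5, n6, n1.symm, n2.symm, n3.symm, n4.symm, n5.symm, n6.symm]
      · simp [h3, n1, n2, n3, n4, n5, n6, n1.symm, n2.symm, n3.symm, n4.symm, n5.symm, n6.symm]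
      · simp [h4, n1, n2, n3, n4, n5, n6, n1.symm, n2.symm, n3.symm, n4.symm, n5.symm, n6.symm]
      · simp [h2, n1, n2, n3, n4, n5, n6, n1.symm, n2.symm, n3.symm, n4.symm, n5.symm, n6.symm]
      · simp [h5, n1, n2, n3, n4, n5, n6, n1.symm, n2.symm, n3.symm, n4.symm, n5.symm, n6.symm]
      · simp [h8, n1, n2, n3, n4, n5, n6, n1.symm, n2.symm, n3.symm, n4.symm, n5.symm, n6.symm]
      · simp [h7, n1, n2, n3, n4, n5, n6, n1.symm, n2.symm, n3.symm, n4.symm, n5.symm, n6.symm]
      · simp [h6, n1, n2, n3, n4, n5, n6, n1.symm, n2.symm, n3.symm, n4.symm, n5.symm, n6.symm]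
    · rw [if_neg hb]
      have k1 : ¬ ((u = a ∧ v = c) ∨ (u = c ∧ v = a) ∨ (u = b ∧ v = e) ∨ (u = e ∧ v = b)) := by
        tauto
      have k2 : ¬ ((u = a ∧ v = e) ∨ (u = e ∧ v = a) ∨ (u = b ∧ v = c) ∨ (u = c ∧ v = b)) := by
        tauto
      simp only [k1, k2, not_false_eq_true, and_true, or_false]

/-- The two proposed switches at a pair of matchings against the flip. -/
theorem sw_pair (hd : Dist4 a b c e) (x : Om d) :
    (switchStep (psi x) (mFirst a b c e) (mSecond a b c e) = psi (sw4 a b c e x) ∧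
        switchStep (psi x) (mSecond a b c e) (mFirst a b c e) = psi x) ∨
      (switchStep (psi x) (mFirst a b c e) (mSecond a b c e) = psi x ∧
        switchStep (psi x) (mSecond a b c e) (mFirst a b c e) = psi (sw4 a b c e x)) := by
  by_cases hA : x.1 a c = true ∧ x.1 b e = true ∧ x.1 a e = false ∧ x.1 b c = false
  · obtain ⟨h1, h2, h3, h4⟩ := hA
    left
    constructor
    · unfold switchStep
      rw [if_pos ⟨subset_mFirst.2 ⟨h1, h2⟩, by
        rw [mSecond_eq]; exact disjoint_mFirst.2 ⟨h3, h4⟩⟩]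
      exact edges_after hd h1 h2 h3 h4
    · unfold switchStep
      rw [if_neg]
      rintro ⟨h5, _⟩
      rw [mSecond_eq, subset_mFirst, h3] at h5
      exact Bool.false_ne_true h5.1
  by_cases hB : x.1 a e = true ∧ x.1 b c = true ∧ x.1 a c = false ∧ x.1 b e = false
  · obtain ⟨h1, h2, h3, h4⟩ := hB
    right
    constructor
    · unfold switchStep
      rw [if_neg]
      rintro ⟨h5, _⟩
      rw [subset_mFirst, h3] at h5
      exact Bool.false_ne_true h5.1
    · unfold switchStep
      rw [if_pos ⟨by rw [mSecond_eq]; exact subset_mFirst.2 ⟨h1, h2⟩,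
        disjoint_mFirst.2 ⟨h3, h4⟩⟩]
      rw [← sw4_swap34 hd]
      exact edges_after hd.swap34 h1 h2 h3 h4
  · have hnc : ¬ center a b c e x := by
      rintro ⟨h1, h2, h3⟩
      cases h5 : x.1 a c
      · have h6 : x.1 a e = true := by
          rw [h5] at h3
          cases h7 : x.1 a e
          · rw [h7] at h3; exact absurd rfl h3
          · rfl
        exact hB ⟨h6, by rw [← h2]; exact h6, h5, by rw [← h1]; exact h5⟩
      · have h6 : x.1 a e = false := by
          rw [h5] at h3
          cases h7 : x.1 a e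
          · rfl
          · rw [h7] at h3; exact absurd rfl h3
        exact hA ⟨h5, by rw [← h1]; exact h5, h6, by rw [← h2]; exact h6⟩
    left
    rw [sw4_of_not hnc]
    constructor
    · unfold switchStep
      rw [if_neg]
      rintro ⟨h5, h6⟩
      rw [subset_mFirst] at h5
      rw [mSecond_eq, disjoint_mFirst] at h6
      exact hA ⟨h5.1, h5.2, h6.1, h6.2⟩
    · unfold switchStep
      rw [if_neg]
      rintro ⟨h5, h6⟩
      rw [mSecond_eq, subset_mFirst] at h5
      rw [disjoint_mFirst] at h6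
      exact hB ⟨h5.1, h5.2, h6.1, h6.2⟩

/-- Two tuples with the same pair of matchings have the same flip. -/
theorem sw4_same {a' b' c' e' : Fin n} (hd : Dist4 a b c e) (hd' : Dist4 a' b' c' e')
    (h1 : mFirst a b c e = mFirst a' b' c' e') (h2 : mSecond a b c e = mSecond a' b' c' e')
    (x : Om d) : sw4 a b c e x = sw4 a' b' c' e' x := by
  have p1 := sw_pair hd x
  have p2 := sw_pair hd' x
  rw [← h1, ← h2] at p2
  rcases p1 with ⟨q1, q2⟩ | ⟨q1, q2⟩ <;> rcases p2 with ⟨r1, r2⟩ | ⟨r1, r2⟩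
  · exact psi_inj (q1.symm.trans r1)
  · have s1 : sw4 a b c e x = x := psi_inj (q1.symm.trans r1)
    have s2 : sw4 a' b' c' e' x = x := psi_inj (r2.symm.trans q2)
    rw [s1, s2]
  · have s1 : sw4 a' b' c' e' x = x := psi_inj (r1.symm.trans q1)
    have s2 : sw4 a b c e x = x := psi_inj (q2.symm.trans r2)
    rw [s1, s2]
  · exact psi_inj (q2.symm.trans r2)

end Vale.Agent.P335
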