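import Vale.Agent.P335.Bridge2

/-! Perfect matchings on a four-element set. -/

set_option linter.unusedSectionVars false

open Finset BigOperators

namespace Vale.Agent.P335

variable {n : ℕ} {a b c e : Fin n}

lemma mem_perfectMatchings {S : Finset (Fin n)} {F : EdgeSet n} : F ∈ perfectMatchings S ↔
    (F ⊆ powersetCard 2 S ∧ F.card = 2) ∧ ∀ e ∈ F, ∀ e' ∈ F, e ≠ e' → Disjoint e e' := by
  unfold perfectMatchings
  rw [mem_filter, mem_powersetCard]

/-- Shape of a perfect matching seen from a vertex. -/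
lemma PM_shape {S : Finset (Fin n)} (hS : S.card = 4) {F : EdgeSet n} (hF : F ∈ perfectMatchings S)
    {a : Fin n} (ha : a ∈ S) : ∃ y ∈ S, y ≠ a ∧ F = {{a, y}, S \ {a, y}} := by
  obtain ⟨⟨h1, h2⟩, h3⟩ := mem_perfectMatchings.1 hF
  obtain ⟨e1, e2, hne, rfl⟩ := card_eq_two.1 h2
  have he1 := mem_powersetCard.1 (h1 (by simp : e1 ∈ ({e1, e2} : EdgeSet n)))
  have he2 := mem_powersetCard.1 (h1 (by simp : e2 ∈ ({e1, e2} : EdgeSet n)))
  have hdis : Disjoint e1 e2 := h3 e1 (by simp) e2 (by simp) hne
  have hun : e1 ∪ e2 = S := by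
    apply eq_of_subset_of_card_le (union_subset he1.1 he2.1)
    rw [card_union_of_disjoint hdis, he1.2, he2.2, hS]
  have key : ∀ x y : Finset (Fin n), x ∪ y = S → Disjoint x y → y = S \ x := by
    intro x y hxy hd
    ext z
    rw [mem_sdiff, ← hxy, mem_union]
    constructor
    · intro hz
      exact ⟨Or.inr hz, fun h => (disjoint_left.1 hd) h hz⟩
    · rintro ⟨h4 | h4, h5⟩
      · exact absurd h4 h5
      · exact h4
  have key2 : ∀ x : Finset (Fin n), x.card = 2 → x ⊆ S → a ∈ x → ∃ y ∈ S, y ≠ a ∧ x = {a, y} := by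
    intro x hx hxS hax
    obtain ⟨p, q, hpq, rfl⟩ := card_eq_two.1 hx
    simp only [mem_insert, mem_singleton] at hax
    rcases hax with rfl | rfl
    · exact ⟨q, hxS (by simp), hpq.symm, rfl⟩
    · exact ⟨p, hxS (by simp), hpq, pair_comm _ _⟩
  have ha' : a ∈ e1 ∪ e2 := by rw [hun]; exact ha
  rcases mem_union.1 ha' with h5 | h5
  · obtain ⟨y, hy, hya, he⟩ := key2 e1 he1.2 he1.1 h5
    refine ⟨y, hy, hya, ?_⟩
    rw [← he, ← key e1 e2 hun hdis]
  · obtain ⟨y, hy, hya, he⟩ := key2 e2 he2.2 he2.1 h5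
    refine ⟨y, hy, hya, ?_⟩
    rw [← he, ← key e2 e1 (by rw [union_comm]; exact hun) hdis.symm, pair_comm]

lemma S_card (hd : Dist4 a b c e) : ({a, b, c, e} : Finset (Fin n)).card = 4 := by
  rw [card_insert_of_notMem (by simp [hd.ab, hd.ac, hd.ae]),
    card_insert_of_notMem (by simp [hd.bc, hd.be]), card_pair hd.ce]

/-- The three matchings on four points. -/
lemma PM_classify (hd : Dist4 a b c e) {F : EdgeSet n} :
    F ∈ perfectMatchings ({a, b, c, e} : Finset (Fin n)) ↔
      F = mFirst a c b e ∨ F = mFirst a b c e ∨ F = mSecond a b c e := by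
  constructor
  · intro hF
    obtain ⟨y, hy, hya, rfl⟩ := PM_shape (S_card hd) hF (a := a) (by simp)
    simp only [mem_insert, mem_singleton] at hy
    have n1 := hd.ab
    have n2 := hd.ac
    have n3 := hd.ae
    have n4 := hd.bc
    have n5 := hd.be
    have n6 := hd.ce
    rcases hy with rfl | rfl | rfl | rfl
    · exact absurd rfl hya
    · left
      unfold mFirst
      congr 2
      ext z
      simp only [mem_sdiff, mem_insert, mem_singleton]
      constructor
      · tauto
      · rintro (rfl | rfl)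
        · simp [n2.symm, n4.symm]
        · simp [n3.symm, n5.symm]
    · right; left
      unfold mFirst
      congr 2
      ext z
      simp only [mem_sdiff, mem_insert, mem_singleton]
      constructor
      · tauto
      · rintro (rfl | rfl)
        · simp [n1.symm, n4]
        · simp [n3.symm, n6.symm]
    · right; right
      unfold mSecond
      congr 2
      ext z
      simp only [mem_sdiff, mem_insert, mem_singleton]
      constructor
      · tauto
      · rintro (rfl | rfl)
        · simp [n1.symm, n5]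
        · simp [n2.symm, n6]
  · have n1 := hd.ab
    have n2 := hd.ac
    have n3 := hd.ae
    have n4 := hd.bc
    have n5 := hd.be
    have n6 := hd.ce
    have aux : ∀ {p q r s : Fin n}, p ≠ q → r ≠ s → p ≠ r → p ≠ s → q ≠ r → q ≠ s →
        (∀ z, z = p ∨ z = q ∨ z = r ∨ z = s → z ∈ ({a, b, c, e} : Finset (Fin n))) →
        ({{p, q}, {r, s}} : EdgeSet n) ∈ perfectMatchings ({a, b, c, e} : Finset (Fin n)) := by
      intro p q r s h1 h2 h3 h4 h5 h6 h7
      have hne : ({p, q} : Finset (Fin n)) ≠ {r, s} := by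
        intro h
        rcases pair_eq_pair_iff'.1 h with ⟨h8, _⟩ | ⟨h8, _⟩
        · exact h3 h8
        · exact h4 h8
      have hdis : Disjoint ({p, q} : Finset (Fin n)) {r, s} := by
        simp [h3.symm, h4.symm, h5.symm, h6.symm]
      refine mem_perfectMatchings.2 ⟨⟨?_, card_pair hne⟩, ?_⟩
      · rw [insert_subset_iff, singleton_subset_iff, mem_powersetCard, mem_powersetCard]
        refine ⟨⟨?_, card_pair h1⟩, ⟨?_, card_pair h2⟩⟩
        · intro z hz
          apply h7
          simp only [mem_insert, mem_singleton] at hz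
          tauto
        · intro z hz
          apply h7
          simp only [mem_insert, mem_singleton] at hz
          tauto
      · intro x hx y hy hxy
        simp only [mem_insert, mem_singleton] at hx hy
        rcases hx with rfl | rfl <;> rcases hy with rfl | rfl
        · exact absurd rfl hxy
        · exact hdis
        · exact hdis.symm
        · exact absurd rfl hxy
    rintro (rfl | rfl | rfl)
    · refine aux n1 n6 n2 n3 n4 n5 ?_
      intro z hz
      simp only [mem_insert, mem_singleton]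
      tauto
    · refine aux n2 n5 n1 n3 n4.symm n6 ?_
      intro z hz
      simp only [mem_insert, mem_singleton]
      tauto
    · refine aux n3 n4 n1 n2 n5.symm n6.symm ?_
      intro z hz
      simp only [mem_insert, mem_singleton]
      tauto

lemma exists_four {S : Finset (Fin n)} (hS : S.card = 4) :
    ∃ a b c e : Fin n, Dist4 a b c e ∧ S = {a, b, c, e} := by
  obtain ⟨a, t, hat, rfl, ht⟩ := card_eq_succ.1 hS
  obtain ⟨b, c, e, h1, h2, h3, rfl⟩ := card_eq_three.1 ht
  simp only [mem_insert, mem_singleton, not_or] at hat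
  exact ⟨a, b, c, e, ⟨hat.1, hat.2.1, hat.2.2, h1, h2, h3⟩, rfl⟩

lemma M_ne (hd : Dist4 a b c e) : mFirst a c b e ≠ mFirst a b c e ∧
    mFirst a c b e ≠ mSecond a b c e ∧ mFirst a b c e ≠ mSecond a b c e := by
  have n1 := hd.ab
  have n2 := hd.ac
  have n3 := hd.ae
  have n4 := hd.bc
  have n5 := hd.be
  have n6 := hd.ce
  refine ⟨?_, ?_, ?_⟩
  · intro h
    have h1 : ({a, b} : Finset (Fin n)) ∈ mFirst a b c e := by
      rw [← h]; simp [mFirst]
    rw [mem_mFirst] at h1
    simp [n1, n2, n3, n4, n5, n6, n1.symm, n2.symm, n3.symm, n4.symm, n5.symm, n6.symm] at h1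
  · intro h
    have h1 : ({a, b} : Finset (Fin n)) ∈ mFirst a b e c := by
      rw [← mSecond_eq, ← h]; simp [mFirst]
    rw [mem_mFirst] at h1
    simp [n1, n2, n3, n4, n5, n6, n1.symm, n2.symm, n3.symm, n4.symm, n5.symm, n6.symm] at h1
  · intro h
    have h1 : ({a, c} : Finset (Fin n)) ∈ mFirst a b e c := by
      rw [← mSecond_eq, ← h]; simp [mFirst]
    rw [mem_mFirst] at h1
    simp [n1, n2, n3, n4, n5, n6, n1.symm, n2.symm, n3.symm, n4.symm, n5.symm, n6.symm] at h1

/-- There are three perfect matchings on a four-element set. -/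
lemma card_PM {S : Finset (Fin n)} (hS : S.card = 4) : (perfectMatchings S).card = 3 := by
  obtain ⟨a, b, c, e, hd, rfl⟩ := exists_four hS
  obtain ⟨h1, h2, h3⟩ := M_ne hd
  refine card_eq_three.2 ⟨_, _, _, h1, h2, h3, ?_⟩
  ext F
  rw [PM_classify hd]
  simp

lemma card_offDiag_PM {S : Finset (Fin n)} (hS : S.card = 4) :
    (perfectMatchings S).offDiag.card = 6 := by
  rw [offDiag_card, card_PM hS]

lemma S_perm1 (a b c e : Fin n) : ({a, b, c, e} : Finset (Fin n)) = {a, e, b, c} := by
  ext z; simp only [mem_insert, mem_singleton]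
  constructor <;> (rintro (h | h | h | h) <;> simp [h])

lemma S_perm2 (a b c e : Fin n) : ({a, b, c, e} : Finset (Fin n)) = {a, c, b, e} := by
  ext z; simp only [mem_insert, mem_singleton]
  constructor <;> (rintro (h | h | h | h) <;> simp [h])

lemma S_perm3 (a b c e : Fin n) : ({a, b, c, e} : Finset (Fin n)) = {a, e, c, b} := by
  ext z; simp only [mem_insert, mem_singleton]
  constructor <;> (rintro (h | h | h | h) <;> simp [h])

lemma S_perm4 (a b c e : Fin n) : ({a, b, c, e} : Finset (Fin n)) = {a, c, e, b} := by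
  ext z; simp only [mem_insert, mem_singleton]
  constructor <;> (rintro (h | h | h | h) <;> simp [h])

lemma S_perm5 (a b c e : Fin n) : ({a, b, c, e} : Finset (Fin n)) = {a, b, e, c} := by
  ext z; simp only [mem_insert, mem_singleton]
  constructor <;> (rintro (h | h | h | h) <;> simp [h])

/-- Every ordered pair of distinct perfect matchings comes from a tuple. -/
theorem exists_tuple {S : Finset (Fin n)} (hS : S.card = 4) {p : EdgeSet n × EdgeSet n}
    (hp : p ∈ (perfectMatchings S).offDiag) :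
    ∃ a b c e : Fin n, Dist4 a b c e ∧ S = {a, b, c, e} ∧ p.1 = mFirst a b c e ∧
      p.2 = mSecond a b c e := by
  obtain ⟨a, b, c, e, hd, rfl⟩ := exists_four hS
  obtain ⟨F, F'⟩ := p
  obtain ⟨h1, h2, h3⟩ := mem_offDiag.1 hp
  simp only at h1 h2 h3
  rw [PM_classify hd] at h1 h2
  have n1 := hd.ab
  have n2 := hd.ac
  have n3 := hd.ae
  have n4 := hd.bc
  have n5 := hd.be
  have n6 := hd.ce
  rcases h1 with rfl | rfl | rfl <;> rcases h2 with rfl | rfl | rfl
  · exact absurd rfl h3
  · -- M1, M2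
    refine ⟨a, e, b, c, ⟨n3, n1, n2, n5.symm, n6.symm, n4⟩, S_perm1 a b c e, ?_, ?_⟩
    · show mFirst a c b e = mFirst a e b c
      unfold mFirst; rw [pair_comm c e]
    · show mFirst a b c e = mSecond a e b c
      unfold mFirst mSecond; rw [pair_comm b e]
  · -- M1, M3
    refine ⟨a, c, b, e, ⟨n2, n1, n3, n4.symm, n6, n5⟩, S_perm2 a b c e, rfl, ?_⟩
    show mSecond a b c e = mSecond a c b e
    unfold mSecond; rw [pair_comm b c]
  · -- M2, M1
    refine ⟨a, e, c, b, ⟨n3, n2, n1, n6.symm, n5.symm, n4.symm⟩, S_perm3 a b c e, ?_, ?_⟩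
    · show mFirst a b c e = mFirst a e c b
      unfold mFirst; rw [pair_comm b e]
    · show mFirst a c b e = mSecond a e c b
      unfold mFirst mSecond; rw [pair_comm c e]
  · exact absurd rfl h3
  · exact ⟨a, b, c, e, hd, rfl, rfl, rfl⟩
  · -- M3, M1
    refine ⟨a, c, e, b, ⟨n2, n3, n1, n6, n4.symm, n5.symm⟩, S_perm4 a b c e, ?_, rfl⟩
    show mSecond a b c e = mFirst a c e b
    unfold mFirst mSecond; rw [pair_comm b c]
  · -- M3, M2
    exact ⟨a, b, e, c, hd.swap34, S_perm5 a b c e, rfl, rfl⟩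
  · exact absurd rfl h3

/-- The tuple map lands in the ordered pairs of matchings. -/
lemma tuple_mem (hd : Dist4 a b c e) :
    (mFirst a b c e, mSecond a b c e) ∈ (perfectMatchings ({a, b, c, e} : Finset (Fin n))).offDiag := by
  refine mem_offDiag.2 ⟨?_, ?_, (M_ne hd).2.2⟩
  · exact (PM_classify hd).2 (Or.inr (Or.inl rfl))
  · exact (PM_classify hd).2 (Or.inr (Or.inr rfl))

/-- A tuple is determined by its first vertex and its two matchings. -/
lemma tuple_inj {b' c' e' : Fin n} (hd : Dist4 a b c e) (hd' : Dist4 a b' c' e')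
    (h1 : mFirst a b c e = mFirst a b' c' e') (h2 : mSecond a b c e = mSecond a b' c' e') :
    b = b' ∧ c = c' ∧ e = e' := by
  have n1 := hd.ab
  have n2 := hd.ac
  have n3 := hd.ae
  have n4 := hd.bc
  have n5 := hd.be
  have n6 := hd.ce
  have m1 := hd'.ab
  have m2 := hd'.ac
  have m3 := hd'.ae
  have m4 := hd'.bc
  have m5 := hd'.be
  have m6 := hd'.ce
  have a1 : ({a, c} : Finset (Fin n)) ∈ mFirst a b' c' e' := by rw [← h1]; simp [mFirst]
  have a2 : ({b, e} : Finset (Fin n)) ∈ mFirst a b' c' e' := by rw [← h1]; simp [mFirst]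
  have a3 : ({a, e} : Finset (Fin n)) ∈ mFirst a b' e' c' := by
    rw [← mSecond_eq, ← h2]; simp [mSecond]
  rw [mem_mFirst] at a1 a2 a3
  have hc : c = c' := by
    rcases a1 with ⟨_, h⟩ | ⟨h, _⟩ | ⟨h, _⟩ | ⟨h, _⟩
    · exact h
    · exact absurd h m2
    · exact absurd h m1
    · exact absurd h m3
  have he : e = e' := by
    rcases a3 with ⟨_, h⟩ | ⟨h, _⟩ | ⟨h, _⟩ | ⟨h, _⟩
    · exact h
    · exact absurd h m3
    · exact absurd h m1
    · exact absurd h m2
  refine ⟨?_, hc, he⟩
  rcases a2 with ⟨h, _⟩ | ⟨h, _⟩ | ⟨h, _⟩ | ⟨h, _⟩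
  · exact absurd h.symm n1
  · rw [← hc] at h; exact absurd h n4
  · exact h
  · rw [← he] at h; exact absurd h n5

end Vale.Agent.P335
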