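import Vale.Agent.P335.Knabe1

/-! The spectral gap of the pair operator and the flip energy. -/

set_option linter.unusedSectionVars false

open Finset BigOperators

namespace Vale.Agent.P335

variable {V : Type*} [Fintype V] [DecidableEq V] {d : V → ℕ}

/-- The pair operator as a linear map. -/
noncomputable def Qlin (d : V → ℕ) : (Om d → ℝ) →ₗ[ℝ] (Om d → ℝ) :=
  ∑ a, ∑ b, if a ≠ b then (LinearMap.id - cndL (key ({a, b} : Finset V))) else 0

lemma Qlin_apply (f : Om d → ℝ) : Qlin d f = Qf f := by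
  unfold Qlin Qf
  rw [LinearMap.sum_apply]
  refine sum_congr rfl (fun a _ => ?_)
  rw [LinearMap.sum_apply]
  refine sum_congr rfl (fun b _ => ?_)
  split_ifs
  · rfl
  · rfl

lemma ip_Pp_left (a b : V) (f g : Om d → ℝ) : ip (Pp a b f) g = ip f (Pp a b g) := by
  unfold Pp Rp
  rw [ip_sub_left, ip_sub_right, ip_cnd]

lemma ip_Pp_self (a b : V) (f : Om d → ℝ) : ip (Pp a b f) (Pp a b f) = ip f (Pp a b f) := by
  rw [ip_Pp_left]
  unfold Pp Rp
  rw [cnd_sub, cnd_cnd_self, sub_self, sub_zero]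

lemma E2_eq (f : Om d → ℝ) : E2 f = ip f (Qf f) := by
  rw [ip_Qf_right]
  unfold E2
  refine sum_congr rfl (fun a _ => sum_congr rfl (fun b _ => ?_))
  rw [ip_Pp_self]

lemma Qf_symm (f g : Om d → ℝ) : ip (Qf f) g = ip f (Qf g) := by
  rw [ip_Qf_left, ip_Qf_right]
  refine sum_congr rfl (fun a _ => sum_congr rfl (fun b _ => ?_))
  rw [ip_Pp_left]

lemma E2_nonneg (f : Om d → ℝ) : 0 ≤ E2 f := by
  unfold E2
  refine sum_nonneg (fun a _ => sum_nonneg (fun b _ => ?_))
  split_ifs
  · exact ip_self_nonneg _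
  · exact le_rfl

lemma Pp_zero_of_E2 {f : Om d → ℝ} (h : E2 f = 0) (a b : V) (hab : a ≠ b) : Pp a b f = 0 := by
  unfold E2 at h
  have h1 := (sum_eq_zero_iff_of_nonneg (fun a _ => sum_nonneg (fun b _ => by
    split_ifs
    · exact ip_self_nonneg _
    · exact le_rfl))).1 h a (mem_univ a)
  have h2 := (sum_eq_zero_iff_of_nonneg (fun b _ => by
    split_ifs
    · exact ip_self_nonneg _
    · exact le_rfl)).1 h1 b (mem_univ b)
  rw [if_pos hab] at h2
  exact ip_self_eq_zero h2

/-- The Poincare inequality for the pair operator. -/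
theorem gap_pair (f : Om d → ℝ) (h0 : ∑ G, f G = 0) : (1 / 2) * ip f f ≤ E2 f := by
  have h1 := gap_of_square (Qlin d)
    (fun f g => by rw [Qlin_apply, Qlin_apply, Qf_symm])
    (fun f => by rw [Qlin_apply, ← E2_eq]; exact E2_nonneg f)
    (1 / 2)
    (fun f => by rw [Qlin_apply, ← E2_eq]; exact Qf_sq_ge f)
    f
    (fun e he => by
      rw [Qlin_apply] at he
      have h2 : E2 e = 0 := by rw [E2_eq, he, ip_zero_right]
      have hc := connect e (fun a b hab => Pp_zero_of_E2 h2 a b hab)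
      rcases isEmpty_or_nonempty (Om d) with hem | ⟨⟨G₀⟩⟩
      · simp [ip]
      · unfold ip
        rw [sum_congr rfl (fun G _ => by rw [hc G G₀]), ← sum_mul, h0, zero_mul])
  rwa [Qlin_apply, ← E2_eq] at h1

/-- The main Poincare inequality for the flip energy. -/
theorem main_gap (f : Om d → ℝ) (h0 : ∑ G, f G = 0) : ip f f ≤ EE f := by
  have h1 := gap_pair f h0
  have h2 := EE_ge f
  linarith

end Vale.Agent.P335
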