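import Vale.Agent.P335.Bridge3
import Vale.Agent.P335.Knabe2

/-! The switch chain as a lazy mixture of flips; the contraction estimate. -/

set_option linter.unusedSectionVars false

open Finset BigOperators

namespace Vale.Agent.P335

variable {n : ℕ} {d : Fin n → ℕ}

/-- The index set of proposed switches. -/
abbrev IdxT (n : ℕ) := (_ : Finset (Fin n)) × (EdgeSet n × EdgeSet n)

/-- The proposed switches: four-element sets with an ordered pair of distinct matchings. -/
noncomputable def idxI (n : ℕ) : Finset (IdxT n) :=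
  (powersetCard 4 (univ : Finset (Fin n))).sigma (fun S => (perfectMatchings S).offDiag)

lemma mem_idxI {i : IdxT n} : i ∈ idxI n ↔ i.1.card = 4 ∧ i.2 ∈ (perfectMatchings i.1).offDiag := by
  unfold idxI
  rw [mem_sigma, mem_powersetCard]
  simp

lemma card_idxI : (idxI n).card = 6 * n.choose 4 := by
  unfold idxI
  rw [card_sigma]
  have h1 : ∀ S ∈ powersetCard 4 (univ : Finset (Fin n)), (perfectMatchings S).offDiag.card = 6 :=
    fun S hS => card_offDiag_PM (mem_powersetCard.1 hS).2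
  rw [sum_congr rfl h1, sum_const, card_powersetCard, card_univ, Fintype.card_fin, smul_eq_mul,
    mul_comm]

/-- The quadruple sets. -/
abbrev Tup (n : ℕ) := Fin n × Fin n × Fin n × Fin n

/-- Being a tuple of a proposed switch. -/
def TupOf (i : IdxT n) (t : Tup n) : Prop :=
  Dist4 t.1 t.2.1 t.2.2.1 t.2.2.2 ∧ i.1 = {t.1, t.2.1, t.2.2.1, t.2.2.2} ∧
    i.2.1 = mFirst t.1 t.2.1 t.2.2.1 t.2.2.2 ∧ i.2.2 = mSecond t.1 t.2.1 t.2.2.1 t.2.2.2

lemma exists_tupOf {i : IdxT n} (hi : i ∈ idxI n) : ∃ t, TupOf i t := by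
  obtain ⟨h1, h2⟩ := mem_idxI.1 hi
  obtain ⟨a, b, c, e, h3, h4, h5, h6⟩ := exists_tuple h1 h2
  exact ⟨(a, b, c, e), h3, h4, h5, h6⟩

/-- The flip of a tuple, as a function of the tuple. -/
noncomputable def swT (t : Tup n) (x : Om d) : Om d := sw4 t.1 t.2.1 t.2.2.1 t.2.2.2 x

/-- The flip energy of a tuple. -/
noncomputable def SqT (f : Om d → ℝ) (t : Tup n) : ℝ := Sq f t.1 t.2.1 t.2.2.1 t.2.2.2

lemma SqT_nonneg (f : Om d → ℝ) (t : Tup n) : 0 ≤ SqT f t :=
  sum_nonneg (fun _ _ => mul_nonneg (by norm_num) (sq_nonneg _))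

lemma swT_same {i : IdxT n} {t t' : Tup n} (h : TupOf i t) (h' : TupOf i t') (x : Om d) :
    swT t x = swT t' x :=
  sw4_same h.1 h'.1 (h.2.2.1.symm.trans h'.2.2.1) (h.2.2.2.symm.trans h'.2.2.2) x

lemma SqT_same {i : IdxT n} {t t' : Tup n} (h : TupOf i t) (h' : TupOf i t') (f : Om d → ℝ) :
    SqT f t = SqT f t' := by
  unfold SqT Sq
  refine sum_congr rfl (fun x _ => ?_)
  have := swT_same (d := d) h h' x
  unfold swT at this
  rw [this]

/-- The set of quadruples of distinct vertices. -/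
noncomputable def tupT (n : ℕ) : Finset (Tup n) :=
  univ.filter (fun t => Dist4 t.1 t.2.1 t.2.2.1 t.2.2.2)

lemma EE_eq (f : Om d → ℝ) : EE f = ∑ t ∈ tupT n, SqT f t := by
  unfold EE tupT SqT
  rw [sum_filter]
  simp only [Fintype.sum_prod_type]

/-- The proposed switch of a tuple. -/
def tauT (t : Tup n) : IdxT n :=
  ⟨{t.1, t.2.1, t.2.2.1, t.2.2.2},
    (mFirst t.1 t.2.1 t.2.2.1 t.2.2.2, mSecond t.1 t.2.1 t.2.2.1 t.2.2.2)⟩

lemma tauT_mem {t : Tup n} (ht : t ∈ tupT n) : tauT t ∈ idxI n := by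
  have hd : Dist4 t.1 t.2.1 t.2.2.1 t.2.2.2 := (mem_filter.1 ht).2
  exact mem_idxI.2 ⟨S_card hd, tuple_mem hd⟩

lemma tupOf_tauT {t : Tup n} (ht : t ∈ tupT n) : TupOf (tauT t) t :=
  ⟨(mem_filter.1 ht).2, rfl, rfl, rfl⟩

/-- A bound for the number of tuples of a proposed switch. -/
lemma card_fibre_le {i : IdxT n} (hi : i ∈ idxI n) :
    ((tupT n).filter (fun t => tauT t = i)).card ≤ 4 := by
  have h1 : i.1.card = 4 := (mem_idxI.1 hi).1
  rw [← h1]
  apply card_le_card_of_injOn (fun t => t.1)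
  · intro t ht
    have ht' := mem_filter.1 (mem_coe.1 ht)
    have : i.1 = {t.1, t.2.1, t.2.2.1, t.2.2.2} := by rw [← ht'.2]; rfl
    show t.1 ∈ i.1
    rw [this]
    simp
  · intro t ht t' ht' hh
    have h2 := mem_filter.1 (mem_coe.1 ht)
    have h3 := mem_filter.1 (mem_coe.1 ht')
    have h4 : tauT t = tauT t' := h2.2.trans h3.2.symm
    obtain ⟨a, b, c, e⟩ := t
    obtain ⟨a', b', c', e'⟩ := t'
    simp only at hh
    subst hh
    have hd : Dist4 a b c e := (mem_filter.1 h2.1).2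
    have hd' : Dist4 a b' c' e' := (mem_filter.1 h3.1).2
    have h5 : mFirst a b c e = mFirst a b' c' e' := congrArg (fun i : IdxT n => i.2.1) h4
    have h6 : mSecond a b c e = mSecond a b' c' e' := congrArg (fun i : IdxT n => i.2.2) h4
    obtain ⟨rfl, rfl, rfl⟩ := tuple_inj hd hd' h5 h6
    rfl

/-- The total flip energy against the sum over proposed switches. -/
theorem EE_le (f : Om d → ℝ) (tup : IdxT n → Tup n) (htup : ∀ i ∈ idxI n, TupOf i (tup i)) :
    EE f ≤ 4 * ∑ i ∈ idxI n, SqT f (tup i) := by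
  rw [EE_eq, ← sum_fiberwise_of_maps_to (fun t ht => tauT_mem ht), mul_sum]
  refine sum_le_sum (fun i hi => ?_)
  have h1 : ∀ t ∈ (tupT n).filter (fun t => tauT t = i), SqT f t = SqT f (tup i) := by
    intro t ht
    obtain ⟨h2, h3⟩ := mem_filter.1 ht
    have h4 := tupOf_tauT h2
    rw [h3] at h4
    exact SqT_same h4 (htup i hi) f
  rw [sum_congr rfl h1, sum_const, nsmul_eq_mul]
  have h5 : (((tupT n).filter (fun t => tauT t = i)).card : ℝ) ≤ 4 := by
    exact_mod_cast card_fibre_le hi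
  exact mul_le_mul_of_nonneg_right h5 (SqT_nonneg f _)

/-- The transition matrix on Boolean matrices. -/
noncomputable def Pm (x y : Om d) : ℝ := stepProb (psi x) (psi y)

/-- The reversed proposed switch. -/
def revI (i : IdxT n) : IdxT n := ⟨i.1, (i.2.2, i.2.1)⟩

lemma revI_revI (i : IdxT n) : revI (revI i) = i := rfl

lemma revI_mem {i : IdxT n} (hi : i ∈ idxI n) : revI i ∈ idxI n := by
  obtain ⟨h1, h2⟩ := mem_idxI.1 hi
  refine mem_idxI.2 ⟨h1, ?_⟩
  obtain ⟨h3, h4, h5⟩ := mem_offDiag.1 h2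
  exact mem_offDiag.2 ⟨h4, h3, h5.symm⟩

/-- The contribution of a proposed switch to the action on a function. -/
noncomputable def uI (i : IdxT n) (g : Om d → ℝ) (x : Om d) : ℝ :=
  ∑ y : Om d, if switchStep (psi x) i.2.1 i.2.2 = psi y then g y else 0

lemma uI_of_eq {i : IdxT n} {g : Om d → ℝ} {x y₀ : Om d}
    (h : switchStep (psi x) i.2.1 i.2.2 = psi y₀) : uI i g x = g y₀ := by
  unfold uI
  rw [h]
  have : ∀ y : Om d, (if psi y₀ = psi y then g y else 0) = if y₀ = y then g y else 0 := by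
    intro y
    by_cases h1 : y₀ = y
    · simp [h1]
    · have : psi y₀ ≠ psi y := fun h2 => h1 (psi_inj h2)
      simp [h1, this]
  rw [sum_congr rfl (fun y _ => this y), sum_ite_eq]
  simp

lemma uI_add {i : IdxT n} {t : Tup n} (ht : TupOf i t) (g : Om d → ℝ) (x : Om d) :
    uI i g x + uI (revI i) g x = g x + g (swT t x) := by
  obtain ⟨hd, _, h2, h3⟩ := ht
  rcases sw_pair (d := d) hd x with ⟨q1, q2⟩ | ⟨q1, q2⟩
  · rw [uI_of_eq (i := i) (y₀ := swT t x) (by rw [h2, h3]; exact q1),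
      uI_of_eq (i := revI i) (y₀ := x) (by
        show switchStep (psi x) i.2.2 i.2.1 = psi x
        rw [h2, h3]; exact q2)]
    ring
  · rw [uI_of_eq (i := i) (y₀ := x) (by rw [h2, h3]; exact q1),
      uI_of_eq (i := revI i) (y₀ := swT t x) (by
        show switchStep (psi x) i.2.2 i.2.1 = psi (swT t x)
        rw [h2, h3]; exact q2)]

lemma sum_uI_rev (g : Om d → ℝ) (x : Om d) :
    ∑ i ∈ idxI n, uI (revI i) g x = ∑ i ∈ idxI n, uI i g x := by
  refine sum_nbij' revI revI (fun i hi => revI_mem hi) (fun i hi => revI_mem hi) (fun _ _ => rfl)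
    (fun _ _ => rfl) (fun _ _ => rfl)

/-- A rewriting of the transition probability. -/
lemma stepProb_eq (G G' : EdgeSet n) :
    stepProb G G' = (1 / 2) * (if G' = G then 1 else 0)
      + (1 / 2) * (1 / ((n.choose 4 : ℕ) : ℝ)) * (1 / 6)
        * ∑ i ∈ idxI n, if switchStep G i.2.1 i.2.2 = G' then (1 : ℝ) else 0 := by
  unfold stepProb idxI
  rw [← sum_sigma' (powersetCard 4 (univ : Finset (Fin n))) (fun S => (perfectMatchings S).offDiag)
    (fun _ p => if switchStep G p.1 p.2 = G' then (1 : ℝ) else 0)]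
  congr 1
  rw [mul_sum, mul_sum]
  refine sum_congr rfl (fun S _ => ?_)
  rw [← mul_sum]
  ring

/-- The action of the transition matrix on a function. -/
lemma Pm_action (g : Om d → ℝ) (x : Om d) :
    ∑ y, Pm x y * g y = (1 / 2) * g x
      + (1 / 2) * (1 / ((n.choose 4 : ℕ) : ℝ)) * (1 / 6) * ∑ i ∈ idxI n, uI i g x := by
  unfold Pm
  simp only [stepProb_eq]
  simp only [add_mul, sum_add_distrib]
  congr 1
  · have : ∀ y : Om d, (1 / 2 : ℝ) * (if psi y = psi x then 1 else 0) * g y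
        = if y = x then (1 / 2) * g y else 0 := by
      intro y
      by_cases h1 : y = x
      · simp [h1]
      · have : psi y ≠ psi x := fun h2 => h1 (psi_inj h2)
        simp [h1, this]
    rw [sum_congr rfl (fun y _ => this y), sum_ite_eq']
    simp
  · unfold uI
    simp only [mul_assoc]
    rw [← mul_sum, ← mul_sum, ← mul_sum]
    congr 3
    rw [sum_comm]
    refine sum_congr rfl (fun y _ => ?_)
    rw [sum_mul]
    refine sum_congr rfl (fun i _ => ?_)
    split_ifs <;> simp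

end Vale.Agent.P335
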