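import Vale.Agent.P335.Bridge4

/-! The contraction estimate for the switch chain. -/

set_option linter.unusedSectionVars false

open Finset BigOperators

namespace Vale.Agent.P335

variable {n : ℕ} {d : Fin n → ℕ}

lemma exists_tup (hn : 4 ≤ n) : ∃ tup : IdxT n → Tup n, ∀ i ∈ idxI n, TupOf i (tup i) := by
  classical
  have hne : Nonempty (Tup n) :=
    ⟨(⟨0, by omega⟩, ⟨0, by omega⟩, ⟨0, by omega⟩, ⟨0, by omega⟩)⟩
  have h : ∀ i : IdxT n, ∃ t, i ∈ idxI n → TupOf i t := fun i => by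
    by_cases hi : i ∈ idxI n
    · obtain ⟨t, ht⟩ := exists_tupOf hi
      exact ⟨t, fun _ => ht⟩
    · exact ⟨Classical.arbitrary _, fun h => absurd h hi⟩
  choose tup htup using h
  exact ⟨tup, htup⟩

lemma choose_pos' (hn : 4 ≤ n) : (0 : ℝ) < ((n.choose 4 : ℕ) : ℝ) := by
  exact_mod_cast Nat.choose_pos hn

lemma NI_eq : (((idxI n).card : ℕ) : ℝ) = 6 * ((n.choose 4 : ℕ) : ℝ) := by
  rw [card_idxI]; push_cast; ring

lemma NI_pos (hn : 4 ≤ n) : (0 : ℝ) < (((idxI n).card : ℕ) : ℝ) := by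
  rw [NI_eq]
  have := choose_pos' hn
  positivity

/-- The action of the chain through the flips. -/
lemma action2 (hn : 4 ≤ n) {tup : IdxT n → Tup n} (htup : ∀ i ∈ idxI n, TupOf i (tup i))
    (g : Om d → ℝ) (x : Om d) :
    ∑ y, Pm x y * g y = (1 / 2) * g x
      + (1 / (4 * (((idxI n).card : ℕ) : ℝ))) * ∑ i ∈ idxI n, (g x + g (swT (tup i) x)) := by
  rw [Pm_action]
  have h1 : ∑ i ∈ idxI n, (g x + g (swT (tup i) x)) = 2 * ∑ i ∈ idxI n, uI i g x := by
    rw [sum_congr rfl (fun i hi => (uI_add (htup i hi) g x).symm), sum_add_distrib, sum_uI_rev]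
    ring
  rw [h1, NI_eq]
  have := choose_pos' hn
  field_simp
  ring

lemma swT_invol {t : Tup n} (hd : Dist4 t.1 t.2.1 t.2.2.1 t.2.2.2) :
    Function.Involutive (swT t : Om d → Om d) :=
  fun x => sw4_sw4 hd x

lemma sum_swT {t : Tup n} (hd : Dist4 t.1 t.2.1 t.2.2.1 t.2.2.2) (g : Om d → ℝ) :
    ∑ x, g (swT t x) = ∑ x, g x :=
  Function.Bijective.sum_comp (swT_invol hd).bijective g

/-- The decrease of the norm in terms of the flip energies. -/
lemma contract1 (hn : 4 ≤ n) {tup : IdxT n → Tup n} (htup : ∀ i ∈ idxI n, TupOf i (tup i))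
    (g : Om d → ℝ) :
    ∑ x, (∑ y, Pm x y * g y) ^ 2 ≤ ∑ x, (g x) ^ 2
      - (1 / (2 * (((idxI n).card : ℕ) : ℝ))) * ∑ i ∈ idxI n, SqT g (tup i) := by
  have hN := NI_pos hn
  set N : ℝ := (((idxI n).card : ℕ) : ℝ) with hNd
  set R : IdxT n → Om d → ℝ := fun i x => (g x + g (swT (tup i) x)) / 2 with hR
  have h1 : ∀ x, (∑ y, Pm x y * g y) ^ 2 ≤ (1 / 2) * (g x) ^ 2
      + (1 / (2 * N)) * ∑ i ∈ idxI n, (R i x) ^ 2 := by
    intro x
    rw [action2 hn htup]
    have h2 : ∑ i ∈ idxI n, (g x + g (swT (tup i) x)) = 2 * ∑ i ∈ idxI n, R i x := by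
      rw [mul_sum]
      refine sum_congr rfl (fun i _ => ?_)
      simp only [hR]
      ring
    rw [h2]
    have h3 := sq_sum_le_card_mul_sum_sq (s := idxI n) (f := fun i => R i x)
    have h4 : (∑ i ∈ idxI n, R i x) ^ 2 ≤ N * ∑ i ∈ idxI n, (R i x) ^ 2 := h3
    set Y := ∑ i ∈ idxI n, R i x with hY
    set Z := ∑ i ∈ idxI n, (R i x) ^ 2 with hZ
    have h5 : (1 / 2 * g x + 1 / (4 * N) * (2 * Y)) ^ 2
        = (1 / 4) * (g x + Y / N) ^ 2 := by
      field_simp
      ring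
    rw [h5]
    have h6 : (Y / N) ^ 2 ≤ Z / N := by
      rw [div_pow, div_le_div_iff₀ (by positivity) hN]
      nlinarith [sq_nonneg Y]
    have h7 : 1 / (2 * N) * Z = (1 / 2) * (Z / N) := by
      field_simp
    rw [h7]
    nlinarith [sq_nonneg (g x - Y / N)]
  have h8 : ∀ i ∈ idxI n, ∑ x, (R i x) ^ 2 = ∑ x, (g x) ^ 2 - SqT g (tup i) := by
    intro i hi
    have hd := (htup i hi).1
    have h9 : ∀ x, (R i x) ^ 2 = (1 / 2) * (g x) ^ 2 + (1 / 2) * (g (swT (tup i) x)) ^ 2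
        - (1 / 4) * (g x - g (swT (tup i) x)) ^ 2 := by
      intro x
      simp only [hR]
      ring
    simp only [h9, sum_sub_distrib, sum_add_distrib, ← mul_sum]
    rw [sum_swT hd (fun x => (g x) ^ 2)]
    unfold SqT Sq
    rw [← mul_sum]
    unfold swT
    ring
  calc ∑ x, (∑ y, Pm x y * g y) ^ 2
      ≤ ∑ x, ((1 / 2) * (g x) ^ 2 + (1 / (2 * N)) * ∑ i ∈ idxI n, (R i x) ^ 2) :=
        sum_le_sum (fun x _ => h1 x)
    _ = (1 / 2) * ∑ x, (g x) ^ 2 + (1 / (2 * N)) * ∑ i ∈ idxI n, ∑ x, (R i x) ^ 2 := by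
        rw [sum_add_distrib, ← mul_sum, ← mul_sum, sum_comm]
    _ = (1 / 2) * ∑ x, (g x) ^ 2 + (1 / (2 * N)) *
          ∑ i ∈ idxI n, (∑ x, (g x) ^ 2 - SqT g (tup i)) := by
        rw [sum_congr rfl h8]
    _ = ∑ x, (g x) ^ 2 - (1 / (2 * N)) * ∑ i ∈ idxI n, SqT g (tup i) := by
        rw [sum_sub_distrib, sum_const, nsmul_eq_mul, ← hNd]
        field_simp
        ring

/-- The contraction estimate on functions of mean zero. -/
theorem contract (hn : 4 ≤ n) (g : Om d → ℝ) (h0 : ∑ x, g x = 0) :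
    ∑ x, (∑ y, Pm x y * g y) ^ 2
      ≤ (1 - 1 / (48 * ((n.choose 4 : ℕ) : ℝ))) * ∑ x, (g x) ^ 2 := by
  obtain ⟨tup, htup⟩ := exists_tup hn
  have h1 := contract1 hn htup g
  have h2 := EE_le g tup htup
  have h3 := main_gap g h0
  have hC := choose_pos' hn
  have h4 : ip g g = ∑ x, (g x) ^ 2 := sum_congr rfl (fun x _ => by ring)
  rw [h4] at h3
  rw [NI_eq] at h1
  have h5 : (1 / (2 * (6 * ((n.choose 4 : ℕ) : ℝ)))) * (∑ x, (g x) ^ 2 / 4)
      ≤ (1 / (2 * (6 * ((n.choose 4 : ℕ) : ℝ)))) * ∑ i ∈ idxI n, SqT g (tup i) := by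
    apply mul_le_mul_of_nonneg_left _ (by positivity)
    rw [← sum_div]
    linarith
  have h6 : (1 - 1 / (48 * ((n.choose 4 : ℕ) : ℝ))) * ∑ x, (g x) ^ 2
      = ∑ x, (g x) ^ 2 - (1 / (2 * (6 * ((n.choose 4 : ℕ) : ℝ)))) * (∑ x, (g x) ^ 2 / 4) := by
    rw [← sum_div]
    field_simp
    ring
  rw [h6]
  linarith

/-- The row sums of the transition matrix. -/
theorem Pm_row (hn : 4 ≤ n) (x : Om d) : ∑ y, Pm x y = 1 := by
  obtain ⟨tup, htup⟩ := exists_tup hn
  have h1 := action2 hn htup (fun _ : Om d => (1 : ℝ)) x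
  simp only [mul_one, sum_const, nsmul_eq_mul] at h1
  rw [h1]
  have := NI_pos hn
  field_simp
  ring

/-- The symmetry of the transition matrix. -/
theorem Pm_symm (hn : 4 ≤ n) (x y : Om d) : Pm x y = Pm y x := by
  classical
  obtain ⟨tup, htup⟩ := exists_tup hn
  have key : ∀ x y : Om d, Pm x y = (1 / 2) * (if x = y then 1 else 0)
      + (1 / (4 * (((idxI n).card : ℕ) : ℝ))) * ∑ i ∈ idxI n,
        ((if x = y then 1 else 0) + (if swT (tup i) x = y then 1 else 0)) := by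
    intro x y
    have h1 := action2 (d := d) hn htup (fun z => if z = y then (1 : ℝ) else 0) x
    simp only [mul_ite, mul_one, mul_zero, sum_ite_eq', mem_univ, if_true] at h1
    rw [h1]
    congr 1
    by_cases h : x = y <;> simp [h]
  rw [key x y, key y x]
  have h2 : ∀ i ∈ idxI n, ((if x = y then (1 : ℝ) else 0) + (if swT (tup i) x = y then 1 else 0))
      = ((if y = x then 1 else 0) + (if swT (tup i) y = x then 1 else 0)) := by
    intro i hi
    have hinv := swT_invol (d := d) (htup i hi).1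
    have h3 : swT (tup i) x = y ↔ swT (tup i) y = x := by
      constructor
      · intro h; rw [← h, hinv x]
      · intro h; rw [← h, hinv y]
    simp only [h3, eq_comm]
  rw [sum_congr rfl h2]
  simp only [eq_comm]

end Vale.Agent.P335
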