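import Mathlib

/-! Conditional expectations on finite types, as averages over fibres of a key. -/

open Finset BigOperators

namespace Vale.Agent.P335

variable {α β γ δ : Type*} [Fintype α]

/-- The standard inner product on real functions on a finite type. -/
noncomputable def ip (f g : α → ℝ) : ℝ := ∑ x, f x * g x

lemma ip_comm (f g : α → ℝ) : ip f g = ip g f := by simp [ip, mul_comm]

lemma ip_add_left (f g h : α → ℝ) : ip (f + g) h = ip f h + ip g h := by
  simp [ip, add_mul, sum_add_distrib]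

lemma ip_add_right (f g h : α → ℝ) : ip f (g + h) = ip f g + ip f h := by
  simp [ip, mul_add, sum_add_distrib]

lemma ip_sub_left (f g h : α → ℝ) : ip (f - g) h = ip f h - ip g h := by
  simp [ip, sub_mul, sum_sub_distrib]

lemma ip_sub_right (f g h : α → ℝ) : ip f (g - h) = ip f g - ip f h := by
  simp [ip, mul_sub, sum_sub_distrib]

lemma ip_smul_left (c : ℝ) (f g : α → ℝ) : ip (c • f) g = c * ip f g := by
  simp [ip, mul_sum, mul_assoc]

lemma ip_smul_right (c : ℝ) (f g : α → ℝ) : ip f (c • g) = c * ip f g := by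
  simp only [ip, Pi.smul_apply, smul_eq_mul, mul_sum]
  exact sum_congr rfl (fun x _ => by ring)

lemma ip_neg_left (f g : α → ℝ) : ip (-f) g = - ip f g := by
  simp [ip, sum_neg_distrib]

lemma ip_neg_right (f g : α → ℝ) : ip f (-g) = - ip f g := by
  simp [ip, sum_neg_distrib]

lemma ip_zero_left (g : α → ℝ) : ip 0 g = 0 := by simp [ip]

lemma ip_zero_right (f : α → ℝ) : ip f 0 = 0 := by simp [ip]

lemma ip_self_nonneg (f : α → ℝ) : 0 ≤ ip f f :=
  sum_nonneg (fun x _ => mul_self_nonneg _)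

lemma ip_self_eq_zero {f : α → ℝ} (h : ip f f = 0) : f = 0 := by
  funext x
  have h2 := (sum_eq_zero_iff_of_nonneg (fun y _ => mul_self_nonneg (f y))).1 h x (mem_univ x)
  simpa using h2

lemma ip_sum_left {ι : Type*} (s : Finset ι) (F : ι → α → ℝ) (g : α → ℝ) :
    ip (∑ i ∈ s, F i) g = ∑ i ∈ s, ip (F i) g := by
  classical
  induction s using Finset.induction_on with
  | empty => simp [ip]
  | insert a s ha ih => rw [sum_insert ha, sum_insert ha, ip_add_left, ih]

lemma ip_sum_right {ι : Type*} (s : Finset ι) (F : ι → α → ℝ) (g : α → ℝ) :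
    ip g (∑ i ∈ s, F i) = ∑ i ∈ s, ip g (F i) := by
  rw [ip_comm, ip_sum_left]
  exact sum_congr rfl (fun i _ => ip_comm _ _)

lemma cauchy_ip (f g : α → ℝ) : (ip f g) ^ 2 ≤ ip f f * ip g g := by
  have := Finset.sum_mul_sq_le_sq_mul_sq (univ : Finset α) f g
  simpa [ip, pow_two] using this

open Classical in
/-- The fibre of the key `k` through the point `x`. -/
noncomputable def fib (k : α → β) (x : α) : Finset α := univ.filter (fun y => k y = k x)

@[simp] lemma mem_fib {k : α → β} {x y : α} : y ∈ fib k x ↔ k y = k x := by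
  simp [fib]

lemma self_mem_fib (k : α → β) (x : α) : x ∈ fib k x := by simp

lemma fib_eq {k : α → β} {x y : α} (h : k x = k y) : fib k x = fib k y := by
  ext z; simp [h]

lemma card_fib_pos (k : α → β) (x : α) : 0 < (fib k x).card :=
  card_pos.2 ⟨x, self_mem_fib k x⟩

lemma card_fib_ne (k : α → β) (x : α) : ((fib k x).card : ℝ) ≠ 0 := by
  have := card_fib_pos k x
  positivity

/-- Conditional expectation with respect to the key `k`: the average over the fibre of `k`. -/
noncomputable def cnd (k : α → β) (f : α → ℝ) : α → ℝ :=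
  fun x => (∑ y ∈ fib k x, f y) / (fib k x).card

lemma cnd_apply (k : α → β) (f : α → ℝ) (x : α) :
    cnd k f x = (∑ y ∈ fib k x, f y) / (fib k x).card := rfl

lemma cnd_eq_of_key (k : α → β) (f : α → ℝ) {x y : α} (h : k x = k y) :
    cnd k f x = cnd k f y := by
  simp only [cnd_apply, fib_eq h]

lemma fib_congr {k : α → β} {k' : α → γ} (h : ∀ x y, k x = k y ↔ k' x = k' y) (x : α) :
    fib k x = fib k' x := by
  ext y; simp [h y x]

lemma cnd_congr {k : α → β} {k' : α → γ} (h : ∀ x y, k x = k y ↔ k' x = k' y) (f : α → ℝ) :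
    cnd k f = cnd k' f := by
  funext x; simp only [cnd_apply, fib_congr h x]

lemma cnd_of_meas {k : α → β} {f : α → ℝ} (hf : ∀ x y, k x = k y → f x = f y) :
    cnd k f = f := by
  funext x
  rw [cnd_apply, sum_congr rfl (fun y hy => hf y x (mem_fib.1 hy)), sum_const, nsmul_eq_mul,
    mul_comm, mul_div_assoc, div_self (card_fib_ne k x), mul_one]

lemma cnd_add (k : α → β) (f g : α → ℝ) : cnd k (f + g) = cnd k f + cnd k g := by
  funext x; simp [cnd_apply, sum_add_distrib, add_div]

lemma cnd_sub (k : α → β) (f g : α → ℝ) : cnd k (f - g) = cnd k f - cnd k g := by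
  funext x; simp [cnd_apply, sum_sub_distrib, sub_div]

lemma cnd_neg (k : α → β) (f : α → ℝ) : cnd k (-f) = - cnd k f := by
  funext x; simp [cnd_apply, sum_neg_distrib, neg_div]

lemma cnd_smul (k : α → β) (c : ℝ) (f : α → ℝ) : cnd k (c • f) = c • cnd k f := by
  funext x
  simp only [cnd_apply, Pi.smul_apply, smul_eq_mul, ← mul_sum, mul_div_assoc]

lemma cnd_sum {ι : Type*} (s : Finset ι) (k : α → β) (F : ι → α → ℝ) :
    cnd k (∑ i ∈ s, F i) = ∑ i ∈ s, cnd k (F i) := by
  classical
  induction s using Finset.induction_on with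
  | empty =>
    funext x; simp [cnd_apply]
  | insert a s ha ih => rw [sum_insert ha, sum_insert ha, cnd_add, ih]

lemma cnd_const (k : α → β) (c : ℝ) : cnd k (fun _ => c) = fun _ => c :=
  cnd_of_meas (fun _ _ _ => rfl)

lemma cnd_cnd_self (k : α → β) (f : α → ℝ) : cnd k (cnd k f) = cnd k f :=
  cnd_of_meas (fun _ _ h => cnd_eq_of_key k f h)

/-- Tower property when `k` refines `k'`: conditioning on the finer key after the coarser one. -/
lemma cnd_fine_coarse {k : α → β} {k' : α → γ} (h : ∀ x y, k x = k y → k' x = k' y)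
    (f : α → ℝ) : cnd k (cnd k' f) = cnd k' f :=
  cnd_of_meas (fun _ _ hxy => cnd_eq_of_key k' f (h _ _ hxy))

open Classical in
lemma cnd_eq_sum_ite (k : α → β) (f : α → ℝ) (x : α) :
    cnd k f x = ∑ y, if k y = k x then f y / (fib k x).card else 0 := by
  rw [cnd_apply, fib, sum_filter, sum_div]
  exact sum_congr rfl (fun y _ => by split_ifs <;> simp)

/-- Self-adjointness of the conditional expectation. -/
lemma ip_cnd (k : α → β) (f g : α → ℝ) : ip (cnd k f) g = ip f (cnd k g) := by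
  classical
  simp only [ip, cnd_eq_sum_ite, sum_mul, mul_sum]
  rw [sum_comm]
  refine sum_congr rfl (fun x _ => sum_congr rfl (fun y _ => ?_))
  by_cases h : k x = k y
  · rw [if_pos h, if_pos h.symm, fib_eq h]; ring
  · rw [if_neg h, if_neg (fun h' => h h'.symm)]; ring

/-- Tower property when `k` refines `k'`: the coarser conditioning absorbs the finer one. -/
lemma cnd_coarse_fine {k : α → β} {k' : α → γ} (h : ∀ x y, k x = k y → k' x = k' y)
    (f : α → ℝ) : cnd k' (cnd k f) = cnd k' f := by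
  classical
  funext x
  have key : ∀ g : α → ℝ, ∑ y ∈ fib k' x, g y = ip g (fun y => if k' y = k' x then 1 else 0) := by
    intro g
    simp [ip, fib, sum_filter]
  have hm : cnd k (fun y => if k' y = k' x then (1 : ℝ) else 0)
      = fun y => if k' y = k' x then (1 : ℝ) else 0 :=
    cnd_of_meas (fun a b hab => by simp only [h a b hab])
  rw [cnd_apply, cnd_apply, key, key f, ip_cnd, hm]

lemma ip_cnd_cnd (k : α → β) (f g : α → ℝ) : ip (cnd k f) (cnd k g) = ip f (cnd k g) := by
  rw [ip_cnd, cnd_cnd_self]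

lemma ip_cnd_meas {k : α → β} (f : α → ℝ) {g : α → ℝ} (hg : ∀ x y, k x = k y → g x = g y) :
    ip (cnd k f) g = ip f g := by
  rw [ip_cnd, cnd_of_meas hg]

/-- The defect `f - cnd k f` is orthogonal to `k`-measurable functions. -/
lemma ip_defect_meas {k : α → β} (f : α → ℝ) {g : α → ℝ} (hg : ∀ x y, k x = k y → g x = g y) :
    ip (f - cnd k f) g = 0 := by
  rw [ip_sub_left, ip_cnd_meas f hg, sub_self]

lemma ip_cnd_self_eq (k : α → β) (f : α → ℝ) : ip (cnd k f) (cnd k f) = ip f (cnd k f) :=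
  ip_cnd_cnd k f f

/-- Conditional Jensen: conditioning decreases the norm. -/
lemma ip_cnd_le (k : α → β) (f : α → ℝ) : ip (cnd k f) (cnd k f) ≤ ip f f := by
  have h := ip_self_nonneg (f - cnd k f)
  rw [ip_sub_left, ip_sub_right, ip_sub_right, ip_comm (cnd k f) f, ip_cnd_self_eq] at h
  rw [ip_cnd_self_eq]
  linarith

/-- Jensen between two keys: if `k` refines `k'` then `cnd k'` has smaller norm. -/
lemma ip_cnd_mono {k : α → β} {k' : α → γ} (h : ∀ x y, k x = k y → k' x = k' y) (f : α → ℝ) :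
    ip (cnd k' f) (cnd k' f) ≤ ip (cnd k f) (cnd k f) := by
  have := ip_cnd_le k' (cnd k f)
  rwa [cnd_coarse_fine h] at this

lemma sum_cnd (k : α → β) (f : α → ℝ) : ∑ x, cnd k f x = ∑ x, f x := by
  have := ip_cnd k f (fun _ => 1)
  rw [cnd_const] at this
  simpa [ip] using this

/-- The constant key. -/
def triv : α → Unit := fun _ => ()

omit [Fintype α] in
lemma triv_refine {β : Type*} (k : α → β) : ∀ x y, k x = k y → (triv x : Unit) = triv y :=
  fun _ _ _ => rfl

lemma fib_triv (x : α) : fib (triv : α → Unit) x = univ := by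
  ext y; simp [triv]

lemma cnd_triv (f : α → ℝ) (x : α) :
    cnd (triv : α → Unit) f x = (∑ y, f y) / (Fintype.card α) := by
  rw [cnd_apply, fib_triv, card_univ]

/-- A function is constant once it has vanishing `cnd triv`-free statement: means of mean-zero
functions vanish. -/
lemma cnd_triv_of_sum_zero {f : α → ℝ} (hf : ∑ x, f x = 0) :
    cnd (triv : α → Unit) f = 0 := by
  funext x; rw [cnd_triv, hf]; simp

lemma abs_cnd_le (k : α → β) (f : α → ℝ) (x : α) {c : ℝ} (hc : ∀ y, k y = k x → |f y| ≤ c) :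
    |cnd k f x| ≤ c := by
  rw [cnd_apply, abs_div, Nat.abs_cast]
  have hpos : (0 : ℝ) < (fib k x).card := by exact_mod_cast card_fib_pos k x
  rw [div_le_iff₀ hpos]
  calc |∑ y ∈ fib k x, f y| ≤ ∑ y ∈ fib k x, |f y| := abs_sum_le_sum_abs _ _
    _ ≤ ∑ _y ∈ fib k x, c := sum_le_sum (fun y hy => hc y (mem_fib.1 hy))
    _ = c * (fib k x).card := by simp [mul_comm]

/-- Compatibility of conditional expectation with an injective map whose image contains the
whole fibre. -/
lemma cnd_comp_inj {α' : Type*} [Fintype α'] (e : α' → α) (he : Function.Injective e)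
    (k : α → β) (f : α → ℝ) (x : α') (hr : ∀ y, k y = k (e x) → ∃ z, e z = y) :
    cnd (k ∘ e) (f ∘ e) x = cnd k f (e x) := by
  have hfib : fib k (e x) = (fib (k ∘ e) x).map ⟨e, he⟩ := by
    ext y
    simp only [mem_fib, mem_map, Function.comp_apply, Function.Embedding.coeFn_mk]
    constructor
    · intro hy
      obtain ⟨z, rfl⟩ := hr y hy
      exact ⟨z, hy, rfl⟩
    · rintro ⟨z, hz, rfl⟩
      exact hz
  rw [cnd_apply, cnd_apply, hfib, sum_map, card_map]
  rfl

/-- Conditional expectation on a fibre subtype of a coarser key. -/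
lemma cnd_subtype (k₀ : α → γ) (k : α → β) (h : ∀ x y, k x = k y → k₀ x = k₀ y) (f : α → ℝ)
    (b : γ) [Fintype {x // k₀ x = b}] (x : {x // k₀ x = b}) :
    cnd (fun y : {x // k₀ x = b} => k y.1) (fun y => f y.1) x = cnd k f x.1 := by
  refine cnd_comp_inj (Subtype.val) Subtype.val_injective k f x ?_
  intro y hy
  exact ⟨⟨y, (h _ _ hy).trans x.2⟩, rfl⟩

/-- Fibrewise decomposition of a sum over a coarser key. -/
lemma sum_fibers [Fintype γ] (k₀ : α → γ) (F : α → ℝ) [∀ b, Fintype {x // k₀ x = b}] :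
    ∑ x, F x = ∑ b, ∑ x : {x // k₀ x = b}, F x.1 := by
  classical
  rw [← Finset.sum_fiberwise (univ : Finset α) k₀ F]
  refine sum_congr rfl (fun b _ => ?_)
  exact Finset.sum_subtype _ (fun x => by simp) F

/-- The identity for two keys refining a third. -/
lemma two_key {k₁ : α → β} {k₂ : α → γ} {k₀ : α → δ}
    (h₁ : ∀ x y, k₁ x = k₁ y → k₀ x = k₀ y) (h₂ : ∀ x y, k₂ x = k₂ y → k₀ x = k₀ y)
    (f : α → ℝ) :
    ip (f - cnd k₁ f) (f - cnd k₂ f) =
      ip (f - cnd k₁ f - cnd k₂ f + cnd k₀ f) (f - cnd k₁ f - cnd k₂ f + cnd k₀ f)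
        - ip (cnd k₁ f - cnd k₀ f) (cnd k₂ f - cnd k₀ f) := by
  have e1 : ip f (cnd k₁ f) = ip (cnd k₁ f) (cnd k₁ f) := (ip_cnd_self_eq k₁ f).symm
  have e2 : ip f (cnd k₂ f) = ip (cnd k₂ f) (cnd k₂ f) := (ip_cnd_self_eq k₂ f).symm
  have e0 : ip f (cnd k₀ f) = ip (cnd k₀ f) (cnd k₀ f) := (ip_cnd_self_eq k₀ f).symm
  have e10 : ip (cnd k₁ f) (cnd k₀ f) = ip (cnd k₀ f) (cnd k₀ f) := by
    rw [ip_comm, ip_cnd, cnd_coarse_fine h₁, ip_cnd_self_eq, ip_comm]
  have e20 : ip (cnd k₂ f) (cnd k₀ f) = ip (cnd k₀ f) (cnd k₀ f) := by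
    rw [ip_comm, ip_cnd, cnd_coarse_fine h₂, ip_cnd_self_eq, ip_comm]
  simp only [ip_add_left, ip_add_right, ip_sub_left, ip_sub_right]
  rw [ip_comm (cnd k₁ f) f, ip_comm (cnd k₂ f) f, ip_comm (cnd k₀ f) f,
    ip_comm (cnd k₂ f) (cnd k₁ f), ip_comm (cnd k₀ f) (cnd k₁ f), ip_comm (cnd k₀ f) (cnd k₂ f),
    e1, e2, e0, e10, e20]
  ring

end Vale.Agent.P335
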