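import Vale.Agent.P335.GraphFlip

/-! Connectivity of the switch moves. -/

set_option linter.unusedSectionVars false

open Finset BigOperators

namespace Vale.Agent.P335

variable {V : Type*} [Fintype V] [DecidableEq V] {d : V → ℕ}

/-- Residual degree outside `F`. -/
def resD (F : Finset V) (G : Om d) (x : V) : ℕ := ∑ t ∈ Fᶜ, (G.1 x t).toNat

lemma res_eq {F : Finset V} {G G' : Om d} (h : ∀ u ∈ F, ∀ w, G.1 u w = G'.1 u w) (x : V) :
    resD F G x = resD F G' x := by
  have h1 := dg_split G.1 x F
  have h2 := dg_split G'.1 x F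
  rw [G.2.deg] at h1
  rw [G'.2.deg] at h2
  have h3 : ∑ t ∈ F, (G.1 x t).toNat = ∑ t ∈ F, (G'.1 x t).toNat :=
    sum_congr rfl (fun t ht => by rw [G.2.symm, G'.2.symm, h t ht])
  unfold resD
  omega

lemma card_filter_bool (D : Finset V) (p : V → Bool) :
    (D.filter (fun z => p z = true)).card = ∑ z ∈ D, (p z).toNat := by
  rw [card_filter]
  refine sum_congr rfl (fun z _ => ?_)
  cases p z <;> simp

/-- Finding the fourth vertex of a switch. -/
lemma find_w {F : Finset V} {G : Om d} {a b v : V} (hab : a ≠ b) (ha : a ∉ F) (hb : b ∉ F)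
    (hv : v ∉ F) (hvb : v ≠ b) (h1 : G.1 v a = true) (h2 : G.1 v b = false)
    (hle : resD F G a ≤ resD F G b) :
    ∃ w, w ∉ F ∧ G.1 b w = true ∧ G.1 a w = false ∧ w ≠ a ∧ w ≠ b ∧ w ≠ v := by
  by_contra hno
  push Not at hno
  set A := Fᶜ.filter (fun t => G.1 a t = true) with hA
  set B := Fᶜ.filter (fun t => G.1 b t = true) with hB
  have hAc : A.card = resD F G a := card_filter_bool _ _
  have hBc : B.card = resD F G b := card_filter_bool _ _
  have hGbv : G.1 b v = false := by rw [G.2.symm]; exact h2
  have hGav : G.1 a v = true := by rw [G.2.symm]; exact h1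
  have hvA : v ∈ A.erase b := by
    simp only [hA, mem_erase, mem_filter, mem_compl]
    exact ⟨hvb, hv, hGav⟩
  have hsub : B.erase a ⊆ (A.erase b).erase v := by
    intro w hw
    simp only [hB, mem_erase, mem_filter, mem_compl] at hw
    obtain ⟨hwa, hwF, hwb⟩ := hw
    have hwb' : w ≠ b := by
      intro h
      rw [h, G.2.irrefl] at hwb
      exact Bool.false_ne_true hwb
    have hwv : w ≠ v := by
      intro h
      rw [h, hGbv] at hwb
      exact Bool.false_ne_true hwb
    simp only [hA, mem_erase, mem_filter, mem_compl]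
    refine ⟨hwv, hwb', hwF, ?_⟩
    by_contra hcon
    have hcon' : G.1 a w = false := by simpa using hcon
    exact hwv (hno w hwF hwb hcon' hwa hwb')
  have hc := card_le_card hsub
  rw [card_erase_of_mem hvA] at hc
  have hpos : 0 < (A.erase b).card := card_pos.2 ⟨v, hvA⟩
  have hiff : a ∈ B ↔ b ∈ A := by
    simp only [hA, hB, mem_filter, mem_compl, ha, hb, not_false_eq_true, true_and]
    rw [G.2.symm]
  rw [card_erase_eq_ite, card_erase_eq_ite] at hc
  rw [card_erase_eq_ite] at hpos
  by_cases h3 : b ∈ A
  · have h4 := hiff.2 h3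
    simp only [h3, h4, if_true] at hc hpos
    omega
  · have h4 : a ∉ B := fun h => h3 (hiff.1 h)
    simp only [h3, h4, if_false] at hc hpos
    omega

/-- One step of the reduction. -/
lemma conn_step {F : Finset V} {G G' : Om d} {a b v : V} (hag : ∀ u ∈ F, ∀ w, G.1 u w = G'.1 u w)
    (hv : v ∉ F) (h1 : G.1 v a = true) (h2 : G'.1 v a = false) (h3 : G.1 v b = false)
    (h4 : G'.1 v b = true) (hle : resD F G a ≤ resD F G b) :
    ∃ (w : V) (G'' : Om d), v ≠ w ∧ key {v, w} G'' = key {v, w} G ∧
      (∀ u ∈ F, ∀ t, G''.1 u t = G'.1 u t) ∧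
      (univ.filter (fun t => G''.1 v t ≠ G'.1 v t)).card
        < (univ.filter (fun t => G.1 v t ≠ G'.1 v t)).card := by
  have hab : a ≠ b := by
    intro h; rw [h, h3] at h1; exact Bool.false_ne_true h1
  have ha : a ∉ F := by
    intro h
    have := hag a h v
    rw [G.2.symm, G'.2.symm, h1, h2] at this
    exact Bool.noConfusion this
  have hb : b ∉ F := by
    intro h
    have := hag b h v
    rw [G.2.symm, G'.2.symm, h3, h4] at this
    exact Bool.noConfusion this
  have hva : v ≠ a := by
    intro h; rw [h, G.2.irrefl] at h1; exact Bool.false_ne_true h1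
  have hvb : v ≠ b := by
    intro h; rw [h, G'.2.irrefl] at h4; exact Bool.false_ne_true h4
  obtain ⟨w, hwF, hw1, hw2, hwa, hwb, hwv⟩ := find_w hab ha hb hv hvb h1 h3 hle
  have hd : Dist4 v w a b := ⟨hwv.symm, hva, hvb, hwa, hwb, hab⟩
  have hwb' : G.1 w b = true := by rw [G.2.symm]; exact hw1
  have hwa' : G.1 w a = false := by rw [G.2.symm]; exact hw2
  have hc : center v w a b G := by
    refine ⟨by rw [h1, hwb'], by rw [h3, hwa'], ?_⟩
    rw [h1, h3]
    decide
  refine ⟨w, sw4 v w a b G, hwv.symm, key_ab_sw4 hd G, ?_, ?_⟩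
  · intro u hu t
    rw [sw4_apply hd hc, hag u hu t]
    have n1 : u ≠ v := fun h => hv (h ▸ hu)
    have n2 : u ≠ w := fun h => hwF (h ▸ hu)
    have n3 : u ≠ a := fun h => ha (h ▸ hu)
    have n4 : u ≠ b := fun h => hb (h ▸ hu)
    simp [n1, n2, n3, n4]
  · apply card_lt_card
    rw [ssubset_iff_of_subset]
    · refine ⟨a, ?_, ?_⟩
      · simp [h1, h2]
      · simp only [mem_filter, mem_univ, true_and, not_not]
        rw [sw4_apply hd hc]
        simp [h1, h2]
    · intro t ht
      simp only [mem_filter, mem_univ, true_and] at ht ⊢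
      rw [sw4_apply hd hc] at ht
      by_cases h5 : t = a
      · subst h5; simp [h1, h2]
      by_cases h6 : t = b
      · subst h6; rw [h3, h4]; decide
      simpa [h5, h6, hva, hvb] using ht

/-- Rows with the same sum and a difference differ in both directions. -/
lemma exists_row_diff {G G' : Om d} {v : V} (h : ¬ ∀ t, G'.1 v t = G.1 v t) :
    ∃ a, G'.1 v a = true ∧ G.1 v a = false := by
  by_contra hno
  push Not at hno
  have hle : ∀ t ∈ (univ : Finset V), (G'.1 v t).toNat ≤ (G.1 v t).toNat := by
    intro t _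
    by_cases h1 : G'.1 v t = true
    · have h2 : G.1 v t ≠ false := hno t h1
      have h3 : G.1 v t = true := by simpa using h2
      rw [h1, h3]
    · have h3 : G'.1 v t = false := by simpa using h1
      rw [h3]; simp
  have hs : ∑ t, (G'.1 v t).toNat = ∑ t, (G.1 v t).toNat := by
    have h1 := G.2.deg v
    have h2 := G'.2.deg v
    unfold dg at h1 h2
    omega
  have := (sum_eq_sum_iff_of_le hle).1 hs
  exact h (fun t => toNat_inj (this t (mem_univ t)))

theorem connect_aux (f : Om d → ℝ)
    (hf : ∀ (v w : V) (G G' : Om d), v ≠ w → key {v, w} G = key {v, w} G' → f G = f G') :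
    ∀ (k : ℕ) (F : Finset V), Fᶜ.card = k → ∀ G G' : Om d,
      (∀ u ∈ F, ∀ w, G.1 u w = G'.1 u w) → f G = f G' := by
  intro k
  induction k with
  | zero =>
    intro F hF G G' hag
    have h1 : Fᶜ = ∅ := card_eq_zero.1 hF
    have h2 : F = univ := by simpa using h1
    have : G = G' := Om.ext' (fun u v => hag u (h2 ▸ mem_univ u) v)
    rw [this]
  | succ k ih =>
    intro F hF
    obtain ⟨v, hv⟩ : Fᶜ.Nonempty := card_pos.1 (by omega)
    have hvF : v ∉ F := mem_compl.1 hv
    have main : ∀ (m : ℕ) (G G' : Om d), (∀ u ∈ F, ∀ w, G.1 u w = G'.1 u w) →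
        (univ.filter (fun t => G.1 v t ≠ G'.1 v t)).card = m → f G = f G' := by
      intro m
      induction m using Nat.strong_induction_on with
      | _ m IH =>
        intro G G' hag hm
        by_cases hrow : ∀ t, G.1 v t = G'.1 v t
        · refine ih (insert v F) ?_ G G' ?_
          · have h1 : (insert v F)ᶜ = Fᶜ.erase v := by
              ext x
              simp only [mem_compl, mem_insert, mem_erase, not_or]
            rw [h1, card_erase_of_mem hv, hF]
            rfl
          · intro u hu w
            rcases mem_insert.1 hu with rfl | hu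
            · exact hrow w
            · exact hag u hu w
        · obtain ⟨a, h1, h2⟩ := exists_row_diff hrow
          obtain ⟨b, h4, h3⟩ := exists_row_diff (fun h => hrow (fun t => (h t).symm))
          by_cases hle : resD F G a ≤ resD F G b
          · obtain ⟨w, G'', hvw, hkey, hag'', hlt⟩ := conn_step hag hvF h1 h2 h3 h4 hle
            rw [← hf v w G'' G hvw hkey]
            exact IH _ (hm ▸ hlt) G'' G' hag'' rfl
          · have hle' : resD F G' b ≤ resD F G' a := by
              rw [← res_eq hag a, ← res_eq hag b]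
              omega
            have hag2 : ∀ u ∈ F, ∀ w, G'.1 u w = G.1 u w := fun u hu w => (hag u hu w).symm
            obtain ⟨w, G'', hvw, hkey, hag'', hlt⟩ := conn_step hag2 hvF h4 h3 h2 h1 hle'
            have hcomm : (univ.filter (fun t => G'.1 v t ≠ G.1 v t)).card = m := by
              rw [← hm]
              congr 1
              ext t
              simp [eq_comm]
            rw [← hf v w G'' G' hvw hkey]
            exact (IH _ (hcomm ▸ hlt) G'' G hag'' rfl).symm
    exact fun G G' hag => main _ G G' hag rfl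

/-- Functions invariant under all pair moves are constant. -/
theorem connect (f : Om d → ℝ) (h : ∀ a b : V, a ≠ b → Pp a b f = 0) (G G' : Om d) : f G = f G' := by
  refine connect_aux f ?_ _ ∅ rfl G G' (fun u hu => absurd hu (by simp))
  intro v w G G' hvw hk
  have h1 := h v w hvw
  have e1 : f = Rp v w f := sub_eq_zero.1 h1
  rw [e1]
  exact cnd_eq_of_key _ _ hk

end Vale.Agent.P335
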