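import Mathlib

/-! The switch chain on simple graphs with a prescribed degree sequence. -/

open Finset BigOperators

namespace Vale.Agent.P335

variable {n : ℕ}

/-- A simple graph on the vertex set `Fin n`, given by its set of edges; an edge is a
two-element subset of `Fin n`. -/
abbrev EdgeSet (n : ℕ) := Finset (Finset (Fin n))

/-- The degree of the vertex `v`: the number of edges containing `v`. -/
def degreeG (G : EdgeSet n) (v : Fin n) : ℕ := (G.filter (fun e => v ∈ e)).card

/-- The set `Ω_d` of all simple graphs on `Fin n` with degree `d v` at each vertex `v`. -/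
def Omega (d : Fin n → ℕ) : Finset (EdgeSet n) :=
  (powersetCard 2 (univ : Finset (Fin n))).powerset.filter (fun G => ∀ v, degreeG G v = d v)

/-- The perfect matchings of the complete graph on `S`, for `S` with four elements:
the sets of two disjoint two-element subsets of `S`. -/
def perfectMatchings (S : Finset (Fin n)) : Finset (EdgeSet n) :=
  (powersetCard 2 (powersetCard 2 S)).filter (fun F => ∀ e ∈ F, ∀ e' ∈ F, e ≠ e' → Disjoint e e')

/-- The outcome of a proposed switch `(F, F')` at `G`: if every edge of `F` is present and
every edge of `F'` is absent, replace `F` by `F'`; otherwise stay put. -/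
def switchStep (G F F' : EdgeSet n) : EdgeSet n :=
  if F ⊆ G ∧ Disjoint F' G then (G \ F) ∪ F' else G

/-- The transition probability `P_d(G, G')` of the switch chain: with probability `1/2` stay put;
otherwise choose a four-element set `S` uniformly and then one of the six ordered pairs
`(F, F')` of distinct perfect matchings on `S` uniformly, and apply the proposed switch. -/
noncomputable def stepProb (G G' : EdgeSet n) : ℝ :=
  (1 / 2) * (if G' = G then 1 else 0)
    + (1 / 2) * ∑ S ∈ powersetCard 4 (univ : Finset (Fin n)), (1 / ((n.choose 4 : ℕ) : ℝ)) *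
        ∑ p ∈ (perfectMatchings S).offDiag, (1 / 6) *
          (if switchStep G p.1 p.2 = G' then 1 else 0)

/-- The `t`-step distribution `P_d^t(G₀, ·)` of the switch chain on `Ω_d` started at `G₀`. -/
noncomputable def walk (d : Fin n → ℕ) (G₀ : EdgeSet n) : ℕ → EdgeSet n → ℝ
  | 0, G' => if G' = G₀ then 1 else 0
  | t + 1, G' => ∑ H ∈ Omega d, walk d G₀ t H * stepProb H G'

/-- The total variation distance between `P_d^t(G₀, ·)` and the uniform distribution on `Ω_d`. -/
noncomputable def tvToUniform (d : Fin n → ℕ) (G₀ : EdgeSet n) (t : ℕ) : ℝ :=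
  (1 / 2) * ∑ G' ∈ Omega d, |walk d G₀ t G' - 1 / ((Omega d).card : ℝ)|

/-- The mixing time: the least `t` with total variation distance at most `1/4` from every start. -/
noncomputable def tmix (d : Fin n → ℕ) : ℕ :=
  sInf {t : ℕ | ∀ G₀ ∈ Omega d, tvToUniform d G₀ t ≤ 1 / 4}

end Vale.Agent.P335
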