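import Vale.Agent.P335.Quad

/-! Labeled graphs as symmetric Boolean matrices with prescribed degrees. -/

set_option linter.unusedSectionVars false

open Finset BigOperators

namespace Vale.Agent.P335

variable {V : Type*} [Fintype V] [DecidableEq V]

/-- Degree of a vertex in a Boolean matrix. -/
def dg (x : V → V → Bool) (u : V) : ℕ := ∑ v, (x u v).toNat

/-- Symmetric Boolean matrices with zero diagonal and prescribed row sums. -/
structure IsGr (d : V → ℕ) (x : V → V → Bool) : Prop where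
  symm : ∀ u v, x u v = x v u
  irrefl : ∀ u, x u u = false
  deg : ∀ u, dg x u = d u

/-- The set of all graphs with degree sequence `d`. -/
abbrev Om (d : V → ℕ) := {x : V → V → Bool // IsGr d x}

noncomputable instance (d : V → ℕ) : Fintype (Om d) := by
  classical
  exact Subtype.fintype _

variable {d : V → ℕ}

lemma Om.ext' {G G' : Om d} (h : ∀ u v, G.1 u v = G'.1 u v) : G = G' :=
  Subtype.ext (funext fun u => funext fun v => h u v)

/-- The entries of `G` avoiding the set `S`. -/
def key (S : Finset V) (G : Om d) : V → V → Bool :=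
  fun u v => if u ∈ S ∨ v ∈ S then false else G.1 u v

lemma key_eq_iff {S : Finset V} {G G' : Om d} :
    key S G = key S G' ↔ ∀ u v, u ∉ S → v ∉ S → G.1 u v = G'.1 u v := by
  constructor
  · intro h u v hu hv
    have := congrFun (congrFun h u) v
    simpa [key, hu, hv] using this
  · intro h
    funext u v
    unfold key
    by_cases h1 : u ∈ S ∨ v ∈ S
    · simp [h1]
    · rw [not_or] at h1
      simp [h1, h u v h1.1 h1.2]

lemma key_mono {S S' : Finset V} (h : S ⊆ S') {G G' : Om d} (hk : key S G = key S G') :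
    key S' G = key S' G' := by
  rw [key_eq_iff] at hk ⊢
  exact fun u v hu hv => hk u v (fun h1 => hu (h h1)) (fun h1 => hv (h h1))

lemma dg_split (x : V → V → Bool) (u : V) (T : Finset V) :
    dg x u = ∑ v ∈ T, (x u v).toNat + ∑ v ∈ Tᶜ, (x u v).toNat :=
  (sum_add_sum_compl T _).symm

/-- Column sums over `T` are determined by the entries avoiding `T`. -/
lemma col_sum_eq {T : Finset V} {G G' : Om d} (hk : key T G = key T G') {u : V} (hu : u ∉ T) :
    ∑ t ∈ T, (G.1 u t).toNat = ∑ t ∈ T, (G'.1 u t).toNat := by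
  have h1 := dg_split G.1 u T
  have h2 := dg_split G'.1 u T
  rw [G.2.deg] at h1
  rw [G'.2.deg] at h2
  have h3 : ∑ v ∈ Tᶜ, (G.1 u v).toNat = ∑ v ∈ Tᶜ, (G'.1 u v).toNat := by
    refine sum_congr rfl (fun v hv => ?_)
    rw [key_eq_iff.1 hk u v hu (mem_compl.1 hv)]
  omega

/-- Row sums over `T` are determined by the entries avoiding `T`. -/
lemma row_sum_eq {T : Finset V} {G G' : Om d} (hk : key T G = key T G') {u : V} (hu : u ∉ T) :
    ∑ t ∈ T, (G.1 t u).toNat = ∑ t ∈ T, (G'.1 t u).toNat := by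
  have := col_sum_eq hk hu
  simpa only [G.2.symm u, G'.2.symm u] using this

/-- The double sum inside `T` is determined by the entries avoiding `T`. -/
lemma inner_sum_eq {T : Finset V} {G G' : Om d} (hk : key T G = key T G') :
    ∑ u ∈ T, ∑ v ∈ T, (G.1 u v).toNat = ∑ u ∈ T, ∑ v ∈ T, (G'.1 u v).toNat := by
  have key1 : ∀ G : Om d, ∑ u ∈ T, d u
      = ∑ u ∈ T, ∑ v ∈ T, (G.1 u v).toNat + ∑ v ∈ Tᶜ, ∑ u ∈ T, (G.1 v u).toNat := by
    intro G
    have h1 : ∀ u ∈ T, d u = ∑ v ∈ T, (G.1 u v).toNat + ∑ v ∈ Tᶜ, (G.1 v u).toNat := by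
      intro u _
      rw [← G.2.deg u, dg_split G.1 u T]
      simp only [G.2.symm u]
    rw [sum_congr rfl h1, sum_add_distrib, sum_comm (s := T) (t := Tᶜ)]
  have h1 := key1 G
  have h2 := key1 G'
  have h3 : ∑ v ∈ Tᶜ, ∑ u ∈ T, (G.1 v u).toNat = ∑ v ∈ Tᶜ, ∑ u ∈ T, (G'.1 v u).toNat :=
    sum_congr rfl (fun v hv => col_sum_eq hk (mem_compl.1 hv))
  omega

lemma toNat_inj {p q : Bool} (h : p.toNat = q.toNat) : p = q := by
  revert p q; decide

/-- The entry between `a` and `b` is determined by the entries avoiding `a, b`. -/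
lemma ab_same {a b : V} (hab : a ≠ b) {G G' : Om d} (hk : key {a, b} G = key {a, b} G') :
    G.1 a b = G'.1 a b := by
  have h := inner_sum_eq hk
  simp only [sum_pair hab, G.2.irrefl, G'.2.irrefl, G.2.symm b a, G'.2.symm b a] at h
  apply toNat_inj
  simp at h
  omega

/-- Replacing the rows indexed by `T`. -/
def repl (x : V → V → Bool) (T : Finset V) (ρ : V → V → Bool) : V → V → Bool :=
  fun u v => if u ∈ T then ρ u v else if v ∈ T then ρ v u else x u v

lemma repl_mem {x : V → V → Bool} {T : Finset V} {ρ : V → V → Bool} {u : V} (hu : u ∈ T) (v : V) :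
    repl x T ρ u v = ρ u v := by simp [repl, hu]

lemma repl_mem' {x : V → V → Bool} {T : Finset V} {ρ : V → V → Bool} {u v : V} (hu : u ∉ T)
    (hv : v ∈ T) : repl x T ρ u v = ρ v u := by simp [repl, hu, hv]

lemma repl_not {x : V → V → Bool} {T : Finset V} {ρ : V → V → Bool} {u v : V} (hu : u ∉ T)
    (hv : v ∉ T) : repl x T ρ u v = x u v := by simp [repl, hu, hv]

/-- Validity of the replacement of rows. -/
theorem repl_isGr {x : V → V → Bool} (hx : IsGr d x) {T : Finset V} {ρ : V → V → Bool}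
    (r1 : ∀ u ∈ T, ∀ v ∈ T, ρ u v = ρ v u) (r2 : ∀ u ∈ T, ρ u u = false)
    (r3 : ∀ v, v ∉ T → ∑ u ∈ T, (ρ u v).toNat = ∑ u ∈ T, (x u v).toNat)
    (r4 : ∀ u ∈ T, ∑ v, (ρ u v).toNat = d u) : IsGr d (repl x T ρ) := by
  constructor
  · intro u v
    by_cases hu : u ∈ T <;> by_cases hv : v ∈ T
    · rw [repl_mem hu, repl_mem hv, r1 u hu v hv]
    · rw [repl_mem hu, repl_mem' hv hu]
    · rw [repl_mem' hu hv, repl_mem hv]
    · rw [repl_not hu hv, repl_not hv hu, hx.symm]
  · intro u
    by_cases hu : u ∈ T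
    · rw [repl_mem hu, r2 u hu]
    · rw [repl_not hu hu, hx.irrefl]
  · intro u
    by_cases hu : u ∈ T
    · unfold dg
      simp only [repl_mem hu]
      exact r4 u hu
    · rw [dg_split _ u T, ← hx.deg u, dg_split x u T]
      have h1 : ∑ v ∈ T, (repl x T ρ u v).toNat = ∑ v ∈ T, (x u v).toNat := by
        rw [sum_congr rfl (fun v hv => by rw [repl_mem' hu hv]), r3 u hu]
        exact sum_congr rfl (fun v _ => by rw [hx.symm])
      have h2 : ∑ v ∈ Tᶜ, (repl x T ρ u v).toNat = ∑ v ∈ Tᶜ, (x u v).toNat :=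
        sum_congr rfl (fun v hv => by rw [repl_not hu (mem_compl.1 hv)])
      rw [h1, h2]

/-- The conditional expectation with respect to entries avoiding `a, b`. -/
noncomputable def Rp (a b : V) (f : Om d → ℝ) : Om d → ℝ := cnd (key ({a, b} : Finset V)) f

/-- The defect of `Rp`. -/
noncomputable def Pp (a b : V) (f : Om d → ℝ) : Om d → ℝ := f - Rp a b f

lemma Pp_comm (a b : V) (f : Om d → ℝ) : Pp a b f = Pp b a f := by
  unfold Pp Rp
  rw [pair_comm]

end Vale.Agent.P335
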