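import Vale.Agent.P335.Johnson3

/-! The second Johnson lemma: second moments and conclusion. -/

open Finset BigOperators

namespace Vale.Agent.P335

variable {E : Type*} [DecidableEq E]

/-- The number of `r`-subsets of an `m`-set containing a given `k`-subset. -/
noncomputable def nJ (m r k : ℕ) : ℝ := if k ≤ r then (((m - k).choose (r - k) : ℕ) : ℝ) else 0

lemma cnt_eq {D S : Finset E} (hS : S ⊆ D) (r : ℕ) :
    ∑ A ∈ powersetCard r D, (if S ⊆ A then (1 : ℝ) else 0) = nJ D.card r S.card := by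
  rw [sum_boole, card_filter_sub hS, nJ]
  split_ifs <;> simp

lemma cnt2 {D : Finset E} {c d : E} (hc : c ∈ D) (hd : d ∈ D) (hcd : c ≠ d) (r : ℕ) :
    ∑ A ∈ powersetCard r D, (if c ∈ A ∧ d ∈ A then (1 : ℝ) else 0) = nJ D.card r 2 := by
  have h := cnt_eq (D := D) (S := {c, d}) (by simp [insert_subset_iff, hc, hd]) r
  rw [card_pair hcd] at h
  rw [← h]
  refine sum_congr rfl (fun A _ => ?_)
  simp [insert_subset_iff]

lemma cnt3 {D : Finset E} {c d e : E} (hc : c ∈ D) (hd : d ∈ D) (he : e ∈ D) (hcd : c ≠ d)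
    (hce : c ≠ e) (hde : d ≠ e) (r : ℕ) :
    ∑ A ∈ powersetCard r D, (if c ∈ A ∧ d ∈ A ∧ e ∈ A then (1 : ℝ) else 0) = nJ D.card r 3 := by
  have h := cnt_eq (D := D) (S := {c, d, e}) (by simp [insert_subset_iff, hc, hd, he]) r
  rw [card_eq_three.2 ⟨c, d, e, hcd, hce, hde, rfl⟩] at h
  rw [← h]
  refine sum_congr rfl (fun A _ => ?_)
  simp [insert_subset_iff]

lemma cnt4 {D : Finset E} {c d e f : E} (hc : c ∈ D) (hd : d ∈ D) (he : e ∈ D) (hf : f ∈ D)
    (hcd : c ≠ d) (hce : c ≠ e) (hcf : c ≠ f) (hde : d ≠ e) (hdf : d ≠ f) (hef : e ≠ f) (r : ℕ) :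
    ∑ A ∈ powersetCard r D, (if c ∈ A ∧ d ∈ A ∧ e ∈ A ∧ f ∈ A then (1 : ℝ) else 0)
      = nJ D.card r 4 := by
  have h := cnt_eq (D := D) (S := {c, d, e, f}) (by simp [insert_subset_iff, hc, hd, he, hf]) r
  have hc4 : ({c, d, e, f} : Finset E).card = 4 := by
    rw [card_insert_of_notMem (by simp [hcd, hce, hcf]),
      card_eq_three.2 ⟨d, e, f, hde, hdf, hef, rfl⟩]
  rw [hc4] at h
  rw [← h]
  refine sum_congr rfl (fun A _ => ?_)
  simp [insert_subset_iff]

section Row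

variable {D : Finset E} {w : E → E → ℝ}

lemma row_D2 (hrow : ∀ c ∈ D, ∑ d ∈ D.erase c, w c d = 0) {c d : E} (hc : c ∈ D) (hd : d ∈ D)
    (hcd : c ≠ d) : ∑ e ∈ (D.erase c).erase d, w c e = - w c d := by
  have h := hrow c hc
  rw [← add_sum_erase _ _ (mem_erase.2 ⟨hcd.symm, hd⟩)] at h
  linarith

lemma row_D2' (hrow : ∀ c ∈ D, ∑ d ∈ D.erase c, w c d = 0) {c d : E} (hc : c ∈ D) (hd : d ∈ D)
    (hcd : c ≠ d) : ∑ e ∈ (D.erase c).erase d, w d e = - w d c := by
  have h := row_D2 hrow hd hc hcd.symm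
  rwa [erase_right_comm] at h

lemma inner_D2 (hsym : ∀ c d, w c d = w d c) (hrow : ∀ c ∈ D, ∑ d ∈ D.erase c, w c d = 0)
    {c d : E} (hc : c ∈ D) (hd : d ∈ D) (hcd : c ≠ d) :
    ∑ c' ∈ (D.erase c).erase d, ∑ d' ∈ ((D.erase c).erase d).erase c', w c' d' = 2 * w c d := by
  have h1 : ∀ c' ∈ (D.erase c).erase d, ∑ d' ∈ ((D.erase c).erase d).erase c', w c' d'
      = - w c c' - w d c' := by
    intro c' hc'
    have hc1 := mem_erase.1 hc'
    have hc2 := mem_erase.1 hc1.2
    have h := hrow c' hc2.2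
    have e1 : c ∈ D.erase c' := mem_erase.2 ⟨hc2.1.symm, hc⟩
    have e2 : d ∈ (D.erase c').erase c := mem_erase.2 ⟨hcd.symm, mem_erase.2 ⟨hc1.1.symm, hd⟩⟩
    rw [← add_sum_erase _ _ e1, ← add_sum_erase _ _ e2] at h
    have e3 : ((D.erase c').erase c).erase d = ((D.erase c).erase d).erase c' := by
      ext x; simp only [mem_erase]; tauto
    rw [e3] at h
    rw [hsym c c', hsym d c']
    linarith
  rw [sum_congr rfl h1, sum_sub_distrib, sum_neg_distrib, row_D2 hrow hc hd hcd,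
    row_D2' hrow hc hd hcd, hsym d c]
  ring

end Row

/-- The key identity for the pair weights. -/
lemma sum_Xi_on_pair {D : Finset E} {w : E → E → ℝ} (r : ℕ) (hsym : ∀ c d, w c d = w d c)
    (hrow : ∀ c ∈ D, ∑ d ∈ D.erase c, w c d = 0) {c d : E} (hc : c ∈ D) (hd : d ∈ D)
    (hcd : c ≠ d) :
    ∑ A ∈ powersetCard r D, (if c ∈ A ∧ d ∈ A then XiJ w A else 0)
      = 2 * (nJ D.card r 2 - 2 * nJ D.card r 3 + nJ D.card r 4) * w c d := by
  have h1 := sum_mul_Xi D r w (fun A => if c ∈ A ∧ d ∈ A then (1 : ℝ) else 0)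
  have h2 : ∀ A ∈ powersetCard r D, (if c ∈ A ∧ d ∈ A then (1 : ℝ) else 0) * XiJ w A
      = if c ∈ A ∧ d ∈ A then XiJ w A else 0 := by
    intro A _; split_ifs <;> simp
  rw [sum_congr rfl h2] at h1
  rw [h1, sum_pairs_split hc hd hcd]
  set n₂ := nJ D.card r 2 with hn₂
  set n₃ := nJ D.card r 3 with hn₃
  set n₄ := nJ D.card r 4 with hn₄
  set D₂ := (D.erase c).erase d with hD₂
  have hmem : ∀ e ∈ D₂, e ∈ D ∧ e ≠ c ∧ e ≠ d := by
    intro e he
    have h3 := mem_erase.1 he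
    have h4 := mem_erase.1 h3.2
    exact ⟨h4.2, h4.1, h3.1⟩
  have t1 : (∑ A ∈ powersetCard r D, if c ∈ A ∧ d ∈ A then
      (if c ∈ A ∧ d ∈ A then (1 : ℝ) else 0) else 0) = n₂ := by
    rw [hn₂, ← cnt2 hc hd hcd r]
    refine sum_congr rfl (fun A _ => ?_)
    split_ifs <;> simp
  have t2 : (∑ A ∈ powersetCard r D, if d ∈ A ∧ c ∈ A then
      (if c ∈ A ∧ d ∈ A then (1 : ℝ) else 0) else 0) = n₂ := by
    rw [hn₂, ← cnt2 hc hd hcd r]
    refine sum_congr rfl (fun A _ => ?_)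
    by_cases h3 : c ∈ A <;> by_cases h4 : d ∈ A <;> simp [h3, h4]
  have t3 : ∀ e ∈ D₂, (∑ A ∈ powersetCard r D, if c ∈ A ∧ e ∈ A then
      (if c ∈ A ∧ d ∈ A then (1 : ℝ) else 0) else 0) = n₃ := by
    intro e he
    obtain ⟨h5, h6, h7⟩ := hmem e he
    rw [hn₃, ← cnt3 hc hd h5 hcd h6.symm h7.symm r]
    refine sum_congr rfl (fun A _ => ?_)
    by_cases h3 : c ∈ A <;> by_cases h4 : d ∈ A <;> by_cases h8 : e ∈ A <;> simp [h3, h4, h8]
  have t4 : ∀ e ∈ D₂, (∑ A ∈ powersetCard r D, if d ∈ A ∧ e ∈ A then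
      (if c ∈ A ∧ d ∈ A then (1 : ℝ) else 0) else 0) = n₃ := by
    intro e he
    obtain ⟨h5, h6, h7⟩ := hmem e he
    rw [hn₃, ← cnt3 hc hd h5 hcd h6.symm h7.symm r]
    refine sum_congr rfl (fun A _ => ?_)
    by_cases h3 : c ∈ A <;> by_cases h4 : d ∈ A <;> by_cases h8 : e ∈ A <;> simp [h3, h4, h8]
  have t5 : ∀ e ∈ D₂, (∑ A ∈ powersetCard r D, if e ∈ A ∧ c ∈ A then
      (if c ∈ A ∧ d ∈ A then (1 : ℝ) else 0) else 0) = n₃ := by
    intro e he
    obtain ⟨h5, h6, h7⟩ := hmem e he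
    rw [hn₃, ← cnt3 hc hd h5 hcd h6.symm h7.symm r]
    refine sum_congr rfl (fun A _ => ?_)
    by_cases h3 : c ∈ A <;> by_cases h4 : d ∈ A <;> by_cases h8 : e ∈ A <;> simp [h3, h4, h8]
  have t6 : ∀ e ∈ D₂, (∑ A ∈ powersetCard r D, if e ∈ A ∧ d ∈ A then
      (if c ∈ A ∧ d ∈ A then (1 : ℝ) else 0) else 0) = n₃ := by
    intro e he
    obtain ⟨h5, h6, h7⟩ := hmem e he
    rw [hn₃, ← cnt3 hc hd h5 hcd h6.symm h7.symm r]
    refine sum_congr rfl (fun A _ => ?_)
    by_cases h3 : c ∈ A <;> by_cases h4 : d ∈ A <;> by_cases h8 : e ∈ A <;> simp [h3, h4, h8]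
  have t7 : ∀ c' ∈ D₂, ∀ d' ∈ D₂.erase c', (∑ A ∈ powersetCard r D, if c' ∈ A ∧ d' ∈ A then
      (if c ∈ A ∧ d ∈ A then (1 : ℝ) else 0) else 0) = n₄ := by
    intro c' hc' d' hd'
    obtain ⟨h5, h6, h7⟩ := hmem c' hc'
    have h8 := mem_erase.1 hd'
    obtain ⟨h9, h10, h11⟩ := hmem d' h8.2
    rw [hn₄, ← cnt4 hc hd h5 h9 hcd h6.symm h10.symm h7.symm h11.symm h8.1.symm r]
    refine sum_congr rfl (fun A _ => ?_)
    by_cases h3 : c ∈ A <;> by_cases h4 : d ∈ A <;> by_cases h12 : c' ∈ A <;>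
      by_cases h13 : d' ∈ A <;> simp [h3, h4, h12, h13]
  rw [t1, t2]
  rw [sum_congr rfl (fun e he => by rw [t3 e he, t4 e he, t5 e he, t6 e he])]
  rw [sum_congr rfl (fun c' hc' => sum_congr rfl (fun d' hd' => by rw [t7 c' hc' d' hd']))]
  have hi := inner_D2 hsym hrow hc hd hcd
  have r1 := row_D2 hrow hc hd hcd
  have r2 := row_D2' hrow hc hd hcd
  have r3 : ∑ e ∈ D₂, w e c = - w c d := by
    rw [← r1]; exact sum_congr rfl (fun e _ => hsym e c)
  have r4 : ∑ e ∈ D₂, w e d = - w c d := by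
    rw [hsym c d, ← r2]; exact sum_congr rfl (fun e _ => hsym e d)
  simp only [← sum_mul, sum_add_distrib]
  rw [hi, r1, r2, r3, r4, hsym d c]
  ring

/-- Pair sums may be swapped. -/
lemma sum_pairs_comm {M : Type*} [AddCommMonoid M] (D : Finset E) (F : E → E → M) :
    ∑ c ∈ D, ∑ d ∈ D.erase c, F c d = ∑ c ∈ D, ∑ d ∈ D.erase c, F d c := by
  simp only [sum_sigma']
  refine sum_nbij' (fun p => ⟨p.2, p.1⟩) (fun p => ⟨p.2, p.1⟩) ?_ ?_ ?_ ?_ ?_
  · rintro ⟨c, d⟩ h
    simp only [mem_sigma, mem_erase] at h ⊢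
    exact ⟨h.2.2, h.2.1.symm, h.1⟩
  · rintro ⟨c, d⟩ h
    simp only [mem_sigma, mem_erase] at h ⊢
    exact ⟨h.2.2, h.2.1.symm, h.1⟩
  · rintro ⟨c, d⟩ _; rfl
  · rintro ⟨c, d⟩ _; rfl
  · rintro ⟨c, d⟩ _; rfl

/-- Orthogonality of a row-free pair weight to pair sums. -/
lemma sum_pairs_orth {D : Finset E} {w : E → E → ℝ} (hsym : ∀ c d, w c d = w d c)
    (hrow : ∀ c ∈ D, ∑ d ∈ D.erase c, w c d = 0) (x : E → ℝ) :
    ∑ c ∈ D, ∑ d ∈ D.erase c, w c d * (x c + x d) = 0 := by
  have h1 : ∑ c ∈ D, ∑ d ∈ D.erase c, w c d * x c = 0 := by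
    refine sum_eq_zero (fun c hc => ?_)
    rw [← sum_mul, hrow c hc, zero_mul]
  have h2 : ∑ c ∈ D, ∑ d ∈ D.erase c, w c d * x d = 0 := by
    rw [sum_pairs_comm D (fun c d => w c d * x d)]
    refine sum_eq_zero (fun c hc => ?_)
    have : ∀ d ∈ D.erase c, w d c * x c = w c d * x c := fun d _ => by rw [hsym]
    rw [sum_congr rfl this, ← sum_mul, hrow c hc, zero_mul]
  simp only [mul_add, sum_add_distrib, h1, h2, add_zero]

/-- Bound on the second moment. -/
lemma W_bound {D : Finset E} {w : E → E → ℝ} {r : ℕ} (φ : Finset E → ℝ)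
    (hsym : ∀ c d, w c d = w d c) (hrow : ∀ c ∈ D, ∑ d ∈ D.erase c, w c d = 0)
    (hW : ∑ c ∈ D, ∑ d ∈ D.erase c, (w c d) ^ 2 = ∑ A ∈ powersetCard r D, φ A * XiJ w A)
    {t : ℝ} (ht : 0 ≤ t) (hκ : 2 * (nJ D.card r 2 - 2 * nJ D.card r 3 + nJ D.card r 4) ≤ t) :
    ∑ c ∈ D, ∑ d ∈ D.erase c, (w c d) ^ 2 ≤ t * ∑ A ∈ powersetCard r D, (φ A) ^ 2 := by
  set W := ∑ c ∈ D, ∑ d ∈ D.erase c, (w c d) ^ 2 with hWdef
  set S := ∑ A ∈ powersetCard r D, (φ A) ^ 2 with hS
  have hWnn : 0 ≤ W := sum_nonneg fun _ _ => sum_nonneg fun _ _ => sq_nonneg _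
  have hSnn : 0 ≤ S := sum_nonneg fun _ _ => sq_nonneg _
  have hXi : ∑ A ∈ powersetCard r D, (XiJ w A) ^ 2
      = 2 * (nJ D.card r 2 - 2 * nJ D.card r 3 + nJ D.card r 4) * W := by
    have h1 := sum_mul_Xi D r w (fun A => XiJ w A)
    have h2 : ∀ A ∈ powersetCard r D, (XiJ w A) ^ 2 = XiJ w A * XiJ w A := fun A _ => by ring
    rw [sum_congr rfl h2, h1, hWdef, mul_sum]
    refine sum_congr rfl (fun c hc => ?_)
    rw [mul_sum]
    refine sum_congr rfl (fun d hd => ?_)
    have hd' := mem_erase.1 hd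
    rw [sum_Xi_on_pair r hsym hrow hc hd'.2 hd'.1.symm]
    ring
  have hCS : W ^ 2 ≤ S * ∑ A ∈ powersetCard r D, (XiJ w A) ^ 2 := by
    rw [hW]
    exact sum_mul_sq_le_sq_mul_sq _ _ _
  rw [hXi] at hCS
  rcases hWnn.lt_or_eq with hpos | h0
  · have h3 : W * W ≤ (t * S) * W := by
      have h4 : S * (2 * (nJ D.card r 2 - 2 * nJ D.card r 3 + nJ D.card r 4) * W)
          ≤ S * (t * W) := by
        apply mul_le_mul_of_nonneg_left _ hSnn
        exact mul_le_mul_of_nonneg_right hκ hWnn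
      nlinarith
    exact le_of_mul_le_mul_right h3 hpos
  · rw [← h0]
    positivity

lemma choose_ineq (s k : ℕ) :
    3 * (((s + 3).choose (k + 2)) + (s + 1).choose k)
      ≤ (s + 3).choose (k + 3) + 6 * (s + 2).choose (k + 1) := by
  have e1 : (s + 3).choose (k + 2) = (s + 2).choose (k + 1) + (s + 2).choose (k + 2) :=
    Nat.choose_succ_succ' _ _
  have e2 : (s + 3).choose (k + 3) = (s + 2).choose (k + 2) + (s + 2).choose (k + 3) :=
    Nat.choose_succ_succ' _ _
  have e3 : (s + 2).choose (k + 1) = (s + 1).choose k + (s + 1).choose (k + 1) :=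
    Nat.choose_succ_succ' _ _
  have e4 : (s + 2).choose (k + 2) = (s + 1).choose (k + 1) + (s + 1).choose (k + 2) :=
    Nat.choose_succ_succ' _ _
  have e5 : (s + 2).choose (k + 3) = (s + 1).choose (k + 2) + (s + 1).choose (k + 3) :=
    Nat.choose_succ_succ' _ _
  have e6 : (s + 1).choose (k + 1) = s.choose k + s.choose (k + 1) :=
    Nat.choose_succ_succ' _ _
  have e7 : (s + 1).choose (k + 2) = s.choose (k + 1) + s.choose (k + 2) :=
    Nat.choose_succ_succ' _ _
  have e8 : (s + 1).choose (k + 3) = s.choose (k + 2) + s.choose (k + 3) :=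
    Nat.choose_succ_succ' _ _
  omega

lemma choose_ineq3 (s : ℕ) : 3 * (s + 1) ≤ (s + 3).choose 2 := by
  have e1 : (s + 3).choose 2 = (s + 2).choose 1 + (s + 2).choose 2 := Nat.choose_succ_succ' _ _
  have e2 : (s + 2).choose 2 = (s + 1).choose 1 + (s + 1).choose 2 := Nat.choose_succ_succ' _ _
  have e3 : (s + 1).choose 2 = s.choose 1 + s.choose 2 := Nat.choose_succ_succ' _ _
  rw [Nat.choose_one_right] at e1 e2 e3
  omega

/-- Binomial inequality for ground sets of size at least five. -/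
lemma kappa_le5 {m r : ℕ} (hm : 5 ≤ m) (hr1 : 1 ≤ r) :
    3 * (nJ m r 2 - 2 * nJ m r 3 + nJ m r 4) ≤ (((m - 2).choose (r - 1) : ℕ) : ℝ) := by
  obtain ⟨s, rfl⟩ : ∃ s, m = s + 5 := ⟨m - 5, by omega⟩
  have e2 : s + 5 - 2 = s + 3 := by omega
  have e3 : s + 5 - 3 = s + 2 := by omega
  have e4 : s + 5 - 4 = s + 1 := by omega
  unfold nJ
  rw [e2, e3, e4]
  rcases r with _ | _ | _ | _ | k
  · omega
  · norm_num
  · norm_num
  · have h := choose_ineq3 s
    have h' : (3 : ℝ) * ((s : ℝ) + 1) ≤ (((s + 3).choose 2 : ℕ) : ℝ) := by exact_mod_cast h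
    norm_num
    linarith
  · have h := choose_ineq s k
    have h' : (3 : ℝ) * ((((s + 3).choose (k + 2) : ℕ) : ℝ) + (((s + 1).choose k : ℕ) : ℝ))
        ≤ (((s + 3).choose (k + 3) : ℕ) : ℝ) + 6 * (((s + 2).choose (k + 1) : ℕ) : ℝ) := by
      exact_mod_cast h
    have e5 : k + 1 + 1 + 1 + 1 - 2 = k + 2 := by omega
    have e6 : k + 1 + 1 + 1 + 1 - 3 = k + 1 := by omega
    have e7 : k + 1 + 1 + 1 + 1 - 4 = k := by omega
    have e8 : k + 1 + 1 + 1 + 1 - 1 = k + 3 := by omega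
    rw [if_pos (by omega), if_pos (by omega), if_pos (by omega), e5, e6, e7, e8]
    linarith

/-- Binomial inequality for ground sets of size four. -/
lemma kappa_le4 {r : ℕ} (hr1 : 1 ≤ r) (hr2 : r < 4) :
    2 * (nJ 4 r 2 - 2 * nJ 4 r 3 + nJ 4 r 4) ≤ (((4 - 2).choose (r - 1) : ℕ) : ℝ) := by
  interval_cases r <;> norm_num [nJ, Nat.choose]

/-- The arithmetic of the final estimate. -/
lemma J2_arith {En S X W m N e2 : ℝ} (hm : 2 ≤ m) (hN : 0 < N)
    (he : e2 ≤ 1) (hX0 : 0 ≤ X) (hX : 2 * m * X ≤ N * En)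
    (hW : 4 * W / N ≤ (2 / m) * En + (3 / 2) * S) :
    -(3 / 2) * S ≤ En - (e2 * ((2 * m - 4) * X) + 4 * W) / N := by
  have h1 : e2 * ((2 * m - 4) * X) ≤ (2 * m - 4) * X := by
    have : 0 ≤ (2 * m - 4) * X := mul_nonneg (by linarith) hX0
    nlinarith
  have hmpos : 0 < m := by linarith
  have h2 : (2 * m - 4) * X / N ≤ (1 - 2 / m) * En := by
    rw [div_le_iff₀ hN]
    have h3 : (2 * m - 4) * X = (1 - 2 / m) * (2 * m * X) := by
      field_simp
      ring
    rw [h3]
    have h4 : 0 ≤ 1 - 2 / m := by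
      rw [sub_nonneg, div_le_one hmpos]; exact hm
    nlinarith [mul_le_mul_of_nonneg_left hX h4]
  have h5 : (e2 * ((2 * m - 4) * X) + 4 * W) / N = e2 * ((2 * m - 4) * X) / N + 4 * W / N :=
    add_div _ _ _
  have h6 : e2 * ((2 * m - 4) * X) / N ≤ (2 * m - 4) * X / N :=
    div_le_div_of_nonneg_right h1 hN.le
  rw [h5]
  have h7 : (1 - 2 / m) * En = En - (2 / m) * En := by ring
  linarith

/-- The second Johnson lemma. -/
theorem J2 (D : Finset E) (r : ℕ) (φ : Finset E → ℝ) (h0 : ∑ A ∈ powersetCard r D, φ A = 0) :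
    -(3 / 2) * ∑ A ∈ powersetCard r D, (φ A) ^ 2
      ≤ En D r φ - ∑ c ∈ D, ∑ d ∈ D.erase c, (ZJ D r φ c d) ^ 2
          / (((powersetCard r D).filter (splitP c d)).card : ℝ) := by
  have hEn0 : 0 ≤ En D r φ := by
    rw [En_eq_half_Ed]; have := Ed_nonneg D r φ; linarith
  have hS0 : 0 ≤ ∑ A ∈ powersetCard r D, (φ A) ^ 2 := sum_nonneg fun _ _ => sq_nonneg _
  by_cases hr : 1 ≤ r ∧ r < D.card
  · obtain ⟨hr1, hr2⟩ := hr
    set m := D.card with hm
    have hm2 : 2 ≤ m := by omega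
    set M := (m - 2).choose (r - 1) with hMdef
    have hMpos : 0 < M := Nat.choose_pos (by omega)
    have hMR : (0 : ℝ) < (M : ℝ) := by exact_mod_cast hMpos
    have hPcd : ∀ c ∈ D, ∀ d ∈ D, c ≠ d → (Pcd D r c d).card = M := by
      intro c hc d hd hcd
      exact card_Pcd hc hd hcd hr1
    have hfil : ∀ c ∈ D, ∀ d ∈ D.erase c,
        (((powersetCard r D).filter (splitP c d)).card : ℝ) = 2 * (M : ℝ) := by
      intro c hc d hd
      obtain ⟨hd1, hd2⟩ := mem_erase.1 hd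
      rw [filter_split_eq, card_union_of_disjoint (disjoint_Pcd D r c d),
        hPcd c hc d hd2 hd1.symm, hPcd d hd2 c hc hd1]
      push_cast; ring
    set x := xJ D r φ with hx
    have hsx : ∑ c ∈ D, x c = 0 := by rw [hx, sum_xJ, h0, mul_zero]
    set α : ℝ := ((r : ℝ) - 1) / ((m : ℝ) - 2) with hα
    have hαm : α * ((m : ℝ) - 2) = (r : ℝ) - 1 := by
      by_cases h2 : m = 2
      · have hr' : r = 1 := by omega
        subst hr'
        rw [h2]; norm_num
      · have : (m : ℝ) - 2 ≠ 0 := by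
          have h3 : (3 : ℝ) ≤ m := by
            have : 3 ≤ m := by omega
            exact_mod_cast this
          intro h4; linarith
        rw [hα]; field_simp
    have hα0 : 0 ≤ α := by
      rw [hα]
      apply div_nonneg
      · have : (1 : ℝ) ≤ r := by exact_mod_cast hr1
        linarith
      · have : (2 : ℝ) ≤ m := by exact_mod_cast hm2
        linarith
    have hα1 : α ≤ 1 := by
      by_cases h2 : m = 2
      · have hr' : r = 1 := by omega
        subst hr'
        rw [hα, h2]; norm_num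
      · have h3 : (3 : ℝ) ≤ m := by
          have : 3 ≤ m := by omega
          exact_mod_cast this
        rw [hα, div_le_one (by linarith)]
        have : (r : ℝ) + 1 ≤ m := by exact_mod_cast hr2
        linarith
    set e : ℝ := 1 - 2 * α with he
    have he2 : e ^ 2 ≤ 1 := by
      rw [he]; nlinarith
    set w : E → E → ℝ := fun c d => yJ D r φ c d - α * (x c + x d) with hw
    have hsym : ∀ c d, w c d = w d c := by
      intro c d
      simp only [hw]
      rw [yJ_comm, add_comm]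
    have hrow : ∀ c ∈ D, ∑ d ∈ D.erase c, w c d = 0 := by
      intro c hc
      simp only [hw]
      rw [sum_sub_distrib, sum_yJ, ← mul_sum, sum_add_distrib, sum_const, card_erase_of_mem hc,
        nsmul_eq_mul]
      have h1 : ∑ d ∈ D.erase c, x d = - x c := by
        have := add_sum_erase D x hc
        rw [hsx] at this
        linarith
      rw [h1, ← hm]
      have h2 : (((m - 1 : ℕ) : ℝ)) = (m : ℝ) - 1 := by
        rw [Nat.cast_sub (by omega)]; simp
      rw [h2]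
      have h3 : α * (((m : ℝ) - 1) * x c + - x c) = (α * ((m : ℝ) - 2)) * x c := by ring
      rw [h3, hαm]
      ring
    have hZ : ∀ c d, ZJ D r φ c d = e * (x c + x d) - 2 * w c d := by
      intro c d
      rw [ZJ_eq]
      simp only [hw, he]
      ring
    set X := ∑ c ∈ D, (x c) ^ 2 with hXdef
    set W := ∑ c ∈ D, ∑ d ∈ D.erase c, (w c d) ^ 2 with hWdef
    have hX0 : 0 ≤ X := sum_nonneg fun _ _ => sq_nonneg _
    have hW0 : 0 ≤ W := sum_nonneg fun _ _ => sum_nonneg fun _ _ => sq_nonneg _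
    have hsumZ : ∑ c ∈ D, ∑ d ∈ D.erase c, (ZJ D r φ c d) ^ 2
        = e ^ 2 * ((2 * (m : ℝ) - 4) * X) + 4 * W := by
      have h1 : ∀ c ∈ D, ∀ d ∈ D.erase c, (ZJ D r φ c d) ^ 2
          = e ^ 2 * (x c + x d) ^ 2 - 4 * e * (w c d * (x c + x d)) + 4 * (w c d) ^ 2 := by
        intro c _ d _
        rw [hZ]; ring
      rw [sum_congr rfl (fun c hc => sum_congr rfl (h1 c hc))]
      simp only [sum_add_distrib, sum_sub_distrib, ← mul_sum]
      rw [sum_pairs_orth hsym hrow x, sum_pairs_add_sq, hsx, ← hm]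
      ring
    have hWeq : W = ∑ A ∈ powersetCard r D, φ A * XiJ w A := by
      rw [sum_mul_Xi]
      have h1 : ∀ c ∈ D, ∀ d ∈ D.erase c,
          w c d * (∑ A ∈ powersetCard r D, if c ∈ A ∧ d ∈ A then φ A else 0)
          = (w c d) ^ 2 + α * (w c d * (x c + x d)) := by
        intro c _ d _
        have : (∑ A ∈ powersetCard r D, if c ∈ A ∧ d ∈ A then φ A else 0) = yJ D r φ c d := rfl
        rw [this]
        simp only [hw]
        ring
      rw [sum_congr rfl (fun c hc => sum_congr rfl (h1 c hc))]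
      simp only [sum_add_distrib, ← mul_sum]
      rw [sum_pairs_orth hsym hrow x]
      simp [hWdef]
    have hfirst := first_moment_bound φ hPcd h0
    rw [← hm] at hfirst
    have hsumZ2 : ∑ c ∈ D, ∑ d ∈ D.erase c, (ZJ D r φ c d) ^ 2
          / (((powersetCard r D).filter (splitP c d)).card : ℝ)
        = (e ^ 2 * ((2 * (m : ℝ) - 4) * X) + 4 * W) / (2 * (M : ℝ)) := by
      rw [← hsumZ, sum_div]
      refine sum_congr rfl (fun c hc => ?_)
      rw [sum_div]
      refine sum_congr rfl (fun d hd => ?_)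
      rw [hfil c hc d hd]
    rw [hsumZ2]
    have hm2R : (2 : ℝ) ≤ m := by exact_mod_cast hm2
    refine J2_arith hm2R (by positivity) he2 hX0 hfirst ?_
    set S := ∑ A ∈ powersetCard r D, (φ A) ^ 2 with hS
    have hmpos : (0 : ℝ) < m := by linarith
    have hEnm : 0 ≤ (2 / (m : ℝ)) * En D r φ := by positivity
    rcases Nat.lt_or_ge m 4 with hlt | hge
    · -- m ≤ 3: the pair weight vanishes
      have hw0 : W = 0 := by
        refine sum_eq_zero (fun c hc => sum_eq_zero (fun d hd => ?_))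
        obtain ⟨hd1, hd2⟩ := mem_erase.1 hd
        have hi := inner_D2 hsym hrow hc hd2 hd1.symm
        have hcard : ((D.erase c).erase d).card ≤ 1 := by
          rw [card_erase_of_mem (mem_erase.2 ⟨hd1, hd2⟩), card_erase_of_mem hc]
          omega
        have hz : ∑ c' ∈ (D.erase c).erase d, ∑ d' ∈ ((D.erase c).erase d).erase c', w c' d' = 0 := by
          refine sum_eq_zero (fun c' hc' => ?_)
          have : ((D.erase c).erase d).erase c' = ∅ := by
            rw [← card_eq_zero, card_erase_of_mem hc']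
            omega
          rw [this, sum_empty]
        rw [hz] at hi
        have : w c d = 0 := by linarith
        rw [this]; simp
      rw [hw0]
      simp only [mul_zero, zero_div]
      linarith
    · rcases Nat.lt_or_ge m 5 with hlt5 | hge5
      · -- m = 4
        have hm4 : m = 4 := by omega
        have hκ := kappa_le4 (r := r) hr1 (by omega)
        have hb := W_bound (r := r) φ hsym hrow hWeq (t := (M : ℝ)) hMR.le (by
          rw [← hm, hm4, hMdef, hm4]; exact hκ)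
        have hJ1 := J1 D r φ h0
        have h1 : 4 * W / (2 * (M : ℝ)) ≤ 2 * S := by
          rw [div_le_iff₀ (by positivity)]
          nlinarith
        have h2 : (2 / (m : ℝ)) * En D r φ ≥ S := by
          rw [hm4]
          push_cast
          linarith
        linarith
      · -- m ≥ 5
        have hκ := kappa_le5 (m := m) (r := r) hge5 hr1
        have hb := W_bound (r := r) φ hsym hrow hWeq (t := (2 / 3) * (M : ℝ)) (by positivity) (by
          rw [← hm]
          have : 3 * (nJ m r 2 - 2 * nJ m r 3 + nJ m r 4) ≤ (M : ℝ) := hκ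
          linarith)
        have h1 : 4 * W / (2 * (M : ℝ)) ≤ (4 / 3) * S := by
          rw [div_le_iff₀ (by positivity)]
          nlinarith
        linarith
  · -- no split subsets
    have hempty : ∀ c ∈ D, ∀ d ∈ D.erase c, (powersetCard r D).filter (splitP c d) = ∅ := by
      intro c hc d hd
      obtain ⟨hd1, hd2⟩ := mem_erase.1 hd
      rw [filter_eq_empty_iff]
      intro A hA hsplit
      obtain ⟨h1, h2⟩ := mem_powersetCard.1 hA
      have hAD : r = 0 ∨ A = D := by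
        by_cases h3 : r = 0
        · exact Or.inl h3
        · right
          have h4 : D.card ≤ r := by
            by_contra h5
            exact hr ⟨by omega, by omega⟩
          exact eq_of_subset_of_card_le h1 (by omega)
      rcases hAD with h3 | h3
      · rw [h3, card_eq_zero] at h2
        rw [h2] at hsplit
        simp [splitP] at hsplit
      · rw [h3] at hsplit
        simp [splitP, hc, hd2] at hsplit
    have hE : En D r φ = 0 := by
      unfold En
      refine sum_eq_zero (fun c hc => sum_eq_zero (fun d hd => ?_))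
      rw [hempty c hc d hd, sum_empty]
    have hZ : ∑ c ∈ D, ∑ d ∈ D.erase c, (ZJ D r φ c d) ^ 2
        / (((powersetCard r D).filter (splitP c d)).card : ℝ) = 0 := by
      refine sum_eq_zero (fun c hc => sum_eq_zero (fun d hd => ?_))
      rw [hempty c hc d hd]
      simp
    rw [hE, hZ]
    linarith

end Vale.Agent.P335
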