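import Vale.Agent.P335.GraphQuad
import Vale.Agent.P335.Johnson4

/-! The fibre of a pair of vertices as a slice of the Boolean cube. -/

set_option linter.unusedSectionVars false

open Finset BigOperators

namespace Vale.Agent.P335

variable {V : Type*} [Fintype V] [DecidableEq V] {d : V → ℕ} {a b : V}

/-- The vertices outside `a, b` seeing exactly one of them. -/
def DJ (a b : V) (G₀ : Om d) : Finset V :=
  ((univ.erase a).erase b).filter (fun z => G₀.1 a z ≠ G₀.1 b z)

/-- The size of the slice. -/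
def rJ (a b : V) (G₀ : Om d) : ℕ := ((DJ a b G₀).filter (fun z => G₀.1 a z = true)).card

/-- The set attached to a graph in the fibre. -/
def PhiJ (a : V) (D : Finset V) (G : Om d) : Finset V := D.filter (fun z => G.1 a z = true)

lemma mem_DJ {G₀ : Om d} {z : V} : z ∈ DJ a b G₀ ↔ z ≠ a ∧ z ≠ b ∧ G₀.1 a z ≠ G₀.1 b z := by
  simp [DJ, and_assoc, and_comm]

lemma mem_PhiJ {D : Finset V} {G : Om d} {z : V} : z ∈ PhiJ a D G ↔ z ∈ D ∧ G.1 a z = true := by
  simp [PhiJ]

lemma col_ab (hab : a ≠ b) {G G₀ : Om d} (hk : key {a, b} G = key {a, b} G₀) {z : V}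
    (hz : z ∉ ({a, b} : Finset V)) :
    (G.1 a z).toNat + (G.1 b z).toNat = (G₀.1 a z).toNat + (G₀.1 b z).toNat := by
  have := row_sum_eq hk hz
  rwa [sum_pair hab, sum_pair hab] at this

lemma bE1 : ∀ p q p' q' : Bool, p.toNat + q.toNat = p'.toNat + q'.toNat → (p ≠ q ↔ p' ≠ q') := by
  decide

lemma bE2 : ∀ p q p' q' : Bool, p.toNat + q.toNat = p'.toNat + q'.toNat → p' = q' →
    p = p' ∧ q = q' := by
  decide

lemma bE3 : ∀ p q : Bool, p ≠ q → q = !p := by decide

lemma bE0 {p q : Bool} (h : p = true ↔ q = true) : p = q := by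
  revert p q; decide

/-- Entries at `z ∉ D` are constant on a fibre. -/
lemma entry_off (hab : a ≠ b) {G G₀ : Om d} (hk : key {a, b} G = key {a, b} G₀) {z : V}
    (hz : z ∉ DJ a b G₀) : G.1 a z = G₀.1 a z ∧ G.1 b z = G₀.1 b z := by
  by_cases h1 : z = a
  · subst h1
    refine ⟨by rw [G.2.irrefl, G₀.2.irrefl], ?_⟩
    rw [G.2.symm, G₀.2.symm]
    exact ab_same hab hk
  by_cases h2 : z = b
  · subst h2
    refine ⟨ab_same hab hk, ?_⟩
    rw [G.2.irrefl, G₀.2.irrefl]
  have h3 : G₀.1 a z = G₀.1 b z := by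
    by_contra h4
    exact hz (mem_DJ.2 ⟨h1, h2, h4⟩)
  exact bE2 _ _ _ _ (col_ab hab hk (by simp [h1, h2])) h3

/-- Entries at `z ∈ D` are complementary on a fibre. -/
lemma entry_on (hab : a ≠ b) {G G₀ : Om d} (hk : key {a, b} G = key {a, b} G₀) {z : V}
    (hz : z ∈ DJ a b G₀) : G.1 b z = !G.1 a z := by
  obtain ⟨h1, h2, h3⟩ := mem_DJ.1 hz
  exact bE3 _ _ ((bE1 _ _ _ _ (col_ab hab hk (by simp [h1, h2]))).2 h3)

lemma card_filter_toNat (D : Finset V) (p : V → Bool) :
    (D.filter (fun z => p z = true)).card = ∑ z ∈ D, (p z).toNat := by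
  rw [card_filter]
  exact sum_congr rfl (fun z _ => ite_toNat' (p z))
where ite_toNat' (q : Bool) : (if q = true then 1 else 0) = q.toNat := by cases q <;> simp

/-- Sets attached to the fibre have the same size. -/
lemma card_PhiJ (hab : a ≠ b) {G G₀ : Om d} (hk : key {a, b} G = key {a, b} G₀) :
    (PhiJ a (DJ a b G₀) G).card = rJ a b G₀ := by
  unfold PhiJ rJ
  rw [card_filter_toNat, card_filter_toNat]
  have h1 := dg_split G.1 a (DJ a b G₀)
  have h2 := dg_split G₀.1 a (DJ a b G₀)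
  rw [G.2.deg] at h1
  rw [G₀.2.deg] at h2
  have h3 : ∑ v ∈ (DJ a b G₀)ᶜ, (G.1 a v).toNat = ∑ v ∈ (DJ a b G₀)ᶜ, (G₀.1 a v).toNat :=
    sum_congr rfl (fun v hv => by rw [(entry_off hab hk (mem_compl.1 hv)).1])
  omega

/-- Injectivity on a fibre. -/
lemma PhiJ_inj (hab : a ≠ b) {G G' G₀ : Om d} (hk : key {a, b} G = key {a, b} G₀)
    (hk' : key {a, b} G' = key {a, b} G₀) (he : PhiJ a (DJ a b G₀) G = PhiJ a (DJ a b G₀) G') :
    G = G' := by
  have h1 : ∀ z, G.1 a z = G'.1 a z := by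
    intro z
    by_cases hz : z ∈ DJ a b G₀
    · apply bE0
      have h4 : z ∈ PhiJ a (DJ a b G₀) G ↔ z ∈ PhiJ a (DJ a b G₀) G' := by rw [he]
      rw [mem_PhiJ, mem_PhiJ] at h4
      simpa [hz] using h4
    · rw [(entry_off hab hk hz).1, (entry_off hab hk' hz).1]
  have h2 : ∀ z, G.1 b z = G'.1 b z := by
    intro z
    by_cases hz : z ∈ DJ a b G₀
    · rw [entry_on hab hk hz, entry_on hab hk' hz, h1]
    · rw [(entry_off hab hk hz).2, (entry_off hab hk' hz).2]
  apply Om.ext'
  intro u v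
  by_cases hu : u = a
  · subst hu; exact h1 v
  by_cases hu2 : u = b
  · subst hu2; exact h2 v
  by_cases hv : v = a
  · subst hv; rw [G.2.symm, G'.2.symm]; exact h1 u
  by_cases hv2 : v = b
  · subst hv2; rw [G.2.symm, G'.2.symm]; exact h2 u
  exact key_eq_iff.1 (hk.trans hk'.symm) u v (by simp [hu, hu2]) (by simp [hv, hv2])

/-- Surjectivity on a fibre. -/
lemma PhiJ_surj (hab : a ≠ b) (G₀ : Om d) {A : Finset V}
    (hA : A ∈ powersetCard (rJ a b G₀) (DJ a b G₀)) :
    ∃ G : Om d, key {a, b} G = key {a, b} G₀ ∧ PhiJ a (DJ a b G₀) G = A := by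
  classical
  obtain ⟨hsub, hcard⟩ := mem_powersetCard.1 hA
  set D := DJ a b G₀ with hD
  have haD : a ∉ D := fun h => (mem_DJ.1 h).1 rfl
  have hbD : b ∉ D := fun h => (mem_DJ.1 h).2.1 rfl
  set ρ : V → V → Bool := fun u v =>
    if u = a then (if v ∈ D then decide (v ∈ A) else G₀.1 a v)
    else (if v ∈ D then decide (v ∉ A) else G₀.1 b v) with hρ
  have ρa : ∀ v, ρ a v = if v ∈ D then decide (v ∈ A) else G₀.1 a v := by
    intro v; simp [hρ]
  have ρb : ∀ v, ρ b v = if v ∈ D then decide (v ∉ A) else G₀.1 b v := by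
    intro v; simp [hρ, hab.symm]
  have hTm : a ∈ ({a, b} : Finset V) ∧ b ∈ ({a, b} : Finset V) := by simp
  have hsum : ∀ p : V → Bool, ∑ v ∈ D, (p v).toNat = (D.filter (fun z => p z = true)).card :=
    fun p => (card_filter_toNat D p).symm
  have hvalid : IsGr d (repl G₀.1 {a, b} ρ) := by
    apply repl_isGr G₀.2
    · intro u hu v hv
      simp only [mem_insert, mem_singleton] at hu hv
      rcases hu with rfl | rfl <;> rcases hv with rfl | rfl
      · rfl
      · rw [ρa, ρb]; simp [haD, hbD, G₀.2.symm u v]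
      · rw [ρa, ρb]; simp [haD, hbD, G₀.2.symm u v]
      · rfl
    · intro u hu
      simp only [mem_insert, mem_singleton] at hu
      rcases hu with rfl | rfl
      · rw [ρa]; simp [haD, G₀.2.irrefl]
      · rw [ρb]; simp [hbD, G₀.2.irrefl]
    · intro v hv
      rw [sum_pair hab, sum_pair hab, ρa, ρb]
      by_cases hvD : v ∈ D
      · have h1 : G₀.1 a v ≠ G₀.1 b v := (mem_DJ.1 hvD).2.2
        simp only [hvD, if_true]
        revert h1
        by_cases h2 : v ∈ A <;> cases G₀.1 a v <;> cases G₀.1 b v <;> simp [h2]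
      · simp [hvD]
    · intro u hu
      simp only [mem_insert, mem_singleton] at hu
      rw [← sum_add_sum_compl D]
      rw [← G₀.2.deg u, dg_split G₀.1 u D]
      rcases hu with rfl | rfl
      · have h1 : ∑ v ∈ D, (ρ u v).toNat = A.card := by
          have h2 : ∀ v ∈ D, (ρ u v).toNat = (decide (v ∈ A)).toNat := by
            intro v hv; rw [ρa]; simp [hv]
          rw [sum_congr rfl h2, hsum]
          congr 1
          ext z
          simp only [mem_filter, decide_eq_true_eq]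
          exact ⟨fun h => h.2, fun h => ⟨hsub h, h⟩⟩
        have h3 : ∑ v ∈ Dᶜ, (ρ u v).toNat = ∑ v ∈ Dᶜ, (G₀.1 u v).toNat := by
          refine sum_congr rfl (fun v hv => ?_)
          rw [ρa]; simp [mem_compl.1 hv]
        rw [h1, h3, hcard, rJ, card_filter_toNat]
      · have h1 : ∑ v ∈ D, (ρ u v).toNat = ∑ v ∈ D, (G₀.1 u v).toNat := by
          have h4 : ∑ v ∈ D, (ρ u v).toNat + ∑ v ∈ D, (ρ a v).toNat = D.card := by
            rw [← sum_add_distrib, card_eq_sum_ones]
            refine sum_congr rfl (fun v hv => ?_)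
            rw [ρa, ρb]
            by_cases h2 : v ∈ A <;> simp [hv, h2]
          have h5 : ∑ v ∈ D, (G₀.1 u v).toNat + ∑ v ∈ D, (G₀.1 a v).toNat = D.card := by
            rw [← sum_add_distrib, card_eq_sum_ones]
            refine sum_congr rfl (fun v hv => ?_)
            have h6 : G₀.1 a v ≠ G₀.1 u v := (mem_DJ.1 hv).2.2
            revert h6
            cases G₀.1 a v <;> cases G₀.1 u v <;> simp
          have h7 : ∑ v ∈ D, (ρ a v).toNat = A.card := by
            have h2 : ∀ v ∈ D, (ρ a v).toNat = (decide (v ∈ A)).toNat := by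
              intro v hv; rw [ρa]; simp [hv]
            rw [sum_congr rfl h2, hsum]
            congr 1
            ext z
            simp only [mem_filter, decide_eq_true_eq]
            exact ⟨fun h => h.2, fun h => ⟨hsub h, h⟩⟩
          have h8 : ∑ v ∈ D, (G₀.1 a v).toNat = A.card := by
            rw [hcard, rJ, card_filter_toNat]
          omega
        have h3 : ∑ v ∈ Dᶜ, (ρ u v).toNat = ∑ v ∈ Dᶜ, (G₀.1 u v).toNat := by
          refine sum_congr rfl (fun v hv => ?_)
          rw [ρb]; simp [mem_compl.1 hv]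
        rw [h1, h3]
  refine ⟨⟨_, hvalid⟩, ?_, ?_⟩
  · rw [key_eq_iff]
    intro u v hu hv
    exact repl_not hu hv
  · ext z
    rw [mem_PhiJ]
    show _ ∧ repl G₀.1 {a, b} ρ a z = true ↔ _
    rw [repl_mem hTm.1, ρa]
    by_cases hz : z ∈ D
    · simp [hz]
    · have : z ∉ A := fun h => hz (hsub h)
      simp [hz, this]

/-- A centre in a fibre has both `c, e` in `D`. -/
lemma center_mem_D (hab : a ≠ b) {G G₀ : Om d} (hk : key {a, b} G = key {a, b} G₀) {c e : V}
    (hc : c ≠ a ∧ c ≠ b) (he : e ≠ a ∧ e ≠ b) (h : center a b c e G) :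
    c ∈ DJ a b G₀ ∧ e ∈ DJ a b G₀ := by
  obtain ⟨h1, h2, h3⟩ := h
  constructor
  · refine mem_DJ.2 ⟨hc.1, hc.2, ?_⟩
    refine (bE1 _ _ _ _ (col_ab hab hk (by simp [hc.1, hc.2]))).1 ?_
    rw [← h2]
    exact h3
  · refine mem_DJ.2 ⟨he.1, he.2, ?_⟩
    refine (bE1 _ _ _ _ (col_ab hab hk (by simp [he.1, he.2]))).1 ?_
    rw [← h1]
    exact h3.symm

/-- On `D`, being a centre means being split. -/
lemma center_iff_split (hab : a ≠ b) {G G₀ : Om d} (hk : key {a, b} G = key {a, b} G₀) {c e : V}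
    (hc : c ∈ DJ a b G₀) (he : e ∈ DJ a b G₀) :
    center a b c e G ↔ splitP c e (PhiJ a (DJ a b G₀) G) := by
  have h1 := entry_on hab hk hc
  have h2 := entry_on hab hk he
  unfold center splitP
  simp only [mem_PhiJ, hc, he, true_and, h1, h2]
  cases G.1 a c <;> cases G.1 a e <;> simp

/-- The flip acts on the slice by a transposition. -/
lemma PhiJ_sw4 (hab : a ≠ b) {G G₀ : Om d} {c e : V} (hd : Dist4 a b c e)
    (hc : c ∈ DJ a b G₀) (he : e ∈ DJ a b G₀) (h : center a b c e G) :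
    PhiJ a (DJ a b G₀) (sw4 a b c e G) = tau c e (PhiJ a (DJ a b G₀) G) := by
  ext z
  rw [mem_tau, mem_PhiJ, mem_PhiJ]
  have hne : G.1 a e = !G.1 a c := bE3 _ _ h.2.2
  by_cases h1 : z = c
  · subst h1
    rw [Equiv.swap_apply_left, sw4_apply hd h]
    simp only [true_or, or_true, true_and, and_self, if_true, hc, he, hne]
  by_cases h2 : z = e
  · subst h2
    rw [Equiv.swap_apply_right, sw4_apply hd h]
    simp only [true_or, or_true, true_and, and_self, if_true, hc, he, hne]
    cases G.1 a c <;> simp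
  rw [Equiv.swap_apply_of_ne_of_ne h1 h2, sw4_apply hd h]
  have h3 : ¬ (a = c ∨ a = e) := by simp [hd.ac, hd.ae]
  simp [h1, h2, h3]

end Vale.Agent.P335
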