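import Vale.Agent.P335.GraphJohnson1

/-! The Johnson lemmas transported to graphs. -/

set_option linter.unusedSectionVars false

open Finset BigOperators

namespace Vale.Agent.P335

/-- The energy of conditional averages as a sum over the values of the key. -/
lemma xt_eq {α β : Type*} [Fintype α] [Fintype β] [DecidableEq β] (C : Finset α) (k : α → β)
    (φ : α → ℝ) :
    xt C k φ = ∑ t, (∑ x ∈ C.filter (fun x => k x = t), φ x) ^ 2
      / ((C.filter (fun x => k x = t)).card : ℝ) := by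
  classical
  unfold xt ip
  have hcnd : ∀ x : {x // x ∈ C}, cnd (fun y : {x // x ∈ C} => k y.1) (fun y => φ y.1) x
      = (∑ y ∈ C.filter (fun y => k y = k x.1), φ y) / ((C.filter (fun y => k y = k x.1)).card : ℝ) := by
    intro x
    rw [cnd_apply]
    have h1 : (fib (fun y : {x // x ∈ C} => k y.1) x).map (Function.Embedding.subtype _)
        = C.filter (fun y => k y = k x.1) := by
      ext y
      simp only [mem_map, mem_fib, Function.Embedding.coe_subtype, mem_filter, Subtype.exists,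
        exists_and_right, exists_eq_right]
      constructor
      · rintro ⟨hy, h⟩
        exact ⟨hy, h⟩
      · rintro ⟨hy, h⟩
        exact ⟨hy, h⟩
    rw [← h1, sum_map, card_map]
    rfl
  simp only [hcnd]
  rw [Finset.sum_coe_sort C (fun x => (∑ y ∈ C.filter (fun y => k y = k x), φ y)
    / ((C.filter (fun y => k y = k x)).card : ℝ) * ((∑ y ∈ C.filter (fun y => k y = k x), φ y)
    / ((C.filter (fun y => k y = k x)).card : ℝ)))]
  rw [← sum_fiberwise C k]
  refine sum_congr rfl (fun t _ => ?_)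
  have h2 : ∀ x ∈ C.filter (fun x => k x = t), (∑ y ∈ C.filter (fun y => k y = k x), φ y)
    / ((C.filter (fun y => k y = k x)).card : ℝ) * ((∑ y ∈ C.filter (fun y => k y = k x), φ y)
    / ((C.filter (fun y => k y = k x)).card : ℝ))
      = (∑ y ∈ C.filter (fun y => k y = t), φ y) / ((C.filter (fun y => k y = t)).card : ℝ)
        * ((∑ y ∈ C.filter (fun y => k y = t), φ y) / ((C.filter (fun y => k y = t)).card : ℝ)) := by
    intro x hx
    rw [(mem_filter.1 hx).2]
  rw [sum_congr rfl h2, sum_const, nsmul_eq_mul]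
  by_cases h3 : ((C.filter (fun y => k y = t)).card : ℝ) = 0
  · rw [h3]; simp
  · field_simp

variable {V : Type*} [Fintype V] [DecidableEq V] {d : V → ℕ} {a b : V}

lemma sum_pairs_restrict {M : Type*} [AddCommMonoid M] {D W : Finset V} (hDW : D ⊆ W)
    (g : V → V → M) (hg : ∀ c ∈ W, ∀ e ∈ W.erase c, ¬ (c ∈ D ∧ e ∈ D) → g c e = 0) :
    ∑ c ∈ W, ∑ e ∈ W.erase c, g c e = ∑ c ∈ D, ∑ e ∈ D.erase c, g c e := by
  symm
  have h1 : ∀ c ∈ D, ∑ e ∈ D.erase c, g c e = ∑ e ∈ W.erase c, g c e := by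
    intro c hc
    refine sum_subset (erase_subset_erase c hDW) (fun e he he' => ?_)
    refine hg c (hDW hc) e he (fun h => he' ?_)
    exact mem_erase.2 ⟨(mem_erase.1 he).1, h.2⟩
  rw [sum_congr rfl h1]
  refine sum_subset hDW (fun c hc hc' => sum_eq_zero (fun e he => hg c hc e he (fun h => hc' h.1)))

/-- The vertices other than `a, b`. -/
def WJ (a b : V) : Finset V := (univ.erase a).erase b

lemma mem_WJ {z : V} : z ∈ WJ a b ↔ z ≠ a ∧ z ≠ b := by
  simp [WJ, and_comm]

/-- The fibre of a key value. -/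
noncomputable def Hf (a b : V) (t : V → V → Bool) : Finset (Om d) :=
  univ.filter (fun G => key {a, b} G = t)

/-- The centres in the fibre of a key value. -/
noncomputable def Cf (a b c e : V) (t : V → V → Bool) : Finset (Om d) :=
  (centerF a b c e).filter (fun G => key {a, b} G = t)

lemma mem_Hf {t : V → V → Bool} {G : Om d} : G ∈ Hf a b t ↔ key {a, b} G = t := by
  simp [Hf]

lemma mem_Cf {c e : V} {t : V → V → Bool} {G : Om d} :
    G ∈ Cf a b c e t ↔ center a b c e G ∧ key {a, b} G = t := by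
  simp [Cf, mem_centerF]

/-- The per-fibre energy of flips. -/
noncomputable def TJ (a b : V) (f : Om d → ℝ) (t : V → V → Bool) (c e : V) : ℝ :=
  ∑ G ∈ Hf a b t, (1 / 4 : ℝ) * (f G - f (sw4 a b c e G)) ^ 2

/-- The per-fibre energy of averages. -/
noncomputable def XJ (a b : V) (φ : Om d → ℝ) (t : V → V → Bool) (c e : V) : ℝ :=
  (∑ G ∈ (Cf a b c e t : Finset (Om d)), φ G) ^ 2 / (((Cf a b c e t : Finset (Om d))).card : ℝ)

theorem fibre_J (hab : a ≠ b) (t : V → V → Bool) (f φ : Om d → ℝ)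
    (hφ : ∀ G G' : Om d, key {a, b} G = key {a, b} G' → f G - f G' = φ G - φ G')
    (h0 : ∑ G ∈ Hf a b t, φ G = 0) :
    2 * ∑ G ∈ Hf a b t, (φ G) ^ 2 ≤ ∑ c ∈ WJ a b, ∑ e ∈ (WJ a b).erase c, TJ a b f t c e ∧
    -(3 / 2) * ∑ G ∈ Hf a b t, (φ G) ^ 2
      ≤ ∑ c ∈ WJ a b, ∑ e ∈ (WJ a b).erase c, (TJ a b f t c e - XJ a b φ t c e) := by
  classical
  rcases (Hf a b t : Finset (Om d)).eq_empty_or_nonempty with hem | ⟨G₀, hG₀⟩
  · have hC : ∀ c e, (Cf a b c e t : Finset (Om d)) = ∅ := by
      intro c e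
      rw [eq_empty_iff_forall_notMem]
      intro G hG
      have : G ∈ (Hf a b t : Finset (Om d)) := mem_Hf.2 (mem_Cf.1 hG).2
      rw [hem] at this
      simp at this
    simp [TJ, XJ, hem, hC]
  · obtain rfl : key {a, b} G₀ = t := mem_Hf.1 hG₀
    set t := key {a, b} G₀ with ht
    set D := DJ a b G₀ with hD
    set r := rJ a b G₀ with hr
    set Φ : Om d → Finset V := PhiJ a D with hΦ
    have hDW : D ⊆ WJ a b := by
      intro z hz
      have := mem_DJ.1 hz
      exact mem_WJ.2 ⟨this.1, this.2.1⟩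
    have hinj : Set.InjOn Φ (Hf a b t : Finset (Om d)) := by
      intro G hG G' hG' he
      exact PhiJ_inj hab (mem_Hf.1 hG) (mem_Hf.1 hG') he
    have himg : (Hf a b t : Finset (Om d)).image Φ = powersetCard r D := by
      ext A
      simp only [mem_image, mem_powersetCard]
      constructor
      · rintro ⟨G, hG, rfl⟩
        exact ⟨filter_subset _ _, card_PhiJ hab (mem_Hf.1 hG)⟩
      · intro hA
        obtain ⟨G, hG, hGA⟩ := PhiJ_surj hab G₀ (mem_powersetCard.2 hA)
        exact ⟨G, mem_Hf.2 hG, hGA⟩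
    obtain ⟨φt, hφt⟩ : ∃ φt : Finset V → ℝ, ∀ G ∈ (Hf a b t : Finset (Om d)), φt (Φ G) = φ G := by
      have : Nonempty (Om d) := ⟨G₀⟩
      refine ⟨fun A => φ (Function.invFunOn Φ (Hf a b t : Finset (Om d)) A), fun G hG => ?_⟩
      have := hinj.leftInvOn_invFunOn hG
      simp only [this]
    have hCsub : ∀ c e, (Cf a b c e t : Finset (Om d)) ⊆ Hf a b t :=
      fun c e G hG => mem_Hf.2 (mem_Cf.1 hG).2
    have hsum : ∀ F : Finset V → ℝ, ∑ A ∈ powersetCard r D, F A = ∑ G ∈ Hf a b t, F (Φ G) := by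
      intro F
      rw [← himg, sum_image hinj]
    -- the sets of centres
    have hCimg : ∀ c e, c ∈ D → e ∈ D →
        (Cf a b c e t : Finset (Om d)).image Φ = (powersetCard r D).filter (splitP c e) := by
      intro c e hc he
      ext A
      simp only [mem_image, mem_filter]
      constructor
      · rintro ⟨G, hG, rfl⟩
        have h1 := hCsub c e hG
        rw [← himg]
        exact ⟨mem_image_of_mem _ h1,
          (center_iff_split hab (mem_Hf.1 h1) hc he).1 (mem_Cf.1 hG).1⟩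
      · rintro ⟨hA, hs⟩
        rw [← himg, mem_image] at hA
        obtain ⟨G, hG, rfl⟩ := hA
        exact ⟨G, mem_Cf.2 ⟨(center_iff_split hab (mem_Hf.1 hG) hc he).2 hs, mem_Hf.1 hG⟩, rfl⟩
    have hCinj : ∀ c e, Set.InjOn Φ (Cf a b c e t : Finset (Om d)) :=
      fun c e => hinj.mono (by intro G hG; exact hCsub c e hG)
    -- terms off `D`
    have hvan : ∀ c ∈ WJ a b, ∀ e ∈ (WJ a b).erase c, ¬ (c ∈ D ∧ e ∈ D) →
        TJ a b f t c e = 0 ∧ XJ a b φ t c e = 0 := by
      intro c hc e he hn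
      have hc' := mem_WJ.1 hc
      have he' := mem_WJ.1 (mem_erase.1 he).2
      have hno : ∀ G ∈ (Hf a b t : Finset (Om d)), ¬ center a b c e G :=
        fun G hG hcG => hn (center_mem_D hab (mem_Hf.1 hG) hc' he' hcG)
      have hCe : (Cf a b c e t : Finset (Om d)) = ∅ := by
        rw [eq_empty_iff_forall_notMem]
        intro G hG
        exact hno G (hCsub c e hG) (mem_Cf.1 hG).1
      constructor
      · refine sum_eq_zero (fun G hG => ?_)
        rw [sw4_of_not (hno G hG)]
        simp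
      · simp [XJ, hCe]
    -- terms on `D`
    have hon : ∀ c ∈ D, ∀ e ∈ D.erase c,
        TJ a b f t c e = ∑ A ∈ (powersetCard r D).filter (splitP c e),
          (1 / 4 : ℝ) * (φt A - φt (tau c e A)) ^ 2 := by
      intro c hc e he
      have he1 := (mem_erase.1 he).2
      have hne := (mem_erase.1 he).1
      have hc' := mem_DJ.1 hc
      have he' := mem_DJ.1 he1
      have hd : Dist4 a b c e :=
        ⟨hab, hc'.1.symm, he'.1.symm, hc'.2.1.symm, he'.2.1.symm, hne.symm⟩
      rw [← hCimg c e hc he1, sum_image (hCinj c e)]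
      unfold TJ
      symm
      rw [← sum_subset (hCsub c e)]
      · refine sum_congr rfl (fun G hG => ?_)
        have hG1 := hCsub c e hG
        have hcG := (mem_Cf.1 hG).1
        have hG2 : sw4 a b c e G ∈ (Hf a b t : Finset (Om d)) :=
          mem_Hf.2 ((key_ab_sw4 hd G).trans (mem_Hf.1 hG1))
        have h5 : f G - f (sw4 a b c e G) = φ G - φ (sw4 a b c e G) :=
          hφ _ _ (key_ab_sw4 hd G).symm
        have h6 : φt (tau c e (Φ G)) = φ (sw4 a b c e G) := by
          rw [← hφt _ hG2, hΦ, hD, PhiJ_sw4 hab hd hc he1 hcG]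
        rw [h5, h6, hφt G hG1]
      · intro G hG hG'
        have hnc : ¬ center a b c e G := fun hcG => hG' (mem_Cf.2 ⟨hcG, mem_Hf.1 hG⟩)
        rw [sw4_of_not hnc]
        simp
    have hon2 : ∀ c ∈ D, ∀ e ∈ D.erase c,
        XJ a b φ t c e = (ZJ D r φt c e) ^ 2
          / (((powersetCard r D).filter (splitP c e)).card : ℝ) := by
      intro c hc e he
      have he1 := (mem_erase.1 he).2
      unfold XJ ZJ
      rw [← hCimg c e hc he1, sum_image (hCinj c e), card_image_of_injOn (hCinj c e)]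
      congr 2
      refine sum_congr rfl (fun G hG => ?_)
      rw [hφt G (hCsub c e hG)]
    have hm0 : ∑ A ∈ powersetCard r D, φt A = 0 := by
      rw [hsum, ← h0]
      exact sum_congr rfl (fun G hG => hφt G hG)
    have hsq : ∑ A ∈ powersetCard r D, (φt A) ^ 2 = ∑ G ∈ Hf a b t, (φ G) ^ 2 := by
      rw [hsum (fun A => (φt A) ^ 2)]
      exact sum_congr rfl (fun G hG => by rw [hφt G hG])
    have hE1 : ∑ c ∈ WJ a b, ∑ e ∈ (WJ a b).erase c, TJ a b f t c e = En D r φt := by
      rw [sum_pairs_restrict hDW _ (fun c hc e he hn => (hvan c hc e he hn).1)]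
      unfold En
      exact sum_congr rfl (fun c hc => sum_congr rfl (fun e he => hon c hc e he))
    have hE2 : ∑ c ∈ WJ a b, ∑ e ∈ (WJ a b).erase c, (TJ a b f t c e - XJ a b φ t c e)
        = En D r φt - ∑ c ∈ D, ∑ e ∈ D.erase c, (ZJ D r φt c e) ^ 2
          / (((powersetCard r D).filter (splitP c e)).card : ℝ) := by
      rw [sum_pairs_restrict hDW _ (fun c hc e he hn => by
        rw [(hvan c hc e he hn).1, (hvan c hc e he hn).2, sub_zero])]
      unfold En
      rw [← sum_sub_distrib]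
      refine sum_congr rfl (fun c hc => ?_)
      rw [← sum_sub_distrib]
      refine sum_congr rfl (fun e he => ?_)
      rw [hon c hc e he, hon2 c hc e he]
    constructor
    · rw [hE1, ← hsq]
      exact J1 D r φt hm0
    · rw [hE2, ← hsq]
      exact J2 D r φt hm0

/-- The Johnson lemmas for a pair of vertices. -/
theorem J_graph (hab : a ≠ b) (f : Om d → ℝ) :
    2 * ip (Pp a b f) (Pp a b f)
        ≤ ∑ c ∈ WJ a b, ∑ e ∈ (WJ a b).erase c, ∑ G, (1 / 4 : ℝ) * (f G - f (sw4 a b c e G)) ^ 2 ∧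
    -(3 / 2) * ip (Pp a b f) (Pp a b f)
        ≤ ∑ c ∈ WJ a b, ∑ e ∈ (WJ a b).erase c, (∑ G, (1 / 4 : ℝ) * (f G - f (sw4 a b c e G)) ^ 2
            - xt (centerF a b c e) (key {a, b}) (Pp a b f)) := by
  classical
  set φ := Pp a b f with hφd
  have hφ : ∀ G G' : Om d, key {a, b} G = key {a, b} G' → f G - f G' = φ G - φ G' := by
    intro G G' h
    have := cnd_eq_of_key (key {a, b}) f h
    simp only [hφd, Pp, Rp, Pi.sub_apply]
    rw [this]
    ring
  have h0 : ∀ t : V → V → Bool, ∑ G ∈ (Hf a b t : Finset (Om d)), φ G = 0 := by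
    intro t
    rcases (Hf a b t : Finset (Om d)).eq_empty_or_nonempty with hem | ⟨G₀, hG₀⟩
    · rw [hem, sum_empty]
    · obtain rfl : key {a, b} G₀ = t := mem_Hf.1 hG₀
      have h1 : (Hf a b (key {a, b} G₀) : Finset (Om d)) = fib (key {a, b}) G₀ := by
        ext G; rw [mem_Hf, mem_fib]
      rw [h1]
      simp only [hφd, Pp, Rp, Pi.sub_apply]
      rw [sum_sub_distrib]
      have h2 : ∑ G ∈ fib (key {a, b}) G₀, cnd (key {a, b}) f G
          = ∑ G ∈ fib (key {a, b}) G₀, cnd (key {a, b}) f G₀ :=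
        sum_congr rfl (fun G hG => cnd_eq_of_key _ f (mem_fib.1 hG))
      rw [h2, sum_const, nsmul_eq_mul, cnd_apply]
      have := card_fib_ne (key {a, b}) G₀
      field_simp
      ring
  have hfib : ∀ g : Om d → ℝ, ∑ G, g G = ∑ t : V → V → Bool, ∑ G ∈ (Hf a b t : Finset (Om d)), g G :=
    fun g => (sum_fiberwise (univ : Finset (Om d)) (key {a, b}) g).symm
  have hip : ip φ φ = ∑ t : V → V → Bool, ∑ G ∈ (Hf a b t : Finset (Om d)), (φ G) ^ 2 := by
    rw [← hfib]
    exact sum_congr rfl (fun G _ => by ring)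
  have hT : ∀ c e, ∑ G, (1 / 4 : ℝ) * (f G - f (sw4 a b c e G)) ^ 2
      = ∑ t : V → V → Bool, TJ a b f t c e := fun c e => hfib _
  have hX : ∀ c e, xt (centerF a b c e) (key {a, b}) φ = ∑ t : V → V → Bool, XJ a b φ t c e :=
    fun c e => xt_eq _ _ _
  have hS : ∀ g : (V → V → Bool) → V → V → ℝ,
      ∑ c ∈ WJ a b, ∑ e ∈ (WJ a b).erase c, ∑ t, g t c e
        = ∑ t, ∑ c ∈ WJ a b, ∑ e ∈ (WJ a b).erase c, g t c e := by
    intro g
    rw [sum_congr rfl (fun c _ => sum_comm), sum_comm]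
  simp only [hT, hX, ← sum_sub_distrib]
  rw [hS, hS, hip, mul_sum, mul_sum]
  constructor
  · exact sum_le_sum (fun t _ => (fibre_J hab t f φ hφ (h0 t)).1)
  · exact sum_le_sum (fun t _ => (fibre_J hab t f φ hφ (h0 t)).2)

end Vale.Agent.P335
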