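import Vale.Agent.P335.GraphFlip

/-! The quadruple lemma on graphs. -/

set_option linter.unusedSectionVars false

open Finset BigOperators

namespace Vale.Agent.P335

variable {V : Type*} [Fintype V] [DecidableEq V] {d : V → ℕ}

/-- The four block entries between `a, b` and `c, e`. -/
def blk (a b c e : V) (G : Om d) : Bool × Bool × Bool × Bool :=
  (G.1 a c, G.1 a e, G.1 b c, G.1 b e)

/-- Number of present block entries. -/
def tauB (b : Bool × Bool × Bool × Bool) : ℕ :=
  b.1.toNat + b.2.1.toNat + b.2.2.1.toNat + b.2.2.2.toNat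

/-- Row sum of a block. -/
def rhoB (b : Bool × Bool × Bool × Bool) : ℕ := b.1.toNat + b.2.1.toNat

/-- Column sum of a block. -/
def gamB (b : Bool × Bool × Bool × Bool) : ℕ := b.1.toNat + b.2.2.1.toNat

/-- The block when it has exactly two entries; otherwise a default value. -/
def bp (b : Bool × Bool × Bool × Bool) : Bool × Bool × Bool × Bool :=
  if tauB b = 2 then b else (false, false, false, false)

/-- The common coarser key. -/
def kXq (a b c e : V) (G : Om d) : (V → V → Bool) × Bool × Bool × (V → ℕ) :=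
  (key {a, b, c, e} G, G.1 a b, G.1 c e,
    fun w => if w ∈ ({a, b, c, e} : Finset V) then 0 else (G.1 a w).toNat + (G.1 b w).toNat)

section Bools

lemma D1 : ∀ (p₁ q₁ r₁ s₁ p₂ q₂ r₂ s₂ : Bool),
    p₁.toNat + q₁.toNat + r₁.toNat + s₁.toNat = p₂.toNat + q₂.toNat + r₂.toNat + s₂.toNat →
    p₁.toNat + q₁.toNat + r₁.toNat + s₁.toNat ≠ 2 →
    ∃ p q r s : Bool, p.toNat + q.toNat = p₁.toNat + q₁.toNat ∧
      r.toNat + s.toNat = r₁.toNat + s₁.toNat ∧ p.toNat + r.toNat = p₂.toNat + r₂.toNat ∧
      q.toNat + s.toNat = q₂.toNat + s₂.toNat := by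
  decide

lemma D2 : ∀ (p q r s p' q' r' s' : Bool),
    p.toNat + q.toNat + r.toNat + s.toNat = p'.toNat + q'.toNat + r'.toNat + s'.toNat →
    p.toNat + q.toNat + r.toNat + s.toNat ≠ 2 →
    p.toNat + q.toNat = p'.toNat + q'.toNat → p.toNat + r.toNat = p'.toNat + r'.toNat →
    p = p' ∧ q = q' ∧ r = r' ∧ s = s' := by
  decide

lemma D3 : ∀ (p q r s p' q' r' s' : Bool),
    p.toNat + q.toNat + r.toNat + s.toNat = 2 → p'.toNat + q'.toNat + r'.toNat + s'.toNat = 2 →
    p.toNat + q.toNat = p'.toNat + q'.toNat → p.toNat + q.toNat ≠ 1 →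
    p.toNat + r.toNat = p'.toNat + r'.toNat := by
  decide

lemma D4 : ∀ (p q r s p' q' r' s' : Bool),
    p.toNat + q.toNat + r.toNat + s.toNat = 2 → p'.toNat + q'.toNat + r'.toNat + s'.toNat = 2 →
    p.toNat + r.toNat = p'.toNat + r'.toNat → p.toNat + r.toNat ≠ 1 →
    p.toNat + q.toNat = p'.toNat + q'.toNat := by
  decide

lemma D5 : ∀ (p q r s p' q' r' s' : Bool),
    p.toNat + q.toNat + r.toNat + s.toNat = p'.toNat + q'.toNat + r'.toNat + s'.toNat →
    p.toNat + q.toNat = p'.toNat + q'.toNat → p.toNat + r.toNat = p'.toNat + r'.toNat →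
    (p = p' ∧ q = q' ∧ r = r' ∧ s = s') ∨
      (p = s ∧ q = r ∧ p ≠ q ∧ p' = !p ∧ q' = !q ∧ r' = !r ∧ s' = !s) := by
  decide

lemma D6 : ∀ (b : Bool × Bool × Bool × Bool),
    (rhoB (bp b) = 1 ∧ gamB (bp b) = 1) ↔ (b.1 = b.2.2.2 ∧ b.2.1 = b.2.2.1 ∧ b.1 ≠ b.2.1) := by
  decide

end Bools

section Basics

variable {a b c e : V}

lemma sum_Q (hd : Dist4 a b c e) (g : V → ℕ) :
    ∑ v ∈ ({a, b, c, e} : Finset V), g v = g a + (g b + (g c + g e)) := by
  rw [sum_insert (by simp [hd.ab, hd.ac, hd.ae]), sum_insert (by simp [hd.bc, hd.be]),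
    sum_pair hd.ce]

lemma kXq_eq {G G' : Om d} : kXq a b c e G = kXq a b c e G' ↔
    key {a, b, c, e} G = key {a, b, c, e} G' ∧ G.1 a b = G'.1 a b ∧ G.1 c e = G'.1 c e ∧
      ∀ w, w ∉ ({a, b, c, e} : Finset V) →
        (G.1 a w).toNat + (G.1 b w).toNat = (G'.1 a w).toNat + (G'.1 b w).toNat := by
  unfold kXq
  simp only [Prod.mk.injEq, funext_iff]
  constructor
  · rintro ⟨h1, h2, h3, h4⟩
    refine ⟨h1, h2, h3, fun w hw => ?_⟩
    have := h4 w
    simpa [hw] using this
  · rintro ⟨h1, h2, h3, h4⟩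
    refine ⟨h1, h2, h3, fun w => ?_⟩
    by_cases hw : w ∈ ({a, b, c, e} : Finset V)
    · simp only [hw, if_true]
    · simp only [hw, if_false]
      exact h4 w hw

lemma K1 (hd : Dist4 a b c e) {G G' : Om d} (h : key {c, e} G = key {c, e} G') :
    kXq a b c e G = kXq a b c e G' := by
  rw [kXq_eq]
  have hk := key_eq_iff.1 h
  have hac : a ∉ ({c, e} : Finset V) := by simp [hd.ac, hd.ae]
  have hbc : b ∉ ({c, e} : Finset V) := by simp [hd.bc, hd.be]
  refine ⟨key_mono (by
      intro x hx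
      simp only [mem_insert, mem_singleton] at hx ⊢
      tauto) h, hk a b hac hbc, ab_same hd.ce h, fun w hw => ?_⟩
  have hw' : w ∉ ({c, e} : Finset V) := by
    simp only [mem_insert, mem_singleton, not_or] at hw ⊢
    exact ⟨hw.2.2.1, hw.2.2.2⟩
  rw [hk a w hac hw', hk b w hbc hw']

lemma K2 (hd : Dist4 a b c e) {G G' : Om d} (h : key {a, b} G = key {a, b} G') :
    kXq a b c e G = kXq a b c e G' := by
  rw [kXq_eq]
  have hk := key_eq_iff.1 h
  have hca : c ∉ ({a, b} : Finset V) := by simp [hd.ac.symm, hd.bc.symm]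
  have hea : e ∉ ({a, b} : Finset V) := by simp [hd.ae.symm, hd.be.symm]
  refine ⟨key_mono (by
      intro x hx
      simp only [mem_insert, mem_singleton] at hx ⊢
      tauto) h, ab_same hd.ab h, hk c e hca hea, fun w hw => ?_⟩
  have hw' : w ∉ ({a, b} : Finset V) := by
    simp only [mem_insert, mem_singleton, not_or] at hw ⊢
    exact ⟨hw.1, hw.2.1⟩
  have := row_sum_eq h hw'
  rwa [sum_pair hd.ab, sum_pair hd.ab] at this

lemma K3a (hd : Dist4 a b c e) {G G' : Om d} (h : key {c, e} G = key {c, e} G') :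
    (G.1 a c).toNat + (G.1 a e).toNat = (G'.1 a c).toNat + (G'.1 a e).toNat := by
  have hac : a ∉ ({c, e} : Finset V) := by simp [hd.ac, hd.ae]
  have := col_sum_eq h hac
  rwa [sum_pair hd.ce, sum_pair hd.ce] at this

lemma K3b (hd : Dist4 a b c e) {G G' : Om d} (h : key {c, e} G = key {c, e} G') :
    (G.1 b c).toNat + (G.1 b e).toNat = (G'.1 b c).toNat + (G'.1 b e).toNat := by
  have hbc : b ∉ ({c, e} : Finset V) := by simp [hd.bc, hd.be]
  have := col_sum_eq h hbc
  rwa [sum_pair hd.ce, sum_pair hd.ce] at this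

lemma K4a (hd : Dist4 a b c e) {G G' : Om d} (h : key {a, b} G = key {a, b} G') :
    (G.1 a c).toNat + (G.1 b c).toNat = (G'.1 a c).toNat + (G'.1 b c).toNat := by
  have hca : c ∉ ({a, b} : Finset V) := by simp [hd.ac.symm, hd.bc.symm]
  have := row_sum_eq h hca
  rwa [sum_pair hd.ab, sum_pair hd.ab] at this

lemma K4b (hd : Dist4 a b c e) {G G' : Om d} (h : key {a, b} G = key {a, b} G') :
    (G.1 a e).toNat + (G.1 b e).toNat = (G'.1 a e).toNat + (G'.1 b e).toNat := by
  have hea : e ∉ ({a, b} : Finset V) := by simp [hd.ae.symm, hd.be.symm]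
  have := row_sum_eq h hea
  rwa [sum_pair hd.ab, sum_pair hd.ab] at this

/-- The row equation at `a`. -/
lemma row_a (hd : Dist4 a b c e) (G : Om d) :
    d a = (G.1 a b).toNat + ((G.1 a c).toNat + (G.1 a e).toNat)
      + ∑ v ∈ ({a, b, c, e} : Finset V)ᶜ, (G.1 a v).toNat := by
  rw [← G.2.deg a, dg_split G.1 a {a, b, c, e}, sum_Q hd, G.2.irrefl]
  simp

/-- The row equation at `b`. -/
lemma row_b (hd : Dist4 a b c e) (G : Om d) :
    d b = (G.1 a b).toNat + ((G.1 b c).toNat + (G.1 b e).toNat)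
      + ∑ v ∈ ({a, b, c, e} : Finset V)ᶜ, (G.1 b v).toNat := by
  rw [← G.2.deg b, dg_split G.1 b {a, b, c, e}, sum_Q hd, G.2.irrefl, G.2.symm b a]
  simp

/-- The number of block entries is determined by the coarse key. -/
lemma tau_same (hd : Dist4 a b c e) {G G' : Om d} (h : kXq a b c e G = kXq a b c e G') :
    tauB (blk a b c e G) = tauB (blk a b c e G') := by
  obtain ⟨-, h2, -, h4⟩ := kXq_eq.1 h
  have e1 := row_a hd G
  have e2 := row_b hd G
  have e3 := row_a hd G'
  have e4 := row_b hd G'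
  have e5 : ∑ v ∈ ({a, b, c, e} : Finset V)ᶜ, ((G.1 a v).toNat + (G.1 b v).toNat)
      = ∑ v ∈ ({a, b, c, e} : Finset V)ᶜ, ((G'.1 a v).toNat + (G'.1 b v).toNat) :=
    sum_congr rfl (fun v hv => h4 v (mem_compl.1 hv))
  rw [sum_add_distrib, sum_add_distrib] at e5
  rw [h2] at e1 e2
  simp only [tauB, blk]
  omega

/-- Gluing of two graphs with a new block. -/
lemma glue_exists (hd : Dist4 a b c e) {x₁ x₂ : Om d} (hX : kXq a b c e x₁ = kXq a b c e x₂)
    {p q r s : Bool} (h1 : p.toNat + q.toNat = (x₁.1 a c).toNat + (x₁.1 a e).toNat)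
    (h2 : r.toNat + s.toNat = (x₁.1 b c).toNat + (x₁.1 b e).toNat)
    (h3 : p.toNat + r.toNat = (x₂.1 a c).toNat + (x₂.1 b c).toNat)
    (h4 : q.toNat + s.toNat = (x₂.1 a e).toNat + (x₂.1 b e).toNat) :
    ∃ y : Om d, key {c, e} y = key {c, e} x₁ ∧ key {a, b} y = key {a, b} x₂ ∧
      blk a b c e y = (p, q, r, s) := by
  obtain ⟨hQ, hab, hce, hσ⟩ := kXq_eq.1 hX
  set ρg : V → V → Bool := fun u v => if u = a then
      (if v = b then x₂.1 a b else if v = c then p else if v = e then q else x₁.1 a v)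
    else (if v = a then x₂.1 b a else if v = c then r else if v = e then s else x₁.1 b v) with hρ
  have ρa : ∀ v, ρg a v
      = if v = b then x₂.1 a b else if v = c then p else if v = e then q else x₁.1 a v := by
    intro v; simp [hρ]
  have ρb : ∀ v, ρg b v
      = if v = a then x₂.1 b a else if v = c then r else if v = e then s else x₁.1 b v := by
    intro v; simp [hρ, hd.ab.symm]
  have hvalid : IsGr d (repl x₂.1 {a, b} ρg) := by
    apply repl_isGr x₂.2
    · intro u hu v hv
      simp only [mem_insert, mem_singleton] at hu hv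
      rcases hu with rfl | rfl <;> rcases hv with rfl | rfl
      · rfl
      · rw [ρa, ρb]; simp [hd.ab.symm, x₂.2.symm]
      · rw [ρa, ρb]; simp [hd.ab.symm, x₂.2.symm]
      · rfl
    · intro u hu
      simp only [mem_insert, mem_singleton] at hu
      rcases hu with rfl | rfl
      · rw [ρa]; simp [hd.ab, hd.ac, hd.ae, x₁.2.irrefl]
      · rw [ρb]; simp [hd.ab.symm, hd.bc, hd.be, x₁.2.irrefl]
    · intro v hv
      have hv' : v ≠ a ∧ v ≠ b := by simpa using hv
      rw [sum_pair hd.ab, sum_pair hd.ab, ρa, ρb]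
      simp only [hv'.1, hv'.2, if_false]
      by_cases h5 : v = c
      · subst h5; simpa using h3
      by_cases h6 : v = e
      · subst h6; simpa [h5] using h4
      simp only [h5, h6, if_false]
      have hw : v ∉ ({a, b, c, e} : Finset V) := by simp [hv'.1, hv'.2, h5, h6]
      exact hσ v hw
    · intro u hu
      simp only [mem_insert, mem_singleton] at hu
      rw [← sum_add_sum_compl ({a, b, c, e} : Finset V), sum_Q hd]
      rcases hu with rfl | rfl
      · rw [row_a hd x₁, ρa, ρa, ρa, ρa]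
        simp only [hd.ab, hd.ac, hd.ae, hd.bc.symm, hd.be.symm, hd.ce.symm, if_true, if_false,
          x₁.2.irrefl]
        have h7 : ∑ v ∈ ({u, b, c, e} : Finset V)ᶜ, (ρg u v).toNat
            = ∑ v ∈ ({u, b, c, e} : Finset V)ᶜ, (x₁.1 u v).toNat := by
          refine sum_congr rfl (fun v hv => ?_)
          have h8 : v ≠ u ∧ v ≠ b ∧ v ≠ c ∧ v ≠ e := by simpa using hv
          rw [ρa]
          simp [h8.2.1, h8.2.2.1, h8.2.2.2]
        rw [h7, hab]
        simp only [Bool.toNat_false]
        omega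
      · rw [row_b hd x₁, ρb, ρb, ρb, ρb]
        simp only [hd.ab.symm, hd.ab, hd.bc, hd.be, hd.ac.symm, hd.ae.symm, hd.ce.symm, if_true,
          if_false, x₁.2.irrefl]
        have h7 : ∑ v ∈ ({a, u, c, e} : Finset V)ᶜ, (ρg u v).toNat
            = ∑ v ∈ ({a, u, c, e} : Finset V)ᶜ, (x₁.1 u v).toNat := by
          refine sum_congr rfl (fun v hv => ?_)
          have h8 : v ≠ a ∧ v ≠ u ∧ v ≠ c ∧ v ≠ e := by simpa using hv
          rw [ρb]
          simp [h8.1, h8.2.2.1, h8.2.2.2]
        rw [h7, x₂.2.symm u a, hab]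
        simp only [Bool.toNat_false]
        omega
  refine ⟨⟨_, hvalid⟩, ?_, ?_, ?_⟩
  · rw [key_eq_iff]
    intro u v hu hv
    have hu' : u ≠ c ∧ u ≠ e := by simpa using hu
    have hv' : v ≠ c ∧ v ≠ e := by simpa using hv
    simp only
    by_cases hua : u ∈ ({a, b} : Finset V)
    · rw [repl_mem hua]
      simp only [mem_insert, mem_singleton] at hua
      rcases hua with rfl | rfl
      · rw [ρa]
        simp only [hv'.1, hv'.2, if_false]
        split_ifs with h5
        · subst h5; exact hab.symm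
        · rfl
      · rw [ρb]
        simp only [hv'.1, hv'.2, if_false]
        split_ifs with h5
        · subst h5; rw [x₂.2.symm, x₁.2.symm]; exact hab.symm
        · rfl
    · have hua' : u ≠ a ∧ u ≠ b := by simpa using hua
      by_cases hva : v ∈ ({a, b} : Finset V)
      · rw [repl_mem' hua hva]
        simp only [mem_insert, mem_singleton] at hva
        rcases hva with rfl | rfl
        · rw [ρa]
          simp only [hua'.2, hu'.1, hu'.2, if_false]
          exact x₁.2.symm _ _
        · rw [ρb]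
          simp only [hua'.1, hu'.1, hu'.2, if_false]
          exact x₁.2.symm _ _
      · have hva' : v ≠ a ∧ v ≠ b := by simpa using hva
        rw [repl_not hua hva]
        refine (key_eq_iff.1 hQ u v ?_ ?_).symm
        · simp [hua'.1, hua'.2, hu'.1, hu'.2]
        · simp [hva'.1, hva'.2, hv'.1, hv'.2]
  · rw [key_eq_iff]
    intro u v hu hv
    exact repl_not hu hv
  · have ha : a ∈ ({a, b} : Finset V) := by simp
    have hb : b ∈ ({a, b} : Finset V) := by simp
    simp only [blk]
    rw [repl_mem ha, repl_mem ha, repl_mem hb, repl_mem hb, ρa, ρa, ρb, ρb]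
    simp [hd.bc.symm, hd.be.symm, hd.ac.symm, hd.ae.symm, hd.ce.symm]

/-- A graph is determined by the two keys and the block. -/
lemma ext_of_keys (hd : Dist4 a b c e) {x y : Om d} (h1 : key {c, e} x = key {c, e} y)
    (h2 : key {a, b} x = key {a, b} y) (h3 : blk a b c e x = blk a b c e y) : x = y := by
  have hb := h3
  simp only [blk, Prod.mk.injEq] at hb
  obtain ⟨hac, hae, hbc, hbe⟩ := hb
  apply Om.ext'
  intro u v
  by_cases hu : u ∈ ({a, b} : Finset V)
  · by_cases hv : v ∈ ({c, e} : Finset V)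
    · simp only [mem_insert, mem_singleton] at hu hv
      rcases hu with rfl | rfl <;> rcases hv with rfl | rfl <;> assumption
    · refine key_eq_iff.1 h1 u v ?_ hv
      simp only [mem_insert, mem_singleton] at hu ⊢
      rcases hu with rfl | rfl
      · simp [hd.ac, hd.ae]
      · simp [hd.bc, hd.be]
  · by_cases hv : v ∈ ({a, b} : Finset V)
    · by_cases hu2 : u ∈ ({c, e} : Finset V)
      · rw [x.2.symm, y.2.symm]
        simp only [mem_insert, mem_singleton] at hu2 hv
        rcases hu2 with rfl | rfl <;> rcases hv with rfl | rfl <;> assumption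
      · refine key_eq_iff.1 h1 u v hu2 ?_
        simp only [mem_insert, mem_singleton] at hv ⊢
        rcases hv with rfl | rfl
        · simp [hd.ac, hd.ae]
        · simp [hd.bc, hd.be]
    · exact key_eq_iff.1 h2 u v hu hv

lemma blk_tau_of (hd : Dist4 a b c e) {G : Om d} (hc : center a b c e G) :
    blk a b c e (sw4 a b c e G) = (!G.1 a c, !G.1 a e, !G.1 b c, !G.1 b e) := by
  simp only [blk, sw4_apply hd hc, true_or, or_true, true_and, and_self, if_true]

/-- The gluing structure for a quadruple of vertices. -/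
theorem glue_inst (hd : Dist4 a b c e) :
    Glue (key {c, e} : Om d → _) (key {a, b} : Om d → _) (kXq a b c e)
      (fun G => bp (blk a b c e G)) rhoB gamB where
  hAX := fun x y h => K1 hd h
  hBX := fun x y h => K2 hd h
  hρ := by
    intro x y h
    have hτ := tau_same hd (K1 hd h)
    by_cases h2 : tauB (blk a b c e x) = 2
    · have h3 : tauB (blk a b c e y) = 2 := hτ ▸ h2
      simp only [bp, h2, h3, if_true]
      exact K3a hd h
    · have h3 : ¬ tauB (blk a b c e y) = 2 := hτ ▸ h2
      simp only [bp, h2, h3, if_false]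
  hγ := by
    intro x y h
    have hτ := tau_same hd (K2 hd h)
    by_cases h2 : tauB (blk a b c e x) = 2
    · have h3 : tauB (blk a b c e y) = 2 := hτ ▸ h2
      simp only [bp, h2, h3, if_true]
      exact K4a hd h
    · have h3 : ¬ tauB (blk a b c e y) = 2 := hτ ▸ h2
      simp only [bp, h2, h3, if_false]
  hgl := by
    intro x₁ x₂ x₃ h1 h2 h3 h4
    have hτ1 := tau_same hd h1
    have hτ2 := tau_same hd h2
    by_cases h5 : tauB (blk a b c e x₃) = 2
    · have e1 : tauB (blk a b c e x₁) = 2 := hτ1.trans h5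
      have e2 : tauB (blk a b c e x₂) = 2 := hτ2.trans h5
      simp only [bp, e1, e2, h5, if_true] at h3 h4
      simp only [rhoB, gamB, blk] at h3 h4
      simp only [tauB, blk] at e1 e2 h5
      obtain ⟨y, hy1, hy2, hy3⟩ := glue_exists hd (h1.trans h2.symm)
        (p := x₃.1 a c) (q := x₃.1 a e) (r := x₃.1 b c) (s := x₃.1 b e)
        (by omega) (by omega) (by omega) (by omega)
      refine ⟨y, hy1, hy2, ?_⟩
      simp only [hy3]
      rfl
    · have e1 : ¬ tauB (blk a b c e x₁) = 2 := hτ1 ▸ h5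
      have e0 : tauB (blk a b c e x₁) = tauB (blk a b c e x₂) := hτ1.trans hτ2.symm
      simp only [tauB, blk] at e0
      obtain ⟨p, q, r, s, h6, h7, h8, h9⟩ := D1 (x₁.1 a c) (x₁.1 a e) (x₁.1 b c) (x₁.1 b e)
        (x₂.1 a c) (x₂.1 a e) (x₂.1 b c) (x₂.1 b e) e0 e1
      obtain ⟨y, hy1, hy2, hy3⟩ := glue_exists hd (h1.trans h2.symm) h6 h7 h8 h9
      refine ⟨y, hy1, hy2, ?_⟩
      have e3 : ¬ tauB (blk a b c e y) = 2 := by
        rw [hy3]
        simp only [tauB, blk] at e1 ⊢
        omega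
      simp only [bp, e3, h5, if_false]
  hinj := by
    intro x y h1 h2 h3
    have hτ := tau_same hd (K1 hd h1)
    apply ext_of_keys hd h1 h2
    by_cases h5 : tauB (blk a b c e x) = 2
    · have e1 : tauB (blk a b c e y) = 2 := hτ ▸ h5
      simpa only [bp, h5, e1, if_true] using h3
    · have e3 := K3a hd h1
      have e4 := K4a hd h2
      have e5 := hτ
      simp only [tauB, blk] at e5 h5
      obtain ⟨h6, h7, h8, h9⟩ := D2 (x.1 a c) (x.1 a e) (x.1 b c) (x.1 b e)
        (y.1 a c) (y.1 a e) (y.1 b c) (y.1 b e) e5 h5 e3 e4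
      simp only [blk, h6, h7, h8, h9]

lemma F4a_inst (hd : Dist4 a b c e) (x y : Om d) (h : kXq a b c e x = kXq a b c e y)
    (h1 : rhoB (bp (blk a b c e x)) = rhoB (bp (blk a b c e y)))
    (h2 : rhoB (bp (blk a b c e x)) ≠ 1) :
    gamB (bp (blk a b c e x)) = gamB (bp (blk a b c e y)) := by
  have hτ := tau_same hd h
  by_cases h5 : tauB (blk a b c e x) = 2
  · have e1 : tauB (blk a b c e y) = 2 := hτ ▸ h5
    simp only [bp, h5, e1, if_true] at h1 h2 ⊢
    simp only [tauB, rhoB, gamB, blk] at h1 h2 h5 e1 ⊢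
    exact D3 _ _ _ _ _ _ _ _ h5 e1 h1 h2
  · have e1 : ¬ tauB (blk a b c e y) = 2 := hτ ▸ h5
    simp only [bp, h5, e1, if_false]

lemma F4b_inst (hd : Dist4 a b c e) (x y : Om d) (h : kXq a b c e x = kXq a b c e y)
    (h1 : gamB (bp (blk a b c e x)) = gamB (bp (blk a b c e y)))
    (h2 : gamB (bp (blk a b c e x)) ≠ 1) :
    rhoB (bp (blk a b c e x)) = rhoB (bp (blk a b c e y)) := by
  have hτ := tau_same hd h
  by_cases h5 : tauB (blk a b c e x) = 2
  · have e1 : tauB (blk a b c e y) = 2 := hτ ▸ h5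
    simp only [bp, h5, e1, if_true] at h1 h2 ⊢
    simp only [tauB, rhoB, gamB, blk] at h1 h2 h5 e1 ⊢
    exact D4 _ _ _ _ _ _ _ _ h5 e1 h1 h2
  · have e1 : ¬ tauB (blk a b c e y) = 2 := hτ ▸ h5
    simp only [bp, h5, e1, if_false]

/-- The flip is the involution on the fibres of the two keys. -/
theorem flip_data (hd : Dist4 a b c e) :
    FlipData (key {c, e} : Om d → _) (key {a, b} : Om d → _) (sw4 a b c e) where
  hσA := fun x => key_ce_sw4 hd x
  hσB := fun x => key_ab_sw4 hd x
  hσσ := fun x => sw4_sw4 hd x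
  hσJ := by
    intro x y h1 h2
    have hτ := tau_same hd (K1 hd h1)
    have e3 := K3a hd h1
    have e4 := K4a hd h2
    have e5 := hτ
    simp only [tauB, blk] at e5
    rcases D5 (y.1 a c) (y.1 a e) (y.1 b c) (y.1 b e)
        (x.1 a c) (x.1 a e) (x.1 b c) (x.1 b e) e5 e3 e4 with h | h
    · left
      apply ext_of_keys hd h1 h2
      simp only [blk, h.1, h.2.1, h.2.2.1, h.2.2.2]
    · right
      obtain ⟨h3, h4, h5, h6, h7, h8, h9⟩ := h
      have hc : center a b c e x := by
        refine ⟨?_, ?_, ?_⟩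
        · rw [h6, h9, h3]
        · rw [h7, h8, h4]
        · intro h10
          apply h5
          rw [h6, h7] at h10
          simpa using h10
      apply ext_of_keys hd (h1.trans (key_ce_sw4 hd x).symm) (h2.trans (key_ab_sw4 hd x).symm)
      rw [blk_tau_of hd hc, h6, h7, h8, h9]
      simp [blk]

/-- The finite set of centres. -/
noncomputable def centerF (a b c e : V) : Finset (Om d) := univ.filter (center a b c e)

lemma mem_centerF {G : Om d} : G ∈ centerF a b c e ↔ center a b c e G := by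
  simp [centerF]

lemma centerF_symm : (centerF a b c e : Finset (Om d)) = centerF c e a b := by
  ext G
  rw [mem_centerF, mem_centerF]
  exact center_symm

/-- The quadruple inequality. -/
theorem quad_graph (hd : Dist4 a b c e) (f : Om d → ℝ) :
    ∑ G, (1 / 4 : ℝ) * (f G - f (sw4 a b c e G)) ^ 2
        - (1 / 2) * xt (centerF a b c e) (key {a, b}) (Pp a b f)
        - (1 / 2) * xt (centerF a b c e) (key {c, e}) (Pp c e f)
      ≤ ip (Pp a b f) (Pp c e f) := by
  refine quad_main (glue_inst hd) (F4a_inst hd) (F4b_inst hd) (flip_data hd) _ ?_ f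
  intro G
  rw [mem_centerF]
  have := D6 (blk a b c e G)
  simp only [blk] at this
  simp only [blk, center]
  exact this.symm

end Basics

end Vale.Agent.P335
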