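import Vale.Agent.P335.Cnd

/-! Spectral decomposition of symmetric operators on real functions on a finite type. -/

open Finset BigOperators

namespace Vale.Agent.P335

variable {α : Type*} [Fintype α]

/-- Spectral theorem, stated with the plain inner product `ip`. -/
theorem spectral (T : (α → ℝ) →ₗ[ℝ] (α → ℝ)) (hT : ∀ f g, ip (T f) g = ip f (T g)) :
    ∃ (e : α → α → ℝ) (μ : α → ℝ), (∀ i, T (e i) = μ i • e i) ∧ (∀ i, e i ≠ 0) ∧
      (∀ f g, ip f g = ∑ i, ip f (e i) * ip g (e i)) := by
  classical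
  set A : Matrix α α ℝ := LinearMap.toMatrix' T with hA
  have hmul : ∀ f, A.mulVec f = T f := fun f => by
    rw [hA, LinearMap.toMatrix'_mulVec]
  have hdot : ∀ f g : α → ℝ, ip f g = f ⬝ᵥ g := fun f g => by
    simp [ip, dotProduct]
  have hH : A.IsHermitian := by
    rw [Matrix.IsHermitian, Matrix.conjTranspose_eq_transpose_of_trivial]
    ext i j
    have h := hT (Pi.single j 1) (Pi.single i 1)
    rw [hdot, hdot, ← hmul, ← hmul] at h
    simp only [Matrix.transpose_apply]
    simpa [Matrix.mulVec_single, dotProduct_comm] using h.symm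
  let b := hH.eigenvectorBasis
  refine ⟨fun i => (b i).ofLp, hH.eigenvalues, ?_, ?_, ?_⟩
  · intro i
    rw [← hmul]
    exact hH.mulVec_eigenvectorBasis i
  · intro i h
    have h1 : b i = 0 := by
      apply (WithLp.ofLp_injective 2)
      simpa using h
    exact b.orthonormal.ne_zero i h1
  · intro f g
    have h := b.sum_inner_mul_inner (WithLp.toLp 2 f) (WithLp.toLp 2 g)
    simp only [EuclideanSpace.inner_eq_star_dotProduct, star_trivial] at h
    rw [hdot, dotProduct_comm]
    rw [← h]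
    refine sum_congr rfl (fun i _ => ?_)
    rw [hdot, hdot]
    simp [dotProduct_comm]

/-- If every eigenvalue of a symmetric operator is at most `c`, so is its Rayleigh quotient. -/
theorem rayleigh_le (T : (α → ℝ) →ₗ[ℝ] (α → ℝ)) (hT : ∀ f g, ip (T f) g = ip f (T g)) (c : ℝ)
    (h : ∀ (μ : ℝ) (e : α → ℝ), e ≠ 0 → T e = μ • e → μ ≤ c) (f : α → ℝ) :
    ip f (T f) ≤ c * ip f f := by
  obtain ⟨e, μ, he, hne, hp⟩ := spectral T hT
  rw [hp f (T f), hp f f, mul_sum]
  refine sum_le_sum (fun i _ => ?_)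
  rw [hT, he, ip_smul_right]
  have := h (μ i) (e i) (hne i) (he i)
  nlinarith [mul_self_nonneg (ip f (e i))]

/-- The spectral gap lemma: from `‖Qf‖² ≥ c ⟨f, Qf⟩` and kernel information to a Poincare
inequality. -/
theorem gap_of_square (Q : (α → ℝ) →ₗ[ℝ] (α → ℝ)) (hQ : ∀ f g, ip (Q f) g = ip f (Q g))
    (hpos : ∀ f, 0 ≤ ip f (Q f)) (c : ℝ)
    (hsq : ∀ f, c * ip f (Q f) ≤ ip (Q f) (Q f))
    (f : α → ℝ) (hker : ∀ e, Q e = 0 → ip f e = 0) :
    c * ip f f ≤ ip f (Q f) := by
  obtain ⟨e, μ, he, hne, hp⟩ := spectral Q hQ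
  rw [hp f (Q f), hp f f, mul_sum]
  refine sum_le_sum (fun i _ => ?_)
  rw [hQ, he, ip_smul_right]
  have hn : 0 < ip (e i) (e i) := by
    rcases (ip_self_nonneg (e i)).lt_or_eq with h | h
    · exact h
    · exact absurd (ip_self_eq_zero h.symm) (hne i)
  have h1 : 0 ≤ μ i := by
    have := hpos (e i)
    rw [he, ip_smul_right] at this
    by_contra hneg
    push Not at hneg
    nlinarith
  have h2 : c * μ i ≤ μ i * μ i := by
    have := hsq (e i)
    rw [he, ip_smul_right, ip_smul_left, ip_smul_right] at this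
    have h3 : (c * μ i) * ip (e i) (e i) ≤ (μ i * μ i) * ip (e i) (e i) := by nlinarith
    exact le_of_mul_le_mul_right h3 hn
  rcases h1.lt_or_eq with h | h
  · have : c ≤ μ i := by
      by_contra hlt
      push Not at hlt
      nlinarith
    nlinarith [mul_self_nonneg (ip f (e i))]
  · have h0 : Q (e i) = 0 := by rw [he, ← h, zero_smul]
    rw [hker _ h0]
    simp

end Vale.Agent.P335
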