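import Vale.Agent.P335.ThreeRow3
import Vale.Agent.P335.Spec

/-! Three-row configurations: the key spectral lemma. -/

set_option linter.unusedSectionVars false

open Finset BigOperators

namespace Vale.Agent.P335

variable {E : Type*} [Fintype E] [DecidableEq E]

variable {cc : E → ℕ} {r : Fin 3 → ℕ} {G : Fin 3 → Finset E → ℝ} {μ : ℝ}

/-- Step four: row functions are constant on all rows that occur. -/
theorem step4 (hμ : 2 < μ) (hG : RowEq cc r G μ) (a : Fin 3) :
    ∀ M₁ ∈ Cfg cc r, ∀ M₂ ∈ Cfg cc r, G a (M₁ a) = G a (M₂ a) := by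
  have aux : ∀ (n : ℕ), ∀ M₁ ∈ Cfg cc r, ∀ M₂ ∈ Cfg cc r,
      sB cc (M₁ a) + n = sB cc (M₂ a) → G a (M₁ a) = G a (M₂ a) := by
    intro n
    induction n with
    | zero =>
      intro M₁ h₁ M₂ h₂ h
      exact step2 hμ hG a _ M₁ h₁ M₂ h₂ (by simpa using h) rfl
    | succ n ih =>
      intro M₁ h₁ M₂ h₂ h
      have hM₁ := mem_Cfg.1 h₁
      have hM₂ := mem_Cfg.1 h₂
      have e1 := row_decomp hM₁ a
      have e2 := row_decomp hM₂ a
      rw [hM₁.row a] at e1
      rw [hM₂.row a] at e2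
      have hA : 0 < sA cc (M₁ a) := by omega
      obtain ⟨i, hi⟩ := card_pos.1 hA
      obtain ⟨hi1, hi2⟩ := mem_filter.1 hi
      have hB : ((M₁ a).filter (fun k => cc k = 2)).card
          < ((M₂ a).filter (fun k => cc k = 2)).card := by
        have e3 : sB cc (M₁ a) < sB cc (M₂ a) := by omega
        exact e3
      obtain ⟨j, hj, hj'⟩ := exists_mem_notMem_of_card_lt_card hB
      obtain ⟨hj1, hj2⟩ := mem_filter.1 hj
      have hj3 : j ∉ M₁ a := fun h => hj' (mem_filter.2 ⟨h, hj2⟩)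
      obtain ⟨b₁, b₂, h1, h2, h3⟩ := others a
      have hM₃ : mvM a b₁ i j M₁ ∈ Cfg cc r :=
        mem_Cfg.2 (mvM_isCfg hM₁ h1 h2 h3 hi1 hi2 hj3 hj2)
      have hM₃a : (mvM a b₁ i j M₁) a = tau i j (M₁ a) := by simp [mvM]
      have hstep := step3 hμ hG a M₁ h₁ i j hi1 hi2 hj3 hj2
      rw [← hstep, ← hM₃a]
      refine ih _ hM₃ M₂ h₂ ?_
      rw [hM₃a, sB_move hi1 hi2 hj3 hj2]
      omega
  intro M₁ h₁ M₂ h₂
  rcases le_total (sB cc (M₁ a)) (sB cc (M₂ a)) with h | h
  · exact aux (sB cc (M₂ a) - sB cc (M₁ a)) M₁ h₁ M₂ h₂ (by omega)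
  · exact (aux (sB cc (M₁ a) - sB cc (M₂ a)) M₂ h₂ M₁ h₁ (by omega)).symm

/-- Conditional expectation as a linear map. -/
noncomputable def cndL {α β : Type*} [Fintype α] (k : α → β) : (α → ℝ) →ₗ[ℝ] (α → ℝ) where
  toFun := cnd k
  map_add' := cnd_add k
  map_smul' := fun c f => by simpa using cnd_smul k c f

@[simp] lemma cndL_apply {α β : Type*} [Fintype α] (k : α → β) (f : α → ℝ) :
    cndL k f = cnd k f := rfl

section Key

variable {X : Type*} [Fintype X] (Φ : X → Fin 3 → Finset E)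

lemma sum_fib_Φ (hinj : Function.Injective Φ) (hval : ∀ x, IsCfg cc r (Φ x))
    (hsurj : ∀ M, IsCfg cc r M → ∃ x, Φ x = M) (a : Fin 3) (x : X)
    (F : (Fin 3 → Finset E) → ℝ) :
    ∑ y ∈ fib (fun y => Φ y a) x, F (Φ y) = ∑ M ∈ fibC cc r a (Φ x a), F M := by
  refine sum_nbij Φ ?_ ?_ ?_ ?_
  · intro y hy
    rw [mem_fibC]
    exact ⟨hval y, mem_fib.1 hy⟩
  · intro y _ y' _ h
    exact hinj h
  · intro M hM
    have hM' := mem_coe.1 hM
    rw [mem_fibC] at hM'
    obtain ⟨y, rfl⟩ := hsurj M hM'.1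
    exact ⟨y, mem_coe.2 (mem_fib.2 hM'.2), rfl⟩
  · intro y _; rfl

/-- The row function attached to a function on configurations. -/
noncomputable def rowFun (e : X → ℝ) (a : Fin 3) (S : Finset E) : ℝ :=
  by
    classical
    exact (∑ y ∈ univ.filter (fun y => Φ y a = S), e y) / (univ.filter (fun y => Φ y a = S)).card

lemma cnd_eq_rowFun (e : X → ℝ) (a : Fin 3) (x : X) :
    cnd (fun y => Φ y a) e x = rowFun Φ e a (Φ x a) := by
  classical
  rw [cnd_apply, rowFun]
  have : fib (fun y => Φ y a) x = univ.filter (fun y => Φ y a = Φ x a) := by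
    ext y; simp
  rw [this]

/-- The main lemma on eigenvectors. -/
lemma eigen_const (hinj : Function.Injective Φ) (hval : ∀ x, IsCfg cc r (Φ x))
    (hsurj : ∀ M, IsCfg cc r M → ∃ x, Φ x = M) {e : X → ℝ} (hμ : 2 < μ)
    (he : ∑ a, cnd (fun y => Φ y a) e = μ • e) (x y : X) : e x = e y := by
  set G : Fin 3 → Finset E → ℝ := rowFun Φ e with hGdef
  have hRow : RowEq cc r G μ := by
    intro a M hM
    obtain ⟨x₀, rfl⟩ := hsurj M (mem_Cfg.1 hM)
    have h1 : μ * G a (Φ x₀ a) = cnd (fun y => Φ y a) (μ • e) x₀ := by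
      rw [cnd_smul, Pi.smul_apply, smul_eq_mul, cnd_eq_rowFun]
    rw [h1, ← he, cnd_sum, Finset.sum_apply]
    have h2 : ∀ b, cnd (fun y => Φ y a) (cnd (fun y => Φ y b) e) x₀
        = cnd (fun y => Φ y a) (fun y => G b (Φ y b)) x₀ := by
      intro b
      congr 2
      funext y
      exact cnd_eq_rowFun Φ e b y
    rw [sum_congr rfl (fun b _ => h2 b), avgF]
    have h3 := sum_fib_Φ Φ hinj hval hsurj a x₀ (fun M => ∑ b, G b (M b))
    have h4 := sum_fib_Φ Φ hinj hval hsurj a x₀ (fun _ => (1 : ℝ))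
    simp only [sum_const, nsmul_eq_mul, mul_one] at h4
    rw [← h3, ← h4, sum_comm]
    simp only [cnd_apply]
    rw [← sum_div]
  have hconst : ∀ a x y, cnd (fun z => Φ z a) e x = cnd (fun z => Φ z a) e y := by
    intro a x y
    rw [cnd_eq_rowFun, cnd_eq_rowFun]
    exact step4 hμ hRow a _ (mem_Cfg.2 (hval x)) _ (mem_Cfg.2 (hval y))
  have h5 := congrFun he x
  have h6 := congrFun he y
  simp only [Finset.sum_apply, Pi.smul_apply, smul_eq_mul] at h5 h6
  have h7 : μ * e x = μ * e y := by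
    rw [← h5, ← h6]
    exact sum_congr rfl (fun a _ => hconst a x y)
  exact mul_left_cancel₀ (by linarith) h7

/-- The key spectral lemma for three-row configurations. -/
theorem key_lemma (hinj : Function.Injective Φ) (hval : ∀ x, IsCfg cc r (Φ x))
    (hsurj : ∀ M, IsCfg cc r M → ∃ x, Φ x = M) (f : X → ℝ) (hf : ∑ x, f x = 0) :
    ∑ a, ip f (cnd (fun y => Φ y a) f) ≤ 2 * ip f f := by
  set T : (X → ℝ) →ₗ[ℝ] (X → ℝ) := ∑ a, cndL (fun y => Φ y a) - (3 : ℝ) • cndL (triv : X → Unit)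
    with hT
  have hTapply : ∀ g, T g = ∑ a, cnd (fun y => Φ y a) g - (3 : ℝ) • cnd (triv : X → Unit) g := by
    intro g
    simp [hT, LinearMap.sum_apply]
  have hsym : ∀ f g, ip (T f) g = ip f (T g) := by
    intro f g
    rw [hTapply, hTapply, ip_sub_left, ip_sub_right, ip_smul_left, ip_smul_right, ip_cnd,
      ip_sum_left, ip_sum_right]
    congr 1
    exact sum_congr rfl (fun a _ => ip_cnd _ _ _)
  have heig : ∀ (μ : ℝ) (e : X → ℝ), e ≠ 0 → T e = μ • e → μ ≤ 2 := by
    intro μ e hne he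
    by_contra hcon
    push Not at hcon
    have hsum : ∑ x, e x = 0 := by
      have h1 := congrArg (fun g => ∑ x, g x) he
      simp only [hTapply, Pi.sub_apply, Finset.sum_apply, Pi.smul_apply, smul_eq_mul,
        sum_sub_distrib] at h1
      rw [sum_comm, ← mul_sum, ← mul_sum, sum_cnd] at h1
      simp only [sum_cnd] at h1
      simp only [sum_const, card_univ, Fintype.card_fin, nsmul_eq_mul] at h1
      have h2 : μ * ∑ x, e x = 0 := by
        push_cast at h1
        linarith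
      rcases mul_eq_zero.1 h2 with h3 | h3
      · linarith
      · exact h3
    have hcnd0 := cnd_triv_of_sum_zero hsum
    have he' : ∑ a, cnd (fun y => Φ y a) e = μ • e := by
      rw [← he, hTapply, hcnd0]; simp
    have hc : ∀ x y, e x = e y := eigen_const Φ hinj hval hsurj hcon he'
    apply hne
    funext x
    have h1 : ∑ y, e y = (Fintype.card X : ℝ) * e x := by
      rw [sum_congr rfl (fun y _ => hc y x)]
      simp
    rw [hsum] at h1
    have hpos : (Fintype.card X : ℝ) ≠ 0 := by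
      have : 0 < Fintype.card X := Fintype.card_pos_iff.2 ⟨x⟩
      positivity
    rcases mul_eq_zero.1 h1.symm with h | h
    · exact absurd h hpos
    · exact h
  have hb := rayleigh_le T hsym 2 heig f
  rw [hTapply, cnd_triv_of_sum_zero hf] at hb
  simp only [smul_zero, sub_zero, ip_sum_right] at hb
  exact hb

end Key

end Vale.Agent.P335
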