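import Vale.Agent.P335.GraphFlip
import Vale.Agent.P335.ThreeRow4

/-! Transport of the fibre of three vertices to a three-row configuration: definitions. -/

set_option linter.unusedSectionVars false

open Finset BigOperators

namespace Vale.Agent.P335

variable {V : Type*} [Fintype V] [DecidableEq V] {d : V → ℕ}

/-- Three pairwise distinct vertices. -/
structure Dist3 (a b c : V) : Prop where
  ab : a ≠ b
  ac : a ≠ c
  bc : b ≠ c

/-- Majority of three bits. -/
def maj3 (p q r : Bool) : Bool := (p && q) || (p && r) || (q && r)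

/-- The extra bit of a row: the vertex has corner entries `p, q`, opposite entry `r`. -/
def cz (p q r : Bool) : Bool := if maj3 p q r then p && q else p || q

/-- Inverse corner map. -/
def adjc (cn : ℕ) (u v : Bool) : Bool := if cn = 1 then u || v else u && v

section Bools

lemma B1 : ∀ p q r p' q' r' : Bool,
    p.toNat + q.toNat + r.toNat = p'.toNat + q'.toNat + r'.toNat →
    (cz p q r).toNat + (cz p r q).toNat + (cz q r p).toNat
      = (cz p' q' r').toNat + (cz p' r' q').toNat + (cz q' r' p').toNat := by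
  decide

lemma B2 : ∀ p q r p' q' r' : Bool,
    p.toNat + q.toNat + r.toNat = p'.toNat + q'.toNat + r'.toNat →
    (cz p q r).toNat + (p'.toNat + q'.toNat) = (cz p' q' r').toNat + (p.toNat + q.toNat) := by
  decide

lemma B3 : ∀ p q r p' q' r' : Bool,
    p.toNat + q.toNat + r.toNat = p'.toNat + q'.toNat + r'.toNat →
    cz p q r = cz p' q' r' → cz p r q = cz p' r' q' → cz q r p = cz q' r' p' →
    p = p' ∧ q = q' ∧ r = r' := by
  decide

lemma B4 : ∀ p q r p' q' r' : Bool,
    p.toNat + q.toNat + r.toNat = p'.toNat + q'.toNat + r'.toNat →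
    p.toNat + q.toNat = p'.toNat + q'.toNat → cz p q r = cz p' q' r' := by
  decide

lemma B5 : ∀ z0 z1 z2 : Bool,
    cz (adjc (z0.toNat + z1.toNat + z2.toNat) z0 z1) (adjc (z0.toNat + z1.toNat + z2.toNat) z0 z2)
        (adjc (z0.toNat + z1.toNat + z2.toNat) z1 z2) = z0 := by
  decide

lemma B6 : ∀ p q r z0 z1 z2 : Bool,
    z0.toNat + z1.toNat + z2.toNat = (cz p q r).toNat + (cz p r q).toNat + (cz q r p).toNat →
    (adjc (z0.toNat + z1.toNat + z2.toNat) z0 z1).toNat
        + (adjc (z0.toNat + z1.toNat + z2.toNat) z0 z2).toNat + (cz p q r).toNat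
      = p.toNat + q.toNat + z0.toNat := by
  decide

lemma adjc_comm (cn : ℕ) (u v : Bool) : adjc cn u v = adjc cn v u := by
  unfold adjc
  split_ifs
  · exact Bool.or_comm u v
  · exact Bool.and_comm u v

lemma cz_comm (p q r : Bool) : cz p q r = cz q p r := by
  revert p q r; decide

end Bools

/-- The three extra bits of a graph. -/
def zf (a b c : V) (G : Om d) : Fin 3 → Bool :=
  ![cz (G.1 a b) (G.1 a c) (G.1 b c), cz (G.1 a b) (G.1 b c) (G.1 a c),
    cz (G.1 a c) (G.1 b c) (G.1 a b)]

/-- The three vertices as a function on `Fin 3`. -/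
def idx3 (a b c : V) : Fin 3 → V := ![a, b, c]

/-- The bit vector of row `i`, on `V` and one extra column. -/
def rowB (a b c : V) (G : Om d) (i : Fin 3) (o : Option V) : Bool :=
  match o with
  | none => zf a b c G i
  | some w => decide (w ∉ ({a, b, c} : Finset V)) && G.1 (idx3 a b c i) w

/-- Row `i` of the configuration attached to a graph. -/
def rowΦ (a b c : V) (G : Om d) (i : Fin 3) : Finset (Option V) :=
  univ.filter (fun o => rowB a b c G i o = true)

lemma mem_rowΦ_none {a b c : V} {G : Om d} {i : Fin 3} :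
    none ∈ rowΦ a b c G i ↔ zf a b c G i = true := by
  simp [rowΦ, rowB]

lemma mem_rowΦ_some {a b c w : V} {G : Om d} {i : Fin 3} :
    some w ∈ rowΦ a b c G i ↔ w ∉ ({a, b, c} : Finset V) ∧ G.1 (idx3 a b c i) w = true := by
  simp [rowΦ, rowB]

lemma ite_toNat (b : Bool) [Decidable (b = true)] : (if b = true then 1 else 0) = b.toNat := by
  cases b <;> simp

section Sums

variable {a b c : V}

lemma sum_T (h : Dist3 a b c) (g : V → ℕ) :
    ∑ v ∈ ({a, b, c} : Finset V), g v = g a + (g b + g c) := by
  rw [sum_insert (by simp [h.ab, h.ac]), sum_pair h.bc]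

/-- Rows in terms of the corner entries. -/
lemma row_T_a (h : Dist3 a b c) (G : Om d) :
    d a = (G.1 a b).toNat + (G.1 a c).toNat + ∑ w ∈ ({a, b, c} : Finset V)ᶜ, (G.1 a w).toNat := by
  rw [← G.2.deg a, dg_split G.1 a {a, b, c}, sum_T h, G.2.irrefl]
  simp

lemma row_T_b (h : Dist3 a b c) (G : Om d) :
    d b = (G.1 a b).toNat + (G.1 b c).toNat + ∑ w ∈ ({a, b, c} : Finset V)ᶜ, (G.1 b w).toNat := by
  rw [← G.2.deg b, dg_split G.1 b {a, b, c}, sum_T h, G.2.irrefl, G.2.symm b a]
  simp

lemma row_T_c (h : Dist3 a b c) (G : Om d) :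
    d c = (G.1 a c).toNat + (G.1 b c).toNat + ∑ w ∈ ({a, b, c} : Finset V)ᶜ, (G.1 c w).toNat := by
  rw [← G.2.deg c, dg_split G.1 c {a, b, c}, sum_T h, G.2.irrefl, G.2.symm c a, G.2.symm c b]
  simp

/-- The number of corner entries is constant on a fibre. -/
lemma corner_same (h : Dist3 a b c) {G G' : Om d} (hk : key {a, b, c} G = key {a, b, c} G') :
    (G.1 a b).toNat + (G.1 a c).toNat + (G.1 b c).toNat
      = (G'.1 a b).toNat + (G'.1 a c).toNat + (G'.1 b c).toNat := by
  have h1 := inner_sum_eq hk
  simp only [sum_T h, G.2.irrefl, G'.2.irrefl, G.2.symm b a, G.2.symm c a, G.2.symm c b,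
    G'.2.symm b a, G'.2.symm c a, G'.2.symm c b] at h1
  simp at h1
  omega

/-- The size of a row of the configuration. -/
lemma card_rowΦ (G : Om d) (i : Fin 3) :
    (rowΦ a b c G i).card = (zf a b c G i).toNat
      + ∑ w ∈ ({a, b, c} : Finset V)ᶜ, (G.1 (idx3 a b c i) w).toNat := by
  rw [rowΦ, card_filter, Fintype.sum_option]
  congr 1
  · simp only [rowB]
    exact ite_toNat _
  · rw [← sum_add_sum_compl ({a, b, c} : Finset V)]
    have h1 : ∑ w ∈ ({a, b, c} : Finset V), (if rowB a b c G i (some w) = true then 1 else 0) = 0 := by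
      refine sum_eq_zero (fun w hw => ?_)
      simp [rowB, hw]
    rw [h1, zero_add]
    refine sum_congr rfl (fun w hw => ?_)
    have hw' := mem_compl.1 hw
    simp only [rowB, hw', not_false_eq_true, decide_true, Bool.true_and]
    exact ite_toNat _

/-- Column counts of the configuration at a column from `V`. -/
lemma colCount_some {a b c w : V} (G : Om d) (hw : w ∉ ({a, b, c} : Finset V)) :
    colCount (rowΦ a b c G) (some w)
      = (G.1 a w).toNat + ((G.1 b w).toNat + (G.1 c w).toNat) := by
  rw [colCount_eq _ _ (a := 0) (b₁ := 1) (b₂ := 2) (by decide) (by decide) (by decide)]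
  simp only [mem_rowΦ_some, hw, not_false_eq_true, true_and]
  rw [ite_toNat, ite_toNat, ite_toNat]
  rfl

lemma colCount_some_T {a b c w : V} (G : Om d) (hw : w ∈ ({a, b, c} : Finset V)) :
    colCount (rowΦ a b c G) (some w) = 0 := by
  unfold colCount
  rw [card_eq_zero, filter_eq_empty_iff]
  intro i _
  rw [mem_rowΦ_some]
  tauto

lemma colCount_none {a b c : V} (G : Om d) :
    colCount (rowΦ a b c G) none = (zf a b c G 0).toNat + (zf a b c G 1).toNat
      + (zf a b c G 2).toNat := by
  rw [colCount_eq _ _ (a := 0) (b₁ := 1) (b₂ := 2) (by decide) (by decide) (by decide)]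
  simp only [mem_rowΦ_none]
  rw [ite_toNat, ite_toNat, ite_toNat]
  omega

end Sums

end Vale.Agent.P335
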