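import Vale.Agent.P335.GraphTriple1

/-! Transport of the fibre of three vertices to a three-row configuration: the bijection. -/

set_option linter.unusedSectionVars false

open Finset BigOperators

namespace Vale.Agent.P335

variable {V : Type*} [Fintype V] [DecidableEq V] {d : V → ℕ} {a b c : V}

lemma B5b : ∀ z0 z1 z2 : Bool,
    cz (adjc (z0.toNat + z1.toNat + z2.toNat) z0 z1) (adjc (z0.toNat + z1.toNat + z2.toNat) z1 z2)
        (adjc (z0.toNat + z1.toNat + z2.toNat) z0 z2) = z1 := by
  decide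

lemma B5c : ∀ z0 z1 z2 : Bool,
    cz (adjc (z0.toNat + z1.toNat + z2.toNat) z0 z2) (adjc (z0.toNat + z1.toNat + z2.toNat) z1 z2)
        (adjc (z0.toNat + z1.toNat + z2.toNat) z0 z1) = z2 := by
  decide

lemma B6b : ∀ p q r z0 z1 z2 : Bool,
    z0.toNat + z1.toNat + z2.toNat = (cz p q r).toNat + (cz p r q).toNat + (cz q r p).toNat →
    (adjc (z0.toNat + z1.toNat + z2.toNat) z0 z1).toNat
        + (adjc (z0.toNat + z1.toNat + z2.toNat) z1 z2).toNat + (cz p r q).toNat
      = p.toNat + r.toNat + z1.toNat := by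
  decide

lemma B6c : ∀ p q r z0 z1 z2 : Bool,
    z0.toNat + z1.toNat + z2.toNat = (cz p q r).toNat + (cz p r q).toNat + (cz q r p).toNat →
    (adjc (z0.toNat + z1.toNat + z2.toNat) z0 z2).toNat
        + (adjc (z0.toNat + z1.toNat + z2.toNat) z1 z2).toNat + (cz q r p).toNat
      = q.toNat + r.toNat + z2.toNat := by
  decide

lemma zf_0 (G : Om d) : zf a b c G 0 = cz (G.1 a b) (G.1 a c) (G.1 b c) := rfl
lemma zf_1 (G : Om d) : zf a b c G 1 = cz (G.1 a b) (G.1 b c) (G.1 a c) := rfl
lemma zf_2 (G : Om d) : zf a b c G 2 = cz (G.1 a c) (G.1 b c) (G.1 a b) := rfl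

/-- Row sizes are constant on a fibre. -/
lemma card_row_same (h : Dist3 a b c) {G G' : Om d} (hk : key {a, b, c} G = key {a, b, c} G')
    (i : Fin 3) : (rowΦ a b c G i).card = (rowΦ a b c G' i).card := by
  have hs := corner_same h hk
  rw [card_rowΦ, card_rowΦ]
  fin_cases i
  · have h1 := row_T_a h G
    have h2 := row_T_a h G'
    have h3 := B2 (G.1 a b) (G.1 a c) (G.1 b c) (G'.1 a b) (G'.1 a c) (G'.1 b c) hs
    show (zf a b c G 0).toNat + ∑ w ∈ ({a, b, c} : Finset V)ᶜ, (G.1 a w).toNat
      = (zf a b c G' 0).toNat + ∑ w ∈ ({a, b, c} : Finset V)ᶜ, (G'.1 a w).toNat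
    rw [zf_0, zf_0]
    omega
  · have h1 := row_T_b h G
    have h2 := row_T_b h G'
    have h3 := B2 (G.1 a b) (G.1 b c) (G.1 a c) (G'.1 a b) (G'.1 b c) (G'.1 a c) (by omega)
    show (zf a b c G 1).toNat + ∑ w ∈ ({a, b, c} : Finset V)ᶜ, (G.1 b w).toNat
      = (zf a b c G' 1).toNat + ∑ w ∈ ({a, b, c} : Finset V)ᶜ, (G'.1 b w).toNat
    rw [zf_1, zf_1]
    omega
  · have h1 := row_T_c h G
    have h2 := row_T_c h G'
    have h3 := B2 (G.1 a c) (G.1 b c) (G.1 a b) (G'.1 a c) (G'.1 b c) (G'.1 a b) (by omega)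
    show (zf a b c G 2).toNat + ∑ w ∈ ({a, b, c} : Finset V)ᶜ, (G.1 c w).toNat
      = (zf a b c G' 2).toNat + ∑ w ∈ ({a, b, c} : Finset V)ᶜ, (G'.1 c w).toNat
    rw [zf_2, zf_2]
    omega

/-- Column counts are constant on a fibre. -/
lemma col_same (h : Dist3 a b c) {G G' : Om d} (hk : key {a, b, c} G = key {a, b, c} G')
    (o : Option V) : colCount (rowΦ a b c G) o = colCount (rowΦ a b c G') o := by
  cases o with
  | none =>
    rw [colCount_none, colCount_none, zf_0, zf_1, zf_2, zf_0, zf_1, zf_2]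
    exact B1 _ _ _ _ _ _ (corner_same h hk)
  | some w =>
    by_cases hw : w ∈ ({a, b, c} : Finset V)
    · rw [colCount_some_T G hw, colCount_some_T G' hw]
    · rw [colCount_some G hw, colCount_some G' hw]
      have := row_sum_eq hk hw
      rwa [sum_T h, sum_T h] at this

/-- Validity of the configuration of a graph. -/
lemma isCfg_rowΦ (h : Dist3 a b c) {G G₀ : Om d} (hk : key {a, b, c} G = key {a, b, c} G₀) :
    IsCfg (colCount (rowΦ a b c G₀)) (fun i => (rowΦ a b c G₀ i).card) (rowΦ a b c G) :=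
  ⟨card_row_same h hk, col_same h hk⟩

lemma bool_of_iff {p q : Bool} (h : p = true ↔ q = true) : p = q := by
  revert p q; decide

/-- Extensionality on a fibre of three vertices. -/
lemma ext_T (h : Dist3 a b c) {G G' : Om d} (hk : key {a, b, c} G = key {a, b, c} G')
    (h1 : G.1 a b = G'.1 a b) (h2 : G.1 a c = G'.1 a c) (h3 : G.1 b c = G'.1 b c)
    (hr : ∀ w, w ∉ ({a, b, c} : Finset V) →
      G.1 a w = G'.1 a w ∧ G.1 b w = G'.1 b w ∧ G.1 c w = G'.1 c w) : G = G' := by
  have main : ∀ u v, u ∈ ({a, b, c} : Finset V) → G.1 u v = G'.1 u v := by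
    intro u v hu
    by_cases hv : v ∈ ({a, b, c} : Finset V)
    · simp only [mem_insert, mem_singleton] at hu hv
      rcases hu with rfl | rfl | rfl <;> rcases hv with rfl | rfl | rfl
      · rw [G.2.irrefl, G'.2.irrefl]
      · exact h1
      · exact h2
      · rw [G.2.symm, G'.2.symm]; exact h1
      · rw [G.2.irrefl, G'.2.irrefl]
      · exact h3
      · rw [G.2.symm, G'.2.symm]; exact h2
      · rw [G.2.symm, G'.2.symm]; exact h3
      · rw [G.2.irrefl, G'.2.irrefl]
    · obtain ⟨h4, h5, h6⟩ := hr v hv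
      simp only [mem_insert, mem_singleton] at hu
      rcases hu with rfl | rfl | rfl <;> assumption
  apply Om.ext'
  intro u v
  by_cases hu : u ∈ ({a, b, c} : Finset V)
  · exact main u v hu
  by_cases hv : v ∈ ({a, b, c} : Finset V)
  · rw [G.2.symm, G'.2.symm]; exact main v u hv
  exact key_eq_iff.1 hk u v hu hv

/-- Injectivity of the configuration map on a fibre. -/
lemma rowΦ_inj (h : Dist3 a b c) {G G' : Om d} (hk : key {a, b, c} G = key {a, b, c} G')
    (he : rowΦ a b c G = rowΦ a b c G') : G = G' := by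
  have hz : ∀ i, zf a b c G i = zf a b c G' i := by
    intro i
    apply bool_of_iff
    rw [← mem_rowΦ_none, ← mem_rowΦ_none, he]
  obtain ⟨h1, h2, h3⟩ := B3 _ _ _ _ _ _ (corner_same h hk) (hz 0) (hz 1) (hz 2)
  refine ext_T h hk h1 h2 h3 (fun w hw => ?_)
  have key1 : ∀ i, G.1 (idx3 a b c i) w = G'.1 (idx3 a b c i) w := by
    intro i
    apply bool_of_iff
    have h4 : some w ∈ rowΦ a b c G i ↔ some w ∈ rowΦ a b c G' i := by rw [he]
    rw [mem_rowΦ_some, mem_rowΦ_some] at h4
    simpa [hw] using h4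
  exact ⟨key1 0, key1 1, key1 2⟩

/-- Surjectivity of the configuration map on a fibre. -/
lemma rowΦ_surj (h : Dist3 a b c) (G₀ : Om d) {M : Fin 3 → Finset (Option V)}
    (hM : IsCfg (colCount (rowΦ a b c G₀)) (fun i => (rowΦ a b c G₀ i).card) M) :
    ∃ G : Om d, key {a, b, c} G = key {a, b, c} G₀ ∧ rowΦ a b c G = M := by
  have hTm : a ∈ ({a, b, c} : Finset V) ∧ b ∈ ({a, b, c} : Finset V) ∧ c ∈ ({a, b, c} : Finset V) := by
    simp
  set z0 : Bool := decide (none ∈ M 0) with hz0
  set z1 : Bool := decide (none ∈ M 1) with hz1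
  set z2 : Bool := decide (none ∈ M 2) with hz2
  set cn : ℕ := z0.toNat + z1.toNat + z2.toNat with hcn
  set c01 : Bool := adjc cn z0 z1 with hc01
  set c02 : Bool := adjc cn z0 z2 with hc02
  set c12 : Bool := adjc cn z1 z2 with hc12
  set ρ : V → V → Bool := fun u v =>
    if u = a then (if v = a then false else if v = b then c01 else if v = c then c02
        else decide (some v ∈ M 0))
    else if u = b then (if v = a then c01 else if v = b then false else if v = c then c12
        else decide (some v ∈ M 1))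
    else (if v = a then c02 else if v = b then c12 else if v = c then false
        else decide (some v ∈ M 2)) with hρ
  have ρa : ∀ v, ρ a v = if v = a then false else if v = b then c01 else if v = c then c02
        else decide (some v ∈ M 0) := by
    intro v; simp [hρ]
  have ρb : ∀ v, ρ b v = if v = a then c01 else if v = b then false else if v = c then c12
        else decide (some v ∈ M 1) := by
    intro v; simp [hρ, h.ab.symm]
  have ρc : ∀ v, ρ c v = if v = a then c02 else if v = b then c12 else if v = c then false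
        else decide (some v ∈ M 2) := by
    intro v; simp [hρ, h.ac.symm, h.bc.symm]
  -- column facts
  have hcolT : ∀ i, ∀ w, w ∈ ({a, b, c} : Finset V) → some w ∉ M i := by
    intro i w hw hmem
    have h1 := hM.col (some w)
    rw [colCount_some_T G₀ hw] at h1
    have h2 := col_pos_of_mem hmem
    omega
  have hcnv : cn = (zf a b c G₀ 0).toNat + (zf a b c G₀ 1).toNat + (zf a b c G₀ 2).toNat := by
    have h1 := hM.col none
    rw [colCount_none, colCount_eq M none (a := 0) (b₁ := 1) (b₂ := 2) (by decide) (by decide)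
      (by decide)] at h1
    rw [← h1, hcn, hz0, hz1, hz2]
    by_cases e0 : none ∈ M 0 <;> by_cases e1 : none ∈ M 1 <;> by_cases e2 : none ∈ M 2 <;>
      simp [e0, e1, e2]
  -- row sizes
  have hsize : ∀ i, (M i).card = (decide (none ∈ M i)).toNat
      + ∑ w ∈ ({a, b, c} : Finset V)ᶜ, (decide (some w ∈ M i)).toNat := by
    intro i
    rw [card_eq_sum_ones]
    have h1 : ∑ o ∈ M i, 1 = ∑ o, if o ∈ M i then 1 else 0 := by
      rw [sum_ite_mem, univ_inter]
    rw [h1, Fintype.sum_option]
    congr 1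
    · by_cases e : none ∈ M i <;> simp [e]
    · rw [← sum_add_sum_compl ({a, b, c} : Finset V)]
      have h2 : ∑ w ∈ ({a, b, c} : Finset V), (if some w ∈ M i then 1 else 0) = 0 :=
        sum_eq_zero (fun w hw => by simp [hcolT i w hw])
      rw [h2, zero_add]
      refine sum_congr rfl (fun w _ => ?_)
      by_cases e : some w ∈ M i <;> simp [e]
  have hvalid : IsGr d (repl G₀.1 {a, b, c} ρ) := by
    apply repl_isGr G₀.2
    · intro u hu v hv
      simp only [mem_insert, mem_singleton] at hu hv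
      rcases hu with rfl | rfl | rfl <;> rcases hv with rfl | rfl | rfl <;>
        simp only [ρa, ρb, ρc, h.ab, h.ac, h.bc, h.ab.symm, h.ac.symm, h.bc.symm, if_true, if_false]
    · intro u hu
      simp only [mem_insert, mem_singleton] at hu
      rcases hu with rfl | rfl | rfl <;>
        simp only [ρa, ρb, ρc, h.ab, h.ac, h.bc, h.ab.symm, h.ac.symm, h.bc.symm, if_true, if_false]
    · intro v hv
      have hv' : v ≠ a ∧ v ≠ b ∧ v ≠ c := by simpa using hv
      rw [sum_T h, sum_T h, ρa, ρb, ρc]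
      simp only [hv'.1, hv'.2.1, hv'.2.2, if_false]
      have h1 := hM.col (some v)
      rw [colCount_some G₀ hv, colCount_eq M (some v) (a := 0) (b₁ := 1) (b₂ := 2) (by decide)
        (by decide) (by decide)] at h1
      rw [← h1]
      by_cases e0 : some v ∈ M 0 <;> by_cases e1 : some v ∈ M 1 <;> by_cases e2 : some v ∈ M 2 <;>
        simp [e0, e1, e2]
    · intro u hu
      simp only [mem_insert, mem_singleton] at hu
      rw [← sum_add_sum_compl ({a, b, c} : Finset V), sum_T h]
      rcases hu with rfl | rfl | rfl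
      · have e1 : ∑ v ∈ ({u, b, c} : Finset V)ᶜ, (ρ u v).toNat
            = ∑ w ∈ ({u, b, c} : Finset V)ᶜ, (decide (some w ∈ M 0)).toNat := by
          refine sum_congr rfl (fun v hv => ?_)
          have hv' : v ≠ u ∧ v ≠ b ∧ v ≠ c := by simpa using hv
          rw [ρa]; simp [hv'.1, hv'.2.1, hv'.2.2]
        have e2 : (M 0).card = z0.toNat
            + ∑ w ∈ ({u, b, c} : Finset V)ᶜ, (decide (some w ∈ M 0)).toNat := hsize 0
        have e3 := hM.row 0
        have e4 := card_rowΦ (a := u) (b := b) (c := c) G₀ 0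
        have e5 := row_T_a h G₀
        have e6 : c01.toNat + c02.toNat + (cz (G₀.1 u b) (G₀.1 u c) (G₀.1 b c)).toNat
            = (G₀.1 u b).toNat + (G₀.1 u c).toNat + z0.toNat :=
          B6 (G₀.1 u b) (G₀.1 u c) (G₀.1 b c) z0 z1 z2 hcnv
        rw [e1, ρa, ρa, ρa]
        simp only [h.ab, h.ac, h.bc, h.ab.symm, h.ac.symm, h.bc.symm, if_true, if_false,
          Bool.toNat_false, zero_add]
        have e7 : idx3 u b c 0 = u := rfl
        rw [e7] at e4
        rw [zf_0] at e4
        omega
      · have e1 : ∑ v ∈ ({a, u, c} : Finset V)ᶜ, (ρ u v).toNat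
            = ∑ w ∈ ({a, u, c} : Finset V)ᶜ, (decide (some w ∈ M 1)).toNat := by
          refine sum_congr rfl (fun v hv => ?_)
          have hv' : v ≠ a ∧ v ≠ u ∧ v ≠ c := by simpa using hv
          rw [ρb]; simp [hv'.1, hv'.2.1, hv'.2.2]
        have e2 : (M 1).card = z1.toNat
            + ∑ w ∈ ({a, u, c} : Finset V)ᶜ, (decide (some w ∈ M 1)).toNat := hsize 1
        have e3 := hM.row 1
        have e4 := card_rowΦ (a := a) (b := u) (c := c) G₀ 1
        have e5 := row_T_b h G₀
        have e6 : c01.toNat + c12.toNat + (cz (G₀.1 a u) (G₀.1 u c) (G₀.1 a c)).toNat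
            = (G₀.1 a u).toNat + (G₀.1 u c).toNat + z1.toNat :=
          B6b (G₀.1 a u) (G₀.1 a c) (G₀.1 u c) z0 z1 z2 hcnv
        rw [e1, ρb, ρb, ρb]
        simp only [h.ab, h.ac, h.bc, h.ab.symm, h.ac.symm, h.bc.symm, if_true, if_false,
          Bool.toNat_false, zero_add]
        have e7 : idx3 a u c 1 = u := rfl
        rw [e7] at e4
        rw [zf_1] at e4
        omega
      · have e1 : ∑ v ∈ ({a, b, u} : Finset V)ᶜ, (ρ u v).toNat
            = ∑ w ∈ ({a, b, u} : Finset V)ᶜ, (decide (some w ∈ M 2)).toNat := by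
          refine sum_congr rfl (fun v hv => ?_)
          have hv' : v ≠ a ∧ v ≠ b ∧ v ≠ u := by simpa using hv
          rw [ρc]; simp [hv'.1, hv'.2.1, hv'.2.2]
        have e2 : (M 2).card = z2.toNat
            + ∑ w ∈ ({a, b, u} : Finset V)ᶜ, (decide (some w ∈ M 2)).toNat := hsize 2
        have e3 := hM.row 2
        have e4 := card_rowΦ (a := a) (b := b) (c := u) G₀ 2
        have e5 := row_T_c h G₀
        have e6 : c02.toNat + c12.toNat + (cz (G₀.1 a u) (G₀.1 b u) (G₀.1 a b)).toNat
            = (G₀.1 a u).toNat + (G₀.1 b u).toNat + z2.toNat :=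
          B6c (G₀.1 a b) (G₀.1 a u) (G₀.1 b u) z0 z1 z2 hcnv
        rw [e1, ρc, ρc, ρc]
        simp only [h.ab, h.ac, h.bc, h.ab.symm, h.ac.symm, h.bc.symm, if_true, if_false,
          Bool.toNat_false, add_zero]
        have e7 : idx3 a b u 2 = u := rfl
        rw [e7] at e4
        rw [zf_2] at e4
        omega
  -- the entries of the new graph
  have ya : ∀ v, repl G₀.1 {a, b, c} ρ a v = ρ a v := fun v => repl_mem hTm.1 v
  have yb : ∀ v, repl G₀.1 {a, b, c} ρ b v = ρ b v := fun v => repl_mem hTm.2.1 v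
  have yc : ∀ v, repl G₀.1 {a, b, c} ρ c v = ρ c v := fun v => repl_mem hTm.2.2 v
  have y01 : repl G₀.1 {a, b, c} ρ a b = c01 := by
    rw [ya, ρa]; simp [h.ab.symm]
  have y02 : repl G₀.1 {a, b, c} ρ a c = c02 := by
    rw [ya, ρa]; simp [h.ac.symm, h.bc.symm]
  have y12 : repl G₀.1 {a, b, c} ρ b c = c12 := by
    rw [yb, ρb]; simp [h.ac.symm, h.bc.symm]
  refine ⟨⟨_, hvalid⟩, ?_, ?_⟩
  · rw [key_eq_iff]
    intro u v hu hv
    exact repl_not hu hv
  · funext i
    ext o
    cases o with
    | none =>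
      rw [mem_rowΦ_none]
      fin_cases i
      · show zf a b c _ 0 = true ↔ _
        rw [zf_0]
        simp only [y01, y02, y12]
        rw [hc01, hc02, hc12, hcn, B5, hz0]
        simp
      · show zf a b c _ 1 = true ↔ _
        rw [zf_1]
        simp only [y01, y02, y12]
        rw [hc01, hc02, hc12, hcn, B5b, hz1]
        simp
      · show zf a b c _ 2 = true ↔ _
        rw [zf_2]
        simp only [y01, y02, y12]
        rw [hc01, hc02, hc12, hcn, B5c, hz2]
        simp
    | some w =>
      rw [mem_rowΦ_some]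
      by_cases hw : w ∈ ({a, b, c} : Finset V)
      · simp [hw, hcolT i w hw]
      · have hw' : w ≠ a ∧ w ≠ b ∧ w ≠ c := by simpa using hw
        fin_cases i
        · show _ ∧ repl G₀.1 {a, b, c} ρ a w = true ↔ some w ∈ M 0
          rw [ya, ρa]
          simp [hw'.1, hw'.2.1, hw'.2.2]
        · show _ ∧ repl G₀.1 {a, b, c} ρ b w = true ↔ some w ∈ M 1
          rw [yb, ρb]
          simp [hw'.1, hw'.2.1, hw'.2.2]
        · show _ ∧ repl G₀.1 {a, b, c} ρ c w = true ↔ some w ∈ M 2
          rw [yc, ρc]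
          simp [hw'.1, hw'.2.1, hw'.2.2]

end Vale.Agent.P335
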