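import Vale.Agent.P335.GraphTriple2

/-! The triple lemma on graphs. -/

set_option linter.unusedSectionVars false

open Finset BigOperators

namespace Vale.Agent.P335

variable {V : Type*} [Fintype V] [DecidableEq V] {d : V → ℕ} {a b c : V}

section Keys

lemma rowΦ_key_0 (h : Dist3 a b c) {G G' : Om d} (hk : key {a, b, c} G = key {a, b, c} G') :
    rowΦ a b c G 0 = rowΦ a b c G' 0 ↔ key {b, c} G = key {b, c} G' := by
  constructor
  · intro he
    have hr : ∀ w, w ∉ ({a, b, c} : Finset V) → G.1 a w = G'.1 a w := by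
      intro w hw
      apply bool_of_iff
      have h4 : some w ∈ rowΦ a b c G 0 ↔ some w ∈ rowΦ a b c G' 0 := by rw [he]
      rw [mem_rowΦ_some, mem_rowΦ_some] at h4
      change _ ∧ G.1 a w = true ↔ _ ∧ G'.1 a w = true at h4
      simpa [hw] using h4
    rw [key_eq_iff]
    intro u v hu hv
    have hu' : u ≠ b ∧ u ≠ c := by simpa using hu
    have hv' : v ≠ b ∧ v ≠ c := by simpa using hv
    by_cases h1 : u = a
    · subst h1
      by_cases h2 : v = u
      · subst h2; rw [G.2.irrefl, G'.2.irrefl]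
      · exact hr v (by simp [h2, hv'.1, hv'.2])
    · have hu2 : u ∉ ({a, b, c} : Finset V) := by simp [h1, hu'.1, hu'.2]
      by_cases h2 : v = a
      · subst h2
        rw [G.2.symm, G'.2.symm]
        exact hr u hu2
      · exact key_eq_iff.1 hk u v hu2 (by simp [h2, hv'.1, hv'.2])
  · intro hk2
    have hcol := col_sum_eq hk2 (u := a) (by simp [h.ab, h.ac])
    rw [sum_pair h.bc, sum_pair h.bc] at hcol
    ext o
    cases o with
    | none =>
      rw [mem_rowΦ_none, mem_rowΦ_none, zf_0, zf_0, B4 _ _ _ _ _ _ (corner_same h hk) hcol]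
    | some w =>
      rw [mem_rowΦ_some, mem_rowΦ_some]
      by_cases hw : w ∈ ({a, b, c} : Finset V)
      · simp [hw]
      · have hw' : w ≠ a ∧ w ≠ b ∧ w ≠ c := by simpa using hw
        have e : G.1 a w = G'.1 a w :=
          key_eq_iff.1 hk2 a w (by simp [h.ab, h.ac]) (by simp [hw'.2.1, hw'.2.2])
        show _ ∧ G.1 a w = true ↔ _ ∧ G'.1 a w = true
        rw [e]

lemma rowΦ_key_1 (h : Dist3 a b c) {G G' : Om d} (hk : key {a, b, c} G = key {a, b, c} G') :
    rowΦ a b c G 1 = rowΦ a b c G' 1 ↔ key {a, c} G = key {a, c} G' := by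
  constructor
  · intro he
    have hr : ∀ w, w ∉ ({a, b, c} : Finset V) → G.1 b w = G'.1 b w := by
      intro w hw
      apply bool_of_iff
      have h4 : some w ∈ rowΦ a b c G 1 ↔ some w ∈ rowΦ a b c G' 1 := by rw [he]
      rw [mem_rowΦ_some, mem_rowΦ_some] at h4
      change _ ∧ G.1 b w = true ↔ _ ∧ G'.1 b w = true at h4
      simpa [hw] using h4
    rw [key_eq_iff]
    intro u v hu hv
    have hu' : u ≠ a ∧ u ≠ c := by simpa using hu
    have hv' : v ≠ a ∧ v ≠ c := by simpa using hv
    by_cases h1 : u = b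
    · subst h1
      by_cases h2 : v = u
      · subst h2; rw [G.2.irrefl, G'.2.irrefl]
      · exact hr v (by simp [h2, hv'.1, hv'.2])
    · have hu2 : u ∉ ({a, b, c} : Finset V) := by simp [h1, hu'.1, hu'.2]
      by_cases h2 : v = b
      · subst h2
        rw [G.2.symm, G'.2.symm]
        exact hr u hu2
      · exact key_eq_iff.1 hk u v hu2 (by simp [h2, hv'.1, hv'.2])
  · intro hk2
    have hcol := col_sum_eq hk2 (u := b) (by simp [h.ab.symm, h.bc])
    rw [sum_pair h.ac, sum_pair h.ac, G.2.symm b a, G'.2.symm b a] at hcol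
    ext o
    cases o with
    | none =>
      rw [mem_rowΦ_none, mem_rowΦ_none, zf_1, zf_1,
        B4 (G.1 a b) (G.1 b c) (G.1 a c) (G'.1 a b) (G'.1 b c) (G'.1 a c)
          (by have := corner_same h hk; omega) hcol]
    | some w =>
      rw [mem_rowΦ_some, mem_rowΦ_some]
      by_cases hw : w ∈ ({a, b, c} : Finset V)
      · simp [hw]
      · have hw' : w ≠ a ∧ w ≠ b ∧ w ≠ c := by simpa using hw
        have e : G.1 b w = G'.1 b w :=
          key_eq_iff.1 hk2 b w (by simp [h.ab.symm, h.bc]) (by simp [hw'.1, hw'.2.2])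
        show _ ∧ G.1 b w = true ↔ _ ∧ G'.1 b w = true
        rw [e]

lemma rowΦ_key_2 (h : Dist3 a b c) {G G' : Om d} (hk : key {a, b, c} G = key {a, b, c} G') :
    rowΦ a b c G 2 = rowΦ a b c G' 2 ↔ key {a, b} G = key {a, b} G' := by
  constructor
  · intro he
    have hr : ∀ w, w ∉ ({a, b, c} : Finset V) → G.1 c w = G'.1 c w := by
      intro w hw
      apply bool_of_iff
      have h4 : some w ∈ rowΦ a b c G 2 ↔ some w ∈ rowΦ a b c G' 2 := by rw [he]
      rw [mem_rowΦ_some, mem_rowΦ_some] at h4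
      change _ ∧ G.1 c w = true ↔ _ ∧ G'.1 c w = true at h4
      simpa [hw] using h4
    rw [key_eq_iff]
    intro u v hu hv
    have hu' : u ≠ a ∧ u ≠ b := by simpa using hu
    have hv' : v ≠ a ∧ v ≠ b := by simpa using hv
    by_cases h1 : u = c
    · subst h1
      by_cases h2 : v = u
      · subst h2; rw [G.2.irrefl, G'.2.irrefl]
      · exact hr v (by simp [h2, hv'.1, hv'.2])
    · have hu2 : u ∉ ({a, b, c} : Finset V) := by simp [h1, hu'.1, hu'.2]
      by_cases h2 : v = c
      · subst h2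
        rw [G.2.symm, G'.2.symm]
        exact hr u hu2
      · exact key_eq_iff.1 hk u v hu2 (by simp [h2, hv'.1, hv'.2])
  · intro hk2
    have hcol := col_sum_eq hk2 (u := c) (by simp [h.ac.symm, h.bc.symm])
    rw [sum_pair h.ab, sum_pair h.ab, G.2.symm c a, G'.2.symm c a, G.2.symm c b, G'.2.symm c b]
      at hcol
    ext o
    cases o with
    | none =>
      rw [mem_rowΦ_none, mem_rowΦ_none, zf_2, zf_2,
        B4 (G.1 a c) (G.1 b c) (G.1 a b) (G'.1 a c) (G'.1 b c) (G'.1 a b)
          (by have := corner_same h hk; omega) hcol]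
    | some w =>
      rw [mem_rowΦ_some, mem_rowΦ_some]
      by_cases hw : w ∈ ({a, b, c} : Finset V)
      · simp [hw]
      · have hw' : w ≠ a ∧ w ≠ b ∧ w ≠ c := by simpa using hw
        have e : G.1 c w = G'.1 c w :=
          key_eq_iff.1 hk2 c w (by simp [h.ac.symm, h.bc.symm]) (by simp [hw'.1, hw'.2.1])
        show _ ∧ G.1 c w = true ↔ _ ∧ G'.1 c w = true
        rw [e]

end Keys

/-- Fibrewise decomposition of a conditional-expectation inner product. -/
lemma ip_fibers {α β γ : Type*} [Fintype α] [Fintype γ] (k₀ : α → γ) (k : α → β)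
    (h : ∀ x y, k x = k y → k₀ x = k₀ y) (f g : α → ℝ) [∀ t, Fintype {x // k₀ x = t}] :
    ip f (cnd k g) = ∑ t, ip (fun y : {x // k₀ x = t} => f y.1)
      (cnd (fun y : {x // k₀ x = t} => k y.1) (fun y => g y.1)) := by
  unfold ip
  rw [sum_fibers k₀]
  refine sum_congr rfl (fun t _ => sum_congr rfl (fun x _ => ?_))
  rw [cnd_subtype k₀ k h g t x]

lemma ip_self_fibers {α γ : Type*} [Fintype α] [Fintype γ] (k₀ : α → γ) (f : α → ℝ)
    [∀ t, Fintype {x // k₀ x = t}] :
    ip f f = ∑ t, ip (fun y : {x // k₀ x = t} => f y.1) (fun y => f y.1) := by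
  unfold ip
  rw [sum_fibers k₀]

/-- The key lemma on a fibre of three vertices. -/
theorem triple_bound (h : Dist3 a b c) (f : Om d → ℝ) (h0 : cnd (key {a, b, c}) f = 0) :
    ip f (cnd (key {b, c}) f) + ip f (cnd (key {a, c}) f) + ip f (cnd (key {a, b}) f)
      ≤ 2 * ip f f := by
  classical
  have r1 : ∀ x y : Om d, key {b, c} x = key {b, c} y → key {a, b, c} x = key {a, b, c} y :=
    fun x y hxy => key_mono (by intro u; simp; tauto) hxy
  have r2 : ∀ x y : Om d, key {a, c} x = key {a, c} y → key {a, b, c} x = key {a, b, c} y :=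
    fun x y hxy => key_mono (by intro u; simp; tauto) hxy
  have r3 : ∀ x y : Om d, key {a, b} x = key {a, b} y → key {a, b, c} x = key {a, b, c} y :=
    fun x y hxy => key_mono (by intro u; simp; tauto) hxy
  rw [ip_fibers (key {a, b, c}) (key {b, c}) r1, ip_fibers (key {a, b, c}) (key {a, c}) r2,
    ip_fibers (key {a, b, c}) (key {a, b}) r3, ip_self_fibers (key {a, b, c}), mul_sum,
    ← sum_add_distrib, ← sum_add_distrib]
  refine sum_le_sum (fun t _ => ?_)
  rcases isEmpty_or_nonempty {x : Om d // key {a, b, c} x = t} with he | ⟨⟨G₀, hG₀⟩⟩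
  · simp [ip]
  · have hcfg : ∀ x : {x : Om d // key {a, b, c} x = t},
        IsCfg (colCount (rowΦ a b c G₀)) (fun i => (rowΦ a b c G₀ i).card)
          (fun i => rowΦ a b c x.1 i) :=
      fun x => isCfg_rowΦ h (x.2.trans hG₀.symm)
    have hinj : Function.Injective
        (fun (x : {x : Om d // key {a, b, c} x = t}) (i : Fin 3) => rowΦ a b c x.1 i) := by
      intro x y hxy
      exact Subtype.ext (rowΦ_inj h (x.2.trans y.2.symm) hxy)
    have hsurj : ∀ M : Fin 3 → Finset (Option V),
        IsCfg (colCount (rowΦ a b c G₀)) (fun i => (rowΦ a b c G₀ i).card) M →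
        ∃ x : {x : Om d // key {a, b, c} x = t}, (fun i => rowΦ a b c x.1 i) = M := by
      intro M hM
      obtain ⟨G, hG, hGM⟩ := rowΦ_surj h G₀ hM
      exact ⟨⟨G, hG.trans hG₀⟩, hGM⟩
    have hmean : ∑ x : {x : Om d // key {a, b, c} x = t}, f x.1 = 0 := by
      have h1 := congrFun h0 G₀
      rw [cnd_apply] at h1
      have h2 : ∑ y ∈ fib (key {a, b, c}) G₀, f y = 0 := by
        rcases div_eq_zero_iff.1 h1 with h3 | h3
        · exact h3
        · exact absurd h3 (card_fib_ne _ _)
      rw [← h2]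
      symm
      apply Finset.sum_subtype
      intro x
      simp [hG₀]
    have hkl := key_lemma (fun (x : {x : Om d // key {a, b, c} x = t}) (i : Fin 3) => rowΦ a b c x.1 i)
      hinj hcfg hsurj (fun x => f x.1) hmean
    rw [Fin.sum_univ_three] at hkl
    have e0 : cnd (fun y : {x : Om d // key {a, b, c} x = t} => rowΦ a b c y.1 0) (fun x => f x.1)
        = cnd (fun y : {x : Om d // key {a, b, c} x = t} => key {b, c} y.1) (fun x => f x.1) :=
      cnd_congr (fun x y => rowΦ_key_0 h (x.2.trans y.2.symm)) _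
    have e1 : cnd (fun y : {x : Om d // key {a, b, c} x = t} => rowΦ a b c y.1 1) (fun x => f x.1)
        = cnd (fun y : {x : Om d // key {a, b, c} x = t} => key {a, c} y.1) (fun x => f x.1) :=
      cnd_congr (fun x y => rowΦ_key_1 h (x.2.trans y.2.symm)) _
    have e2 : cnd (fun y : {x : Om d // key {a, b, c} x = t} => rowΦ a b c y.1 2) (fun x => f x.1)
        = cnd (fun y : {x : Om d // key {a, b, c} x = t} => key {a, b} y.1) (fun x => f x.1) :=
      cnd_congr (fun x y => rowΦ_key_2 h (x.2.trans y.2.symm)) _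
    rw [e0, e1, e2] at hkl
    exact hkl

/-- The abstract inequality behind the triple lemma. -/
lemma T_abs {α : Type*} [Fintype α] (g h1 h2 h3 : α → ℝ) (e1 : ip g h1 = ip h1 h1)
    (e2 : ip g h2 = ip h2 h2) (e3 : ip g h3 = ip h3 h3)
    (hs : ip g h1 + ip g h2 + ip g h3 ≤ 2 * ip g g) :
    0 ≤ ip (g - h1) (g - h2) + ip (g - h1) (g - h3) + ip (g - h2) (g - h3) := by
  have hc := cauchy_ip g (h1 + h2 + h3)
  have hw := ip_self_nonneg g
  have x1 : ip (g - h1) (g - h2) = ip g g - ip g h1 - ip g h2 + ip h1 h2 := by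
    simp only [ip_sub_left, ip_sub_right]; rw [ip_comm h1 g]; ring
  have x2 : ip (g - h1) (g - h3) = ip g g - ip g h1 - ip g h3 + ip h1 h3 := by
    simp only [ip_sub_left, ip_sub_right]; rw [ip_comm h1 g]; ring
  have x3 : ip (g - h2) (g - h3) = ip g g - ip g h2 - ip g h3 + ip h2 h3 := by
    simp only [ip_sub_left, ip_sub_right]; rw [ip_comm h2 g]; ring
  have x4 : ip g (h1 + h2 + h3) = ip g h1 + ip g h2 + ip g h3 := by
    simp only [ip_add_right]
  have x5 : ip (h1 + h2 + h3) (h1 + h2 + h3)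
      = ip g h1 + ip g h2 + ip g h3 + 2 * (ip h1 h2 + ip h1 h3 + ip h2 h3) := by
    simp only [ip_add_left, ip_add_right]
    rw [ip_comm h2 h1, ip_comm h3 h1, ip_comm h3 h2, e1, e2, e3]
    ring
  rw [x1, x2, x3]
  rw [x4, x5] at hc
  rcases hw.lt_or_eq with hpos | h0
  · generalize ip h1 h2 = x12 at *
    generalize ip h1 h3 = x13 at *
    generalize ip h2 h3 = x23 at *
    generalize ip g g = w at *
    generalize ip g h1 = p1 at *
    generalize ip g h2 = p2 at *
    generalize ip g h3 = p3 at *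
    by_contra hneg
    push Not at hneg
    nlinarith [mul_nonneg (sub_nonneg.2 hs) (sub_nonneg.2 (le_trans hs (by linarith : 2 * w ≤ 3 * w)))]
  · have hg : g = 0 := ip_self_eq_zero h0.symm
    have z1 : h1 = 0 := ip_self_eq_zero (by rw [← e1, hg, ip_zero_left])
    have z2 : h2 = 0 := ip_self_eq_zero (by rw [← e2, hg, ip_zero_left])
    have z3 : h3 = 0 := ip_self_eq_zero (by rw [← e3, hg, ip_zero_left])
    rw [hg, z1, z2, z3]
    simp [ip_zero_left]

/-- The triple inequality for defects. -/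
theorem T_nonneg (h : Dist3 a b c) (f : Om d → ℝ) :
    0 ≤ ip (Pp a b f) (Pp a c f) + ip (Pp a b f) (Pp b c f) + ip (Pp a c f) (Pp b c f) := by
  classical
  have r1 : ∀ x y : Om d, key {a, b} x = key {a, b} y → key {a, b, c} x = key {a, b, c} y :=
    fun x y hxy => key_mono (by intro u; simp; tauto) hxy
  have r2 : ∀ x y : Om d, key {a, c} x = key {a, c} y → key {a, b, c} x = key {a, b, c} y :=
    fun x y hxy => key_mono (by intro u; simp; tauto) hxy
  have r3 : ∀ x y : Om d, key {b, c} x = key {b, c} y → key {a, b, c} x = key {a, b, c} y :=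
    fun x y hxy => key_mono (by intro u; simp; tauto) hxy
  set g : Om d → ℝ := f - cnd (key {a, b, c}) f with hg
  have e0 : cnd (key {a, b, c}) g = 0 := by
    rw [hg, cnd_sub, cnd_cnd_self, sub_self]
  have p1 : Pp a b f = g - cnd (key {a, b}) g := by
    rw [hg, cnd_sub, cnd_fine_coarse r1]
    unfold Pp Rp
    abel
  have p2 : Pp a c f = g - cnd (key {a, c}) g := by
    rw [hg, cnd_sub, cnd_fine_coarse r2]
    unfold Pp Rp
    abel
  have p3 : Pp b c f = g - cnd (key {b, c}) g := by
    rw [hg, cnd_sub, cnd_fine_coarse r3]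
    unfold Pp Rp
    abel
  rw [p1, p2, p3]
  refine T_abs g _ _ _ (ip_cnd_self_eq _ _).symm (ip_cnd_self_eq _ _).symm (ip_cnd_self_eq _ _).symm ?_
  have := triple_bound h g e0
  linarith

end Vale.Agent.P335
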