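import Mathlib

/-! Johnson graph lemmas: basic counting and double counting. -/

open Finset BigOperators

namespace Vale.Agent.P335

variable {E : Type*} [DecidableEq E]

/-- The transposition of two ground elements acting on subsets. -/
def tau (c d : E) (A : Finset E) : Finset E := A.map (Equiv.swap c d).toEmbedding

lemma mem_tau {c d x : E} {A : Finset E} : x ∈ tau c d A ↔ Equiv.swap c d x ∈ A := by
  simp only [tau, mem_map_equiv, Equiv.symm_swap]

lemma card_tau (c d : E) (A : Finset E) : (tau c d A).card = A.card := by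
  simp [tau]

lemma tau_tau (c d : E) (A : Finset E) : tau c d (tau c d A) = A := by
  ext x; simp [mem_tau]

lemma tau_comm (c d : E) (A : Finset E) : tau c d A = tau d c A := by
  ext x; simp [mem_tau, Equiv.swap_comm]

lemma tau_subset {c d : E} {A D : Finset E} (hc : c ∈ D) (hd : d ∈ D) (hA : A ⊆ D) :
    tau c d A ⊆ D := by
  intro x hx
  rw [mem_tau] at hx
  by_cases h1 : x = c
  · rw [h1]; exact hc
  by_cases h2 : x = d
  · rw [h2]; exact hd
  rw [Equiv.swap_apply_of_ne_of_ne h1 h2] at hx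
  exact hA hx

lemma tau_mem_powersetCard {c d : E} {A D : Finset E} {r : ℕ} (hc : c ∈ D) (hd : d ∈ D)
    (hA : A ∈ powersetCard r D) : tau c d A ∈ powersetCard r D := by
  rw [mem_powersetCard] at hA ⊢
  exact ⟨tau_subset hc hd hA.1, by rw [card_tau, hA.2]⟩

lemma tau_eq_insert_erase {c d : E} {A : Finset E} (hc : c ∈ A) (hd : d ∉ A) :
    tau c d A = insert d (A.erase c) := by
  have hne : d ≠ c := fun h => hd (h ▸ hc)
  ext x
  rw [mem_tau, mem_insert, mem_erase]
  by_cases h1 : x = c
  · subst h1; simp [hd, hne.symm]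
  by_cases h2 : x = d
  · subst h2; simp [hc]
  rw [Equiv.swap_apply_of_ne_of_ne h1 h2]
  simp [h1, h2]

lemma mem_tau_left {c d : E} {A : Finset E} : c ∈ tau c d A ↔ d ∈ A := by
  simp [mem_tau]

lemma mem_tau_right {c d : E} {A : Finset E} : d ∈ tau c d A ↔ c ∈ A := by
  simp [mem_tau]

/-- Exactly one of `c, d` lies in `A`. -/
def splitP (c d : E) (A : Finset E) : Prop := (c ∈ A ∧ d ∉ A) ∨ (d ∈ A ∧ c ∉ A)

instance (c d : E) (A : Finset E) : Decidable (splitP c d A) := by
  unfold splitP; infer_instance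

/-- Double counting: pairs `(R, e)` with `R` a `q`-subset of `D` and `e ∈ D \ R`. -/
lemma sum_powersetCard_double {M : Type*} [AddCommMonoid M] (D : Finset E) (q : ℕ)
    (G : Finset E → E → M) :
    ∑ R ∈ powersetCard q D, ∑ e ∈ D \ R, G R e
      = ∑ R' ∈ powersetCard (q + 1) D, ∑ e ∈ R', G (R'.erase e) e := by
  simp only [sum_sigma']
  refine sum_nbij' (fun p => ⟨insert p.2 p.1, p.2⟩) (fun p => ⟨p.1.erase p.2, p.2⟩) ?_ ?_ ?_ ?_ ?_
  · rintro ⟨R, e⟩ h
    simp only [mem_sigma, mem_powersetCard, mem_sdiff] at h ⊢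
    obtain ⟨⟨h1, h2⟩, h3, h4⟩ := h
    refine ⟨⟨insert_subset h3 h1, ?_⟩, mem_insert_self _ _⟩
    rw [card_insert_of_notMem h4, h2]
  · rintro ⟨R, e⟩ h
    simp only [mem_sigma, mem_powersetCard, mem_sdiff] at h ⊢
    obtain ⟨⟨h1, h2⟩, h3⟩ := h
    refine ⟨⟨(erase_subset _ _).trans h1, ?_⟩, h1 h3, notMem_erase _ _⟩
    rw [card_erase_of_mem h3, h2]; rfl
  · rintro ⟨R, e⟩ h
    simp only [mem_sigma, mem_powersetCard, mem_sdiff] at h
    obtain ⟨⟨h1, h2⟩, h3, h4⟩ := h
    simp [erase_insert h4]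
  · rintro ⟨R, e⟩ h
    simp only [mem_sigma, mem_powersetCard] at h
    obtain ⟨⟨h1, h2⟩, h3⟩ := h
    simp [insert_erase h3]
  · rintro ⟨R, e⟩ h
    simp only [mem_sigma, mem_powersetCard, mem_sdiff] at h
    obtain ⟨⟨h1, h2⟩, h3, h4⟩ := h
    simp [erase_insert h4]

lemma card_sdiff_of_mem_powersetCard {D R : Finset E} {q : ℕ} (h : R ∈ powersetCard q D) :
    (D \ R).card = D.card - q := by
  rw [mem_powersetCard] at h
  rw [card_sdiff_of_subset h.1, h.2]

/-- Weighted form of double counting, pushing up: summing over `e ∉ R` a function of `R + e`. -/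
lemma sum_insert_double {M : Type*} [AddCommMonoid M] (D : Finset E) (q : ℕ)
    (F : Finset E → M) :
    ∑ R ∈ powersetCard q D, ∑ e ∈ D \ R, F (insert e R)
      = (q + 1) • ∑ R' ∈ powersetCard (q + 1) D, F R' := by
  rw [sum_powersetCard_double D q (fun R e => F (insert e R)), smul_sum]
  refine sum_congr rfl (fun R' hR' => ?_)
  have h1 : ∀ e ∈ R', F (insert e (R'.erase e)) = F R' := fun e he => by rw [insert_erase he]
  rw [sum_congr rfl h1, sum_const, (mem_powersetCard.1 hR').2]

/-- Weighted form of double counting, pushing down: summing over `e ∈ R` a function of `R - e`. -/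
lemma sum_erase_double {M : Type*} [AddCommMonoid M] (D : Finset E) (q : ℕ)
    (F : Finset E → M) :
    ∑ R ∈ powersetCard (q + 1) D, ∑ e ∈ R, F (R.erase e)
      = (D.card - q) • ∑ R' ∈ powersetCard q D, F R' := by
  rw [← sum_powersetCard_double D q (fun R _ => F R), smul_sum]
  refine sum_congr rfl (fun R' hR' => ?_)
  rw [sum_const, card_sdiff_of_mem_powersetCard hR']

/-- Splitting the `r+1`-subsets of `insert e D`. -/
lemma sum_powersetCard_insert {M : Type*} [AddCommMonoid M] {D : Finset E} {e : E} (he : e ∉ D)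
    (r : ℕ) (F : Finset E → M) :
    ∑ A ∈ powersetCard (r + 1) (insert e D), F A
      = ∑ A ∈ powersetCard (r + 1) D, F A + ∑ A ∈ powersetCard r D, F (insert e A) := by
  rw [powersetCard_succ_insert he, sum_union, sum_image]
  · intro x hx y hy hxy
    have hx' := (mem_powersetCard.1 (mem_coe.1 hx)).1
    have hy' := (mem_powersetCard.1 (mem_coe.1 hy)).1
    have := congrArg (fun s => s.erase e) hxy
    rwa [erase_insert (fun h => he (hx' h)), erase_insert (fun h => he (hy' h))] at this
  · rw [disjoint_left]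
    intro A hA hA'
    rw [mem_image] at hA'
    obtain ⟨B, -, rfl⟩ := hA'
    exact he ((mem_powersetCard.1 hA).1 (mem_insert_self _ _))

/-- Cauchy for a double sum over pairs `(R, e)`. -/
lemma sq_double_sum_le {ι κ : Type*} (s : Finset ι) (t : ι → Finset κ) (g : ι → κ → ℝ) :
    (∑ i ∈ s, ∑ j ∈ t i, g i j) ^ 2
      ≤ (∑ i ∈ s, ((t i).card : ℝ)) * ∑ i ∈ s, ∑ j ∈ t i, (g i j) ^ 2 := by
  classical
  have h := sq_sum_le_card_mul_sum_sq (s := s.sigma t) (f := fun p => g p.1 p.2)
  rw [sum_sigma, sum_sigma, card_sigma] at h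
  push_cast at h
  exact h

end Vale.Agent.P335
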