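import Vale.Agent.P335.Johnson0

/-! The crude Johnson spectral gap. -/

open Finset BigOperators

namespace Vale.Agent.P335

variable {E : Type*} [DecidableEq E]

/-- Edge energy on `r`-subsets of `D`. -/
noncomputable def Ed (D : Finset E) (r : ℕ) (φ : Finset E → ℝ) : ℝ :=
  ∑ A ∈ powersetCard r D, ∑ c ∈ A, ∑ d ∈ D \ A, (φ A - φ (insert d (A.erase c))) ^ 2

lemma Ed_nonneg (D : Finset E) (r : ℕ) (φ : Finset E → ℝ) : 0 ≤ Ed D r φ :=
  sum_nonneg fun _ _ => sum_nonneg fun _ _ => sum_nonneg fun _ _ => sq_nonneg _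

/-- Decomposition of the edge energy when a point is added. -/
lemma Ed_insert {D : Finset E} {e : E} (he : e ∉ D) (r : ℕ) (φ : Finset E → ℝ) :
    Ed (insert e D) (r + 1) φ = Ed D (r + 1) φ + Ed D r (fun B => φ (insert e B))
      + 2 * ∑ R ∈ powersetCard r D, ∑ d ∈ D \ R, (φ (insert e R) - φ (insert d R)) ^ 2 := by
  have hcross : ∑ A ∈ powersetCard (r + 1) D, ∑ c ∈ A, (φ A - φ (insert e (A.erase c))) ^ 2
      = ∑ R ∈ powersetCard r D, ∑ d ∈ D \ R, (φ (insert e R) - φ (insert d R)) ^ 2 := by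
    rw [sum_powersetCard_double D r (fun R d => (φ (insert e R) - φ (insert d R)) ^ 2)]
    refine sum_congr rfl (fun A _ => sum_congr rfl (fun c hc => ?_))
    rw [insert_erase hc]
    ring
  unfold Ed
  rw [sum_powersetCard_insert he]
  have h1 : ∀ A ∈ powersetCard (r + 1) D,
      ∑ c ∈ A, ∑ d ∈ insert e D \ A, (φ A - φ (insert d (A.erase c))) ^ 2
      = ∑ c ∈ A, ∑ d ∈ D \ A, (φ A - φ (insert d (A.erase c))) ^ 2
        + ∑ c ∈ A, (φ A - φ (insert e (A.erase c))) ^ 2 := by
    intro A hA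
    have hA' := (mem_powersetCard.1 hA).1
    have heA : e ∉ A := fun h => he (hA' h)
    rw [insert_sdiff_of_notMem _ heA, ← sum_add_distrib]
    refine sum_congr rfl (fun c _ => ?_)
    rw [sum_insert (by simp [he]), add_comm]
  have h2 : ∀ R ∈ powersetCard r D,
      ∑ c ∈ insert e R, ∑ d ∈ insert e D \ insert e R,
          (φ (insert e R) - φ (insert d ((insert e R).erase c))) ^ 2
      = ∑ d ∈ D \ R, (φ (insert e R) - φ (insert d R)) ^ 2
        + ∑ c ∈ R, ∑ d ∈ D \ R,
            (φ (insert e R) - φ (insert e (insert d (R.erase c)))) ^ 2 := by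
    intro R hR
    have hR' := (mem_powersetCard.1 hR).1
    have heR : e ∉ R := fun h => he (hR' h)
    rw [sum_insert heR]
    have hsd : insert e D \ insert e R = D \ R := by
      ext x
      simp only [mem_sdiff, mem_insert]
      constructor
      · rintro ⟨h1, h2⟩
        push Not at h2
        exact ⟨h1.resolve_left h2.1, h2.2⟩
      · rintro ⟨h1, h2⟩
        refine ⟨Or.inr h1, ?_⟩
        rintro (h | h)
        · exact he (h ▸ h1)
        · exact h2 h
    rw [hsd]
    congr 1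
    · refine sum_congr rfl (fun d _ => ?_)
      rw [erase_insert heR]
    · refine sum_congr rfl (fun c hc => sum_congr rfl (fun d _ => ?_))
      have hce : c ≠ e := fun h => heR (h ▸ hc)
      rw [erase_insert_of_ne hce.symm, Finset.insert_comm]
  rw [sum_congr rfl h1, sum_congr rfl h2, sum_add_distrib, sum_add_distrib, hcross]
  ring

/-- The arithmetic core of the induction step. -/
lemma var_step {n₀ n₁ T₀ T₁ S₀ S₁ Ed₀ Ed₁ Cr u ρ : ℝ} (hn₀ : 0 < n₀) (hn₁ : 0 < n₁) (hu : 0 < u)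
    (huρ : 2 ≤ u + ρ) (hp : u * n₁ = ρ * n₀)
    (hCS : (u * T₁ - ρ * T₀) ^ 2 ≤ (u * n₁) * Cr)
    (ih0 : 4 * (S₀ - T₀ ^ 2 / n₀) ≤ Ed₀) (ih1 : 4 * (S₁ - T₁ ^ 2 / n₁) ≤ Ed₁) :
    4 * (S₀ + S₁ - (T₀ + T₁) ^ 2 / (n₀ + n₁)) ≤ Ed₀ + Ed₁ + 2 * Cr := by
  obtain ⟨m₀, rfl⟩ : ∃ m₀, T₀ = n₀ * m₀ := ⟨T₀ / n₀, by field_simp⟩
  obtain ⟨m₁, rfl⟩ : ∃ m₁, T₁ = n₁ * m₁ := ⟨T₁ / n₁, by field_simp⟩
  have hP : 0 < u * n₁ := by positivity
  have hCr : (u * n₁) * (m₁ - m₀) ^ 2 ≤ Cr := by
    have h5 : u * (n₁ * m₁) - ρ * (n₀ * m₀) = (u * n₁) * (m₁ - m₀) := by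
      have : ρ * (n₀ * m₀) = (ρ * n₀) * m₀ := by ring
      rw [this, ← hp]; ring
    rw [h5] at hCS
    have h6 : (u * n₁) * ((u * n₁) * (m₁ - m₀) ^ 2) ≤ (u * n₁) * Cr := by
      calc (u * n₁) * ((u * n₁) * (m₁ - m₀) ^ 2) = ((u * n₁) * (m₁ - m₀)) ^ 2 := by ring
        _ ≤ _ := hCS
    exact le_of_mul_le_mul_left h6 hP
  have e0 : (n₀ * m₀) ^ 2 / n₀ = n₀ * m₀ ^ 2 := by field_simp
  have e1 : (n₁ * m₁) ^ 2 / n₁ = n₁ * m₁ ^ 2 := by field_simp
  rw [e0] at ih0
  rw [e1] at ih1
  have hnn : 0 < n₀ + n₁ := by positivity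
  have hvar : (n₀ * m₀ + n₁ * m₁) ^ 2 / (n₀ + n₁)
      = n₀ * m₀ ^ 2 + n₁ * m₁ ^ 2 - n₀ * n₁ * (m₀ - m₁) ^ 2 / (n₀ + n₁) := by
    field_simp
    ring
  rw [hvar]
  have hfinal : 2 * (n₀ * n₁ * (m₀ - m₁) ^ 2 / (n₀ + n₁)) ≤ (u * n₁) * (m₁ - m₀) ^ 2 := by
    rw [← mul_div_assoc, div_le_iff₀ hnn]
    have h7 : (u * n₁) * (n₀ + n₁) = (u + ρ) * (n₀ * n₁) := by
      have h : (u * n₁) * n₁ = (ρ * n₀) * n₁ := by rw [hp]
      calc (u * n₁) * (n₀ + n₁) = (u * n₁) * n₀ + (u * n₁) * n₁ := by ring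
        _ = (u * n₁) * n₀ + (ρ * n₀) * n₁ := by rw [h]
        _ = _ := by ring
    have h8 : 2 * (n₀ * n₁) ≤ (u * n₁) * (n₀ + n₁) := by
      rw [h7]
      have h : 0 < n₀ * n₁ := by positivity
      exact mul_le_mul_of_nonneg_right huρ h.le
    have h9 : (m₀ - m₁) ^ 2 = (m₁ - m₀) ^ 2 := by ring
    rw [h9]
    have h10 := sq_nonneg (m₁ - m₀)
    calc 2 * (n₀ * n₁ * (m₁ - m₀) ^ 2) = (2 * (n₀ * n₁)) * (m₁ - m₀) ^ 2 := by ring
      _ ≤ ((u * n₁) * (n₀ + n₁)) * (m₁ - m₀) ^ 2 := mul_le_mul_of_nonneg_right h8 h10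
      _ = _ := by ring
  nlinarith

/-- Variance form of the crude Johnson gap. -/
theorem Ed_ge_var (D : Finset E) (r : ℕ) (φ : Finset E → ℝ) :
    4 * (∑ A ∈ powersetCard r D, (φ A) ^ 2
        - (∑ A ∈ powersetCard r D, φ A) ^ 2 / ((powersetCard r D).card : ℝ)) ≤ Ed D r φ := by
  induction D using Finset.induction_on generalizing r φ with
  | empty =>
    cases r with
    | zero => simp [Ed]
    | succ r =>
      rw [powersetCard_eq_empty.2 (by simp)]
      simp [Ed]
  | insert e D he ih =>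
    by_cases hr : 1 ≤ r ∧ r ≤ D.card
    · obtain ⟨hr1, hr2⟩ := hr
      obtain ⟨r, rfl⟩ : ∃ r', r = r' + 1 := ⟨r - 1, by omega⟩
      rw [Ed_insert he, sum_powersetCard_insert he, sum_powersetCard_insert he]
      have hcard : (powersetCard (r + 1) (insert e D)).card
          = (powersetCard (r + 1) D).card + (powersetCard r D).card := by
        simp only [card_powersetCard, card_insert_of_notMem he]
        rw [Nat.choose_succ_succ', add_comm]
      rw [hcard]
      push_cast
      refine var_step (u := ((D.card - r : ℕ) : ℝ)) (ρ := (r : ℝ) + 1) ?_ ?_ ?_ ?_ ?_ ?_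
        (ih (r + 1) φ) (ih r (fun B => φ (insert e B)))
      · rw [card_powersetCard]
        exact_mod_cast Nat.choose_pos hr2
      · rw [card_powersetCard]
        exact_mod_cast Nat.choose_pos (by omega)
      · exact_mod_cast Nat.sub_pos_of_lt (by omega)
      · have h1 : ((D.card - r : ℕ) : ℝ) = (D.card : ℝ) - r := by
          rw [Nat.cast_sub (by omega)]
        have h3 : (2 : ℝ) ≤ D.card + 1 := by
          have : (1 : ℝ) ≤ D.card := by
            have : 1 ≤ D.card := by omega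
            exact_mod_cast this
          linarith
        rw [h1]
        linarith
      · have h := sum_insert_double D r (fun _ => (1 : ℝ))
        simp only [sum_const, nsmul_eq_mul, mul_one] at h
        rw [sum_congr rfl (fun R hR => by rw [card_sdiff_of_mem_powersetCard hR])] at h
        simp only [sum_const, nsmul_eq_mul] at h
        push_cast at h ⊢
        linarith
      · have hsum : ∑ R ∈ powersetCard r D, ∑ d ∈ D \ R, (φ (insert e R) - φ (insert d R))
            = ((D.card - r : ℕ) : ℝ) * ∑ A ∈ powersetCard r D, φ (insert e A)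
              - ((r : ℝ) + 1) * ∑ A ∈ powersetCard (r + 1) D, φ A := by
          have h2 := sum_insert_double D r φ
          simp only [sum_sub_distrib]
          rw [h2]
          have h3 : ∑ R ∈ powersetCard r D, ∑ _d ∈ D \ R, φ (insert e R)
              = ((D.card - r : ℕ) : ℝ) * ∑ A ∈ powersetCard r D, φ (insert e A) := by
            rw [mul_sum]
            refine sum_congr rfl (fun R hR => ?_)
            rw [sum_const, card_sdiff_of_mem_powersetCard hR, nsmul_eq_mul]
          rw [h3, nsmul_eq_mul]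
          push_cast
          ring
        have h := sq_double_sum_le (powersetCard r D) (fun R => D \ R)
          (fun R d => φ (insert e R) - φ (insert d R))
        rw [hsum] at h
        have h4 : ∑ R ∈ powersetCard r D, (((D \ R).card : ℕ) : ℝ)
            = ((D.card - r : ℕ) : ℝ) * ((powersetCard r D).card : ℝ) := by
          rw [sum_congr rfl (fun R hR => by rw [card_sdiff_of_mem_powersetCard hR])]
          simp only [sum_const, nsmul_eq_mul]
          ring
        rw [h4] at h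
        exact h
    · -- at most one subset
      have hle : (powersetCard r (insert e D)).card ≤ 1 := by
        rw [card_powersetCard, card_insert_of_notMem he]
        rcases Nat.eq_zero_or_pos r with h0 | h0
        · subst h0; simp
        · have : D.card + 1 ≤ r := by
            by_contra hlt
            exact hr ⟨h0, by omega⟩
          rcases this.lt_or_eq with h1 | h1
          · rw [Nat.choose_eq_zero_of_lt h1]; omega
          · rw [h1]; simp
      have hEd := Ed_nonneg (insert e D) r φ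
      refine le_trans ?_ hEd
      rcases Nat.le_one_iff_eq_zero_or_eq_one.1 hle with hc | hc
      · rw [card_eq_zero] at hc
        simp [hc]
      · obtain ⟨A, hA⟩ := card_eq_one.1 hc
        simp [hA]

end Vale.Agent.P335
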