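import Vale.Agent.P335.Johnson1

/-! The energy in terms of transpositions, and counting of subsets. -/

open Finset BigOperators

namespace Vale.Agent.P335

variable {E : Type*} [DecidableEq E]

/-- Transposition energy on `r`-subsets of `D`. -/
noncomputable def En (D : Finset E) (r : ℕ) (φ : Finset E → ℝ) : ℝ :=
  ∑ c ∈ D, ∑ d ∈ D.erase c, ∑ A ∈ (powersetCard r D).filter (splitP c d),
    (1 / 4 : ℝ) * (φ A - φ (tau c d A)) ^ 2

/-- Subsets containing `c` and missing `d`. -/
def Pcd (D : Finset E) (r : ℕ) (c d : E) : Finset (Finset E) :=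
  (powersetCard r D).filter (fun A => c ∈ A ∧ d ∉ A)

lemma filter_split_eq (D : Finset E) (r : ℕ) (c d : E) :
    (powersetCard r D).filter (splitP c d) = Pcd D r c d ∪ Pcd D r d c := by
  ext A
  simp only [mem_filter, mem_union, Pcd, splitP]
  tauto

lemma disjoint_Pcd (D : Finset E) (r : ℕ) (c d : E) : Disjoint (Pcd D r c d) (Pcd D r d c) := by
  rw [disjoint_left]
  intro A h1 h2
  simp only [Pcd, mem_filter] at h1 h2
  exact h1.2.2 h2.2.1

lemma sum_Pcd_swap {M : Type*} [AddCommMonoid M] {D : Finset E} {r : ℕ} {c d : E} (hc : c ∈ D)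
    (hd : d ∈ D) (F : Finset E → M) :
    ∑ A ∈ Pcd D r d c, F A = ∑ A ∈ Pcd D r c d, F (tau c d A) := by
  refine sum_nbij' (fun A => tau c d A) (fun A => tau c d A) ?_ ?_ ?_ ?_ ?_
  · intro A hA
    simp only [Pcd, mem_filter] at hA ⊢
    refine ⟨tau_mem_powersetCard hc hd hA.1, ?_, ?_⟩
    · rw [mem_tau_left]; exact hA.2.1
    · rw [mem_tau_right]; exact hA.2.2
  · intro A hA
    simp only [Pcd, mem_filter] at hA ⊢
    refine ⟨tau_mem_powersetCard hc hd hA.1, ?_, ?_⟩
    · rw [mem_tau_right]; exact hA.2.1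
    · rw [mem_tau_left]; exact hA.2.2
  · intro A _; exact tau_tau c d A
  · intro A _; exact tau_tau c d A
  · intro A _; rw [tau_tau]

/-- Pair term of the energy. -/
lemma En_pair {D : Finset E} {r : ℕ} {c d : E} (hc : c ∈ D) (hd : d ∈ D)
    (φ : Finset E → ℝ) :
    ∑ A ∈ (powersetCard r D).filter (splitP c d), (1 / 4 : ℝ) * (φ A - φ (tau c d A)) ^ 2
      = (1 / 2 : ℝ) * ∑ A ∈ Pcd D r c d, (φ A - φ (tau c d A)) ^ 2 := by
  rw [filter_split_eq D r c d, sum_union (disjoint_Pcd D r c d),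
    sum_Pcd_swap hc hd, ← sum_add_distrib, mul_sum]
  refine sum_congr rfl (fun A _ => ?_)
  rw [tau_tau]
  ring

lemma sum_pairs_subset {M : Type*} [AddCommMonoid M] {D A : Finset E} (hA : A ⊆ D)
    (G : E → E → M) :
    ∑ c ∈ D, ∑ d ∈ D.erase c, (if c ∈ A ∧ d ∉ A then G c d else 0)
      = ∑ c ∈ A, ∑ d ∈ D \ A, G c d := by
  rw [← sum_subset hA]
  · refine sum_congr rfl (fun c hc => ?_)
    have h1 : ∀ d ∈ D.erase c, (if c ∈ A ∧ d ∉ A then G c d else 0)
        = if d ∉ A then G c d else 0 := by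
      intro d _; simp [hc]
    rw [sum_congr rfl h1, ← sum_filter]
    refine sum_congr ?_ (fun _ _ => rfl)
    ext d
    simp only [mem_filter, mem_erase, mem_sdiff]
    constructor
    · rintro ⟨⟨_, h2⟩, h3⟩; exact ⟨h2, h3⟩
    · rintro ⟨h2, h3⟩; exact ⟨⟨fun h => h3 (h ▸ hc), h2⟩, h3⟩
  · intro c _ hc
    exact sum_eq_zero (fun d _ => by simp [hc])

/-- The two forms of the energy. -/
theorem En_eq_half_Ed (D : Finset E) (r : ℕ) (φ : Finset E → ℝ) :
    En D r φ = (1 / 2 : ℝ) * Ed D r φ := by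
  have h1 : En D r φ = (1 / 2 : ℝ) * ∑ c ∈ D, ∑ d ∈ D.erase c,
      ∑ A ∈ Pcd D r c d, (φ A - φ (tau c d A)) ^ 2 := by
    unfold En
    rw [mul_sum]
    refine sum_congr rfl (fun c hc => ?_)
    rw [mul_sum]
    refine sum_congr rfl (fun d hd => ?_)
    have hd' := mem_erase.1 hd
    exact En_pair hc hd'.2 φ
  rw [h1]
  congr 1
  have h2 : ∀ c ∈ D, ∀ d ∈ D.erase c, ∑ A ∈ Pcd D r c d, (φ A - φ (tau c d A)) ^ 2
      = ∑ A ∈ powersetCard r D, if c ∈ A ∧ d ∉ A then (φ A - φ (tau c d A)) ^ 2 else 0 := by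
    intro c _ d _
    rw [Pcd, sum_filter]
  rw [sum_congr rfl (fun c hc => sum_congr rfl (fun d hd => h2 c hc d hd))]
  have h3 : ∀ c ∈ D, ∑ d ∈ D.erase c, ∑ A ∈ powersetCard r D,
      (if c ∈ A ∧ d ∉ A then (φ A - φ (tau c d A)) ^ 2 else 0)
      = ∑ A ∈ powersetCard r D, ∑ d ∈ D.erase c,
        (if c ∈ A ∧ d ∉ A then (φ A - φ (tau c d A)) ^ 2 else 0) := fun c _ => sum_comm
  rw [sum_congr rfl h3, sum_comm]
  unfold Ed
  refine sum_congr rfl (fun A hA => ?_)
  have hA' := (mem_powersetCard.1 hA).1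
  rw [sum_pairs_subset hA' (fun c d => (φ A - φ (tau c d A)) ^ 2)]
  refine sum_congr rfl (fun c hc => sum_congr rfl (fun d hd => ?_))
  rw [tau_eq_insert_erase hc (mem_sdiff.1 hd).2]

/-- The crude Johnson gap in its final form. -/
theorem J1 (D : Finset E) (r : ℕ) (φ : Finset E → ℝ)
    (h0 : ∑ A ∈ powersetCard r D, φ A = 0) :
    2 * ∑ A ∈ powersetCard r D, (φ A) ^ 2 ≤ En D r φ := by
  rw [En_eq_half_Ed]
  have := Ed_ge_var D r φ
  rw [h0] at this
  simp only [ne_eq, OfNat.ofNat_ne_zero, not_false_eq_true, zero_pow, zero_div, sub_zero] at this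
  linarith

/-- Counting subsets containing `S` and avoiding `T`. -/
lemma card_filter_sub_disj {D S T : Finset E} (hS : S ⊆ D) (hd : Disjoint S T) {r : ℕ}
    (hr : S.card ≤ r) :
    ((powersetCard r D).filter (fun A => S ⊆ A ∧ Disjoint T A)).card
      = (powersetCard (r - S.card) (D \ (S ∪ T))).card := by
  refine card_nbij' (fun A => A \ S) (fun B => B ∪ S) ?_ ?_ ?_ ?_
  · intro A hA
    have hA' := mem_coe.1 hA
    rw [mem_filter, mem_powersetCard] at hA'
    apply mem_coe.2
    rw [mem_powersetCard]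
    obtain ⟨⟨h1, h2⟩, h3, h4⟩ := hA'
    constructor
    · intro x hx
      rw [mem_sdiff] at hx ⊢
      refine ⟨h1 hx.1, ?_⟩
      rw [mem_union]
      rintro (h | h)
      · exact hx.2 h
      · exact (disjoint_left.1 h4) h hx.1
    · rw [card_sdiff_of_subset h3, h2]
  · intro B hB
    have hB' := mem_coe.1 hB
    rw [mem_powersetCard] at hB'
    apply mem_coe.2
    rw [mem_filter, mem_powersetCard]
    obtain ⟨h1, h2⟩ := hB'
    have hBS : Disjoint B S := by
      rw [disjoint_left]
      intro x hx hxS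
      have := (mem_sdiff.1 (h1 hx)).2
      exact this (mem_union_left _ hxS)
    refine ⟨⟨union_subset (h1.trans sdiff_subset) hS, ?_⟩, subset_union_right, ?_⟩
    · rw [card_union_of_disjoint hBS, h2]; omega
    · rw [disjoint_left]
      intro x hxT hx
      rw [mem_union] at hx
      rcases hx with hx | hx
      · exact (mem_sdiff.1 (h1 hx)).2 (mem_union_right _ hxT)
      · exact (disjoint_left.1 hd) hx hxT
  · intro A hA
    have hA' := mem_coe.1 hA
    rw [mem_filter, mem_powersetCard] at hA'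
    exact sdiff_union_of_subset hA'.2.1
  · intro B hB
    have hB' := mem_coe.1 hB
    rw [mem_powersetCard] at hB'
    refine union_sdiff_cancel_right ?_
    rw [disjoint_left]
    intro x hx hxS
    exact (mem_sdiff.1 (hB'.1 hx)).2 (mem_union_left _ hxS)

/-- Number of `r`-subsets containing a given `k`-subset. -/
lemma card_filter_sub {D S : Finset E} (hS : S ⊆ D) (r : ℕ) :
    ((powersetCard r D).filter (fun A => S ⊆ A)).card
      = if S.card ≤ r then (D.card - S.card).choose (r - S.card) else 0 := by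
  split_ifs with h
  · have := card_filter_sub_disj (D := D) (S := S) (T := ∅) hS (disjoint_empty_right S) h
    simp only [disjoint_empty_left, and_true, union_empty] at this
    rw [this, card_powersetCard, card_sdiff_of_subset hS]
  · rw [card_eq_zero, filter_eq_empty_iff]
    intro A hA hSA
    have h1 := card_le_card hSA
    rw [(mem_powersetCard.1 hA).2] at h1
    exact h h1

/-- Number of `r`-subsets containing `c` and missing `d`. -/
lemma card_Pcd {D : Finset E} {c d : E} (hc : c ∈ D) (hd : d ∈ D) (hcd : c ≠ d) {r : ℕ}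
    (hr : 1 ≤ r) : (Pcd D r c d).card = (D.card - 2).choose (r - 1) := by
  have h := card_filter_sub_disj (D := D) (S := {c}) (T := {d}) (by simpa using hc)
    (by simpa using hcd) (r := r) (by simpa using hr)
  have h2 : (powersetCard r D).filter (fun A => ({c} : Finset E) ⊆ A ∧ Disjoint ({d} : Finset E) A)
      = Pcd D r c d := by
    ext A; simp [Pcd]
  rw [h2] at h
  rw [h, card_powersetCard, card_singleton]
  congr 1
  have h3 : (({c} : Finset E) ∪ {d}) ⊆ D := by
    intro x hx
    simp only [mem_union, mem_singleton] at hx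
    rcases hx with rfl | rfl <;> assumption
  rw [card_sdiff_of_subset h3, card_union_of_disjoint (by simpa using hcd)]
  simp

end Vale.Agent.P335
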