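import Vale.Agent.P335.Johnson2

/-! The second Johnson lemma: the first moments. -/

open Finset BigOperators

namespace Vale.Agent.P335

variable {E : Type*} [DecidableEq E]

/-- Sum of `φ` over the `r`-subsets containing `c`. -/
noncomputable def xJ (D : Finset E) (r : ℕ) (φ : Finset E → ℝ) (c : E) : ℝ :=
  ∑ A ∈ powersetCard r D, if c ∈ A then φ A else 0

/-- Sum of `φ` over the `r`-subsets containing `c` and `d`. -/
noncomputable def yJ (D : Finset E) (r : ℕ) (φ : Finset E → ℝ) (c d : E) : ℝ :=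
  ∑ A ∈ powersetCard r D, if c ∈ A ∧ d ∈ A then φ A else 0

/-- Sum of `φ` over the `r`-subsets split by `c, d`. -/
noncomputable def ZJ (D : Finset E) (r : ℕ) (φ : Finset E → ℝ) (c d : E) : ℝ :=
  ∑ A ∈ (powersetCard r D).filter (splitP c d), φ A

lemma ZJ_eq (D : Finset E) (r : ℕ) (φ : Finset E → ℝ) (c d : E) :
    ZJ D r φ c d = xJ D r φ c + xJ D r φ d - 2 * yJ D r φ c d := by
  unfold ZJ xJ yJ
  rw [sum_filter, ← sum_add_distrib, mul_sum, ← sum_sub_distrib]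
  refine sum_congr rfl (fun A _ => ?_)
  by_cases h1 : c ∈ A <;> by_cases h2 : d ∈ A <;> simp [splitP, h1, h2] <;> ring

lemma yJ_comm (D : Finset E) (r : ℕ) (φ : Finset E → ℝ) (c d : E) :
    yJ D r φ c d = yJ D r φ d c := by
  unfold yJ
  refine sum_congr rfl (fun A _ => ?_)
  simp only [and_comm]

lemma sum_xJ (D : Finset E) (r : ℕ) (φ : Finset E → ℝ) :
    ∑ c ∈ D, xJ D r φ c = r * ∑ A ∈ powersetCard r D, φ A := by
  unfold xJ
  rw [sum_comm, mul_sum]
  refine sum_congr rfl (fun A hA => ?_)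
  obtain ⟨h1, h2⟩ := mem_powersetCard.1 hA
  rw [sum_ite_mem, inter_eq_right.2 h1, sum_const, h2, nsmul_eq_mul]

lemma sum_yJ (D : Finset E) (r : ℕ) (φ : Finset E → ℝ) {c : E} :
    ∑ d ∈ D.erase c, yJ D r φ c d = ((r : ℝ) - 1) * xJ D r φ c := by
  unfold yJ xJ
  rw [sum_comm, mul_sum]
  refine sum_congr rfl (fun A hA => ?_)
  obtain ⟨h1, h2⟩ := mem_powersetCard.1 hA
  by_cases hc : c ∈ A
  · simp only [hc, true_and, if_true]
    rw [sum_ite_mem, sum_const, nsmul_eq_mul]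
    have h3 : D.erase c ∩ A = A.erase c := by
      ext x
      simp only [mem_inter, mem_erase]
      constructor
      · rintro ⟨⟨h4, _⟩, h5⟩; exact ⟨h4, h5⟩
      · rintro ⟨h4, h5⟩; exact ⟨⟨h4, h1 h5⟩, h5⟩
    rw [h3, card_erase_of_mem hc, h2]
    have : 1 ≤ r := by
      rw [← h2]; exact card_pos.2 ⟨c, hc⟩
    rw [Nat.cast_sub this]
    simp
  · simp [hc]

lemma xJ_sub_xJ {D : Finset E} {r : ℕ} (φ : Finset E → ℝ) {c d : E} (hc : c ∈ D) (hd : d ∈ D) :
    xJ D r φ c - xJ D r φ d = ∑ A ∈ Pcd D r c d, (φ A - φ (tau c d A)) := by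
  rw [sum_sub_distrib, ← sum_Pcd_swap hc hd φ]
  unfold xJ Pcd
  rw [sum_filter, sum_filter, ← sum_sub_distrib, ← sum_sub_distrib]
  refine sum_congr rfl (fun A _ => ?_)
  by_cases h1 : c ∈ A <;> by_cases h2 : d ∈ A <;> simp [h1, h2]

/-- Sum of squared differences over ordered pairs. -/
lemma sum_pairs_sub_sq (D : Finset E) (x : E → ℝ) :
    ∑ c ∈ D, ∑ d ∈ D.erase c, (x c - x d) ^ 2
      = 2 * (D.card : ℝ) * ∑ c ∈ D, (x c) ^ 2 - 2 * (∑ c ∈ D, x c) ^ 2 := by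
  have h1 : ∀ c ∈ D, ∑ d ∈ D.erase c, (x c - x d) ^ 2 = ∑ d ∈ D, (x c - x d) ^ 2 := by
    intro c hc
    rw [← add_sum_erase D _ hc]
    simp
  rw [sum_congr rfl h1]
  have h2 : ∀ c ∈ D, ∑ d ∈ D, (x c - x d) ^ 2
      = (D.card : ℝ) * (x c) ^ 2 - 2 * x c * (∑ d ∈ D, x d) + ∑ d ∈ D, (x d) ^ 2 := by
    intro c _
    have : ∀ d ∈ D, (x c - x d) ^ 2 = (x c) ^ 2 - 2 * x c * x d + (x d) ^ 2 := fun d _ => by ring
    rw [sum_congr rfl this, sum_add_distrib, sum_sub_distrib, ← mul_sum, sum_const, nsmul_eq_mul]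
  rw [sum_congr rfl h2, sum_add_distrib, sum_sub_distrib, ← mul_sum, sum_const, nsmul_eq_mul,
    ← sum_mul, ← mul_sum]
  ring

/-- Sum of squared sums over ordered pairs. -/
lemma sum_pairs_add_sq (D : Finset E) (x : E → ℝ) :
    ∑ c ∈ D, ∑ d ∈ D.erase c, (x c + x d) ^ 2
      = (2 * (D.card : ℝ) - 4) * ∑ c ∈ D, (x c) ^ 2 + 2 * (∑ c ∈ D, x c) ^ 2 := by
  have h1 : ∀ c ∈ D, ∑ d ∈ D.erase c, (x c + x d) ^ 2
      = ∑ d ∈ D, (x c + x d) ^ 2 - 4 * (x c) ^ 2 := by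
    intro c hc
    rw [← add_sum_erase D _ hc]
    ring
  rw [sum_congr rfl h1]
  have h2 : ∀ c ∈ D, ∑ d ∈ D, (x c + x d) ^ 2
      = (D.card : ℝ) * (x c) ^ 2 + 2 * x c * (∑ d ∈ D, x d) + ∑ d ∈ D, (x d) ^ 2 := by
    intro c _
    have : ∀ d ∈ D, (x c + x d) ^ 2 = (x c) ^ 2 + 2 * x c * x d + (x d) ^ 2 := fun d _ => by ring
    rw [sum_congr rfl this, sum_add_distrib, sum_add_distrib, ← mul_sum, sum_const, nsmul_eq_mul]
  rw [sum_sub_distrib, sum_congr rfl h2, sum_add_distrib, sum_add_distrib, ← mul_sum, sum_const,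
    nsmul_eq_mul, ← sum_mul, ← mul_sum, ← mul_sum]
  ring

/-- First moment bound: the energy controls the first moments. -/
lemma first_moment_bound {D : Finset E} {r : ℕ} (φ : Finset E → ℝ) {M : ℕ}
    (hM : ∀ c ∈ D, ∀ d ∈ D, c ≠ d → (Pcd D r c d).card = M)
    (h0 : ∑ A ∈ powersetCard r D, φ A = 0) :
    2 * (D.card : ℝ) * ∑ c ∈ D, (xJ D r φ c) ^ 2 ≤ 2 * (M : ℝ) * En D r φ := by
  have hs : ∑ c ∈ D, xJ D r φ c = 0 := by rw [sum_xJ, h0, mul_zero]
  have h1 := sum_pairs_sub_sq D (xJ D r φ)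
  rw [hs] at h1
  simp only [ne_eq, OfNat.ofNat_ne_zero, not_false_eq_true, zero_pow, mul_zero, sub_zero] at h1
  rw [← h1]
  unfold En
  rw [mul_sum]
  refine sum_le_sum (fun c hc => ?_)
  rw [mul_sum]
  refine sum_le_sum (fun d hd => ?_)
  obtain ⟨hd1, hd2⟩ := mem_erase.1 hd
  rw [En_pair hc hd2, xJ_sub_xJ φ hc hd2]
  have h2 := sq_sum_le_card_mul_sum_sq (s := Pcd D r c d)
    (f := fun A => φ A - φ (tau c d A))
  rw [hM c hc d hd2 hd1.symm] at h2
  calc _ ≤ _ := h2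
    _ = _ := by ring

/-- Restricting an ordered pair sum over `D` to a subset. -/
lemma sum_pairs_subset2 {M : Type*} [AddCommMonoid M] {D A : Finset E} (hA : A ⊆ D)
    (G : E → E → M) :
    ∑ c ∈ D, ∑ d ∈ D.erase c, (if c ∈ A ∧ d ∈ A then G c d else 0)
      = ∑ c ∈ A, ∑ d ∈ A.erase c, G c d := by
  rw [← sum_subset hA]
  · refine sum_congr rfl (fun c hc => ?_)
    have h1 : ∀ d ∈ D.erase c, (if c ∈ A ∧ d ∈ A then G c d else 0)
        = if d ∈ A then G c d else 0 := by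
      intro d _; simp [hc]
    rw [sum_congr rfl h1, ← sum_filter]
    refine sum_congr ?_ (fun _ _ => rfl)
    ext d
    simp only [mem_filter, mem_erase]
    constructor
    · rintro ⟨⟨h2, _⟩, h3⟩; exact ⟨h2, h3⟩
    · rintro ⟨h2, h3⟩; exact ⟨⟨h2, hA h3⟩, h3⟩
  · intro c _ hc
    exact sum_eq_zero (fun d _ => by simp [hc])

/-- The pair-sum of a pair weight over a subset. -/
noncomputable def XiJ (w : E → E → ℝ) (A : Finset E) : ℝ := ∑ c ∈ A, ∑ d ∈ A.erase c, w c d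

/-- Exchange between subsets and pairs. -/
lemma sum_mul_Xi (D : Finset E) (r : ℕ) (w : E → E → ℝ) (ψ : Finset E → ℝ) :
    ∑ A ∈ powersetCard r D, ψ A * XiJ w A
      = ∑ c ∈ D, ∑ d ∈ D.erase c, w c d * ∑ A ∈ powersetCard r D,
          if c ∈ A ∧ d ∈ A then ψ A else 0 := by
  have h1 : ∀ A ∈ powersetCard r D, ψ A * XiJ w A = ∑ c ∈ D, ∑ d ∈ D.erase c,
      if c ∈ A ∧ d ∈ A then w c d * ψ A else 0 := by
    intro A hA
    have hA' := (mem_powersetCard.1 hA).1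
    rw [sum_pairs_subset2 hA' (fun c d => w c d * ψ A), XiJ, mul_sum]
    refine sum_congr rfl (fun c _ => ?_)
    rw [mul_sum]
    refine sum_congr rfl (fun d _ => ?_)
    ring
  rw [sum_congr rfl h1, sum_comm]
  refine sum_congr rfl (fun c _ => ?_)
  rw [sum_comm]
  refine sum_congr rfl (fun d _ => ?_)
  rw [mul_sum]
  refine sum_congr rfl (fun A _ => ?_)
  split_ifs <;> simp

/-- Splitting ordered pairs according to a given pair `c, d`. -/
lemma sum_pairs_split {M : Type*} [AddCommMonoid M] {D : Finset E} {c d : E} (hc : c ∈ D)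
    (hd : d ∈ D) (hcd : c ≠ d) (F : E → E → M) :
    ∑ c' ∈ D, ∑ d' ∈ D.erase c', F c' d'
      = F c d + F d c + (∑ e ∈ (D.erase c).erase d, (F c e + F d e + F e c + F e d))
        + ∑ c' ∈ (D.erase c).erase d, ∑ d' ∈ ((D.erase c).erase d).erase c', F c' d' := by
  set D₂ := (D.erase c).erase d with hD₂
  have hd1 : d ∈ D.erase c := mem_erase.2 ⟨hcd.symm, hd⟩
  have hcnot : c ∉ D₂ := by simp [hD₂]
  have hdnot : d ∉ D₂ := by simp [hD₂]
  have hDc : D.erase c = insert d D₂ := (insert_erase hd1).symm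
  have hDd : D.erase d = insert c D₂ := by
    rw [hD₂, erase_right_comm, insert_erase (mem_erase.2 ⟨hcd, hc⟩)]
  have hD : D = insert c (insert d D₂) := by
    rw [← hDc, insert_erase hc]
  have hm : ∀ c' ∈ D₂, D.erase c' = insert c (insert d (D₂.erase c')) := by
    intro c' hc'
    have hc'c : c' ≠ c := fun h => hcnot (h ▸ hc')
    have hc'd : c' ≠ d := fun h => hdnot (h ▸ hc')
    conv_lhs => rw [hD]
    rw [erase_insert_of_ne hc'c.symm, erase_insert_of_ne hc'd.symm]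
  have hnc : c ∉ insert d D₂ := by
    rw [mem_insert]; push Not; exact ⟨hcd, hcnot⟩
  have hnc2 : ∀ c' , c ∉ insert d (D₂.erase c') := by
    intro c'
    rw [mem_insert]; push Not
    exact ⟨hcd, fun h => hcnot (mem_of_mem_erase h)⟩
  have hnd2 : ∀ c', d ∉ D₂.erase c' := fun c' h => hdnot (mem_of_mem_erase h)
  conv_lhs => rw [hD]
  rw [sum_insert hnc, sum_insert hdnot, ← hD, hDc, hDd, sum_insert hdnot, sum_insert hcnot]
  have h3 : ∀ c' ∈ D₂, ∑ d' ∈ D.erase c', F c' d'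
      = F c' c + F c' d + ∑ d' ∈ D₂.erase c', F c' d' := by
    intro c' hc'
    rw [hm c' hc', sum_insert (hnc2 c'), sum_insert (hnd2 c'), add_assoc]
  rw [sum_congr rfl h3, sum_add_distrib, sum_add_distrib, sum_add_distrib, sum_add_distrib,
    sum_add_distrib]
  simp only [add_assoc, add_left_comm, add_comm]

end Vale.Agent.P335
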