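import Vale.Agent.P335.Johnson0

/-! The Johnson coupling lemma: comparing averages over `q`-subsets of `D` and
`(q+1)`-subsets of `D + i + j`. -/

open Finset BigOperators

namespace Vale.Agent.P335

variable {E : Type*} [DecidableEq E]

/-- Splitting the sum over `(q+1)`-subsets of `D + i + j` over `q`-subsets of `D`. -/
lemma sum_coupling {D : Finset E} {i j : E} (hi : i ∉ D) (hj : j ∉ D) (hij : i ≠ j) {q : ℕ}
    (hq : q ≤ D.card) (F : Finset E → ℝ) :
    ∑ A ∈ powersetCard (q + 1) (insert i (insert j D)), F A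
      = ∑ R ∈ powersetCard q D, (F (insert i R) + F (insert j R)
          + (1 / ((q : ℝ) + 1)) * ∑ e ∈ D \ R, F (insert e R)
          + (1 / ((D.card : ℝ) - q + 1)) * ∑ e ∈ R, F (insert i (insert j (R.erase e)))) := by
  have hi' : i ∉ insert j D := by simp [hi, hij]
  rw [sum_powersetCard_insert hi', sum_powersetCard_insert hj]
  have h1 : ∑ R ∈ powersetCard q D, (1 / ((q : ℝ) + 1)) * ∑ e ∈ D \ R, F (insert e R)
      = ∑ A ∈ powersetCard (q + 1) D, F A := by
    rw [← mul_sum, sum_insert_double D q F, nsmul_eq_mul]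
    push_cast
    field_simp
  have hpos : (0 : ℝ) < (D.card : ℝ) - q + 1 := by
    have : (q : ℝ) ≤ D.card := by exact_mod_cast hq
    linarith
  have h2 : ∑ A ∈ powersetCard q (insert j D), F (insert i A)
      = ∑ R ∈ powersetCard q D, F (insert i R)
        + ∑ R ∈ powersetCard q D,
            (1 / ((D.card : ℝ) - q + 1)) * ∑ e ∈ R, F (insert i (insert j (R.erase e))) := by
    cases q with
    | zero =>
      simp
    | succ q =>
      rw [sum_powersetCard_insert hj]
      congr 1
      rw [← mul_sum, sum_erase_double D q (fun B => F (insert i (insert j B))), nsmul_eq_mul]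
      have h3 : ((D.card - q : ℕ) : ℝ) = (D.card : ℝ) - ((q + 1 : ℕ) : ℝ) + 1 := by
        rw [Nat.cast_sub (by omega)]; push_cast; ring
      rw [h3]
      field_simp
  rw [h2, ← h1]
  simp only [sum_add_distrib]
  ring

/-- The coupling lemma for averages. -/
theorem johnson_coupling {D : Finset E} {i j : E} (hi : i ∉ D) (hj : j ∉ D) (hij : i ≠ j) {q : ℕ}
    (hq : q ≤ D.card) (F F₀ : Finset E → ℝ) {δ : ℝ}
    (h1 : ∀ R ∈ powersetCard q D, |F (insert i R) - F₀ R| ≤ δ)
    (h2 : ∀ R ∈ powersetCard q D, |F (insert j R) - F₀ R| ≤ δ)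
    (h3 : ∀ R ∈ powersetCard q D, ∀ e ∈ D \ R, |F (insert e R) - F₀ R| ≤ δ)
    (h4 : ∀ R ∈ powersetCard q D, ∀ e ∈ R,
      |F (insert i (insert j (R.erase e))) - F₀ R| ≤ δ) :
    |(∑ A ∈ powersetCard (q + 1) (insert i (insert j D)), F A)
        / ((powersetCard (q + 1) (insert i (insert j D))).card : ℝ)
      - (∑ R ∈ powersetCard q D, F₀ R) / ((powersetCard q D).card : ℝ)| ≤ δ := by
  have hn : 0 < (powersetCard q D).card := by
    rw [card_powersetCard]; exact Nat.choose_pos hq
  have hnR : (0 : ℝ) < ((powersetCard q D).card : ℝ) := by exact_mod_cast hn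
  have hqm : (q : ℝ) ≤ D.card := by exact_mod_cast hq
  set a₁ : ℝ := 1 / ((q : ℝ) + 1) with ha₁
  set a₂ : ℝ := 1 / ((D.card : ℝ) - q + 1) with ha₂
  have ha₁p : 0 ≤ a₁ := by rw [ha₁]; positivity
  have ha₂p : 0 ≤ a₂ := by
    rw [ha₂]; apply div_nonneg zero_le_one; linarith
  set Wt : ℝ := 2 + a₁ * ((D.card : ℝ) - q) + a₂ * q with hWt
  have hWtpos : 0 < Wt := by
    have h5 : 0 ≤ a₁ * ((D.card : ℝ) - q) := mul_nonneg ha₁p (by linarith)
    have h6 : 0 ≤ a₂ * (q : ℝ) := mul_nonneg ha₂p (by positivity)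
    rw [hWt]; linarith
  have hcard : ((powersetCard (q + 1) (insert i (insert j D))).card : ℝ)
      = ((powersetCard q D).card : ℝ) * Wt := by
    have h5 := sum_coupling hi hj hij hq (fun _ => (1 : ℝ))
    simp only [sum_const, nsmul_eq_mul, mul_one] at h5
    rw [h5]
    have h6 : ∀ R ∈ powersetCard q D, ((1 : ℝ) + 1 + a₁ * ((D \ R).card : ℝ) + a₂ * (R.card : ℝ))
        = Wt := by
      intro R hR
      rw [card_sdiff_of_mem_powersetCard hR, (mem_powersetCard.1 hR).2, Nat.cast_sub hq, hWt]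
      ring
    rw [sum_congr rfl h6, sum_const, nsmul_eq_mul]
  have hn' : (0 : ℝ) < ((powersetCard (q + 1) (insert i (insert j D))).card : ℝ) := by
    rw [hcard]; positivity
  have hdiff : (∑ A ∈ powersetCard (q + 1) (insert i (insert j D)), F A)
        / ((powersetCard (q + 1) (insert i (insert j D))).card : ℝ)
      - (∑ R ∈ powersetCard q D, F₀ R) / ((powersetCard q D).card : ℝ)
      = (∑ R ∈ powersetCard q D, ((F (insert i R) - F₀ R) + (F (insert j R) - F₀ R)
          + a₁ * ∑ e ∈ D \ R, (F (insert e R) - F₀ R)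
          + a₂ * ∑ e ∈ R, (F (insert i (insert j (R.erase e))) - F₀ R)))
        / ((powersetCard (q + 1) (insert i (insert j D))).card : ℝ) := by
    have h7 : ∀ R ∈ powersetCard q D, ((F (insert i R) - F₀ R) + (F (insert j R) - F₀ R)
          + a₁ * ∑ e ∈ D \ R, (F (insert e R) - F₀ R)
          + a₂ * ∑ e ∈ R, (F (insert i (insert j (R.erase e))) - F₀ R))
        = (F (insert i R) + F (insert j R) + a₁ * ∑ e ∈ D \ R, F (insert e R)
            + a₂ * ∑ e ∈ R, F (insert i (insert j (R.erase e)))) - Wt * F₀ R := by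
      intro R hR
      rw [sum_sub_distrib, sum_sub_distrib, sum_const, sum_const,
        card_sdiff_of_mem_powersetCard hR, (mem_powersetCard.1 hR).2, nsmul_eq_mul, nsmul_eq_mul,
        Nat.cast_sub hq, hWt]
      ring
    rw [sum_congr rfl h7, sum_sub_distrib, ← mul_sum, ← sum_coupling hi hj hij hq F, hcard]
    field_simp
  rw [hdiff, abs_div, abs_of_pos hn', div_le_iff₀ hn', hcard]
  calc _ ≤ ∑ R ∈ powersetCard q D, |((F (insert i R) - F₀ R) + (F (insert j R) - F₀ R)
          + a₁ * ∑ e ∈ D \ R, (F (insert e R) - F₀ R)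
          + a₂ * ∑ e ∈ R, (F (insert i (insert j (R.erase e))) - F₀ R))| :=
        abs_sum_le_sum_abs _ _
    _ ≤ ∑ _R ∈ powersetCard q D, Wt * δ := by
        refine sum_le_sum (fun R hR => ?_)
        have h8 : |∑ e ∈ D \ R, (F (insert e R) - F₀ R)| ≤ ((D.card : ℝ) - q) * δ := by
          refine (abs_sum_le_sum_abs _ _).trans ?_
          refine (sum_le_sum (h3 R hR)).trans ?_
          rw [sum_const, card_sdiff_of_mem_powersetCard hR, nsmul_eq_mul, Nat.cast_sub hq]
        have h9 : |∑ e ∈ R, (F (insert i (insert j (R.erase e))) - F₀ R)| ≤ (q : ℝ) * δ := by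
          refine (abs_sum_le_sum_abs _ _).trans ?_
          refine (sum_le_sum (h4 R hR)).trans ?_
          rw [sum_const, (mem_powersetCard.1 hR).2, nsmul_eq_mul]
        have h10 := h1 R hR
        have h11 := h2 R hR
        have h12 : |a₁ * ∑ e ∈ D \ R, (F (insert e R) - F₀ R)| ≤ a₁ * (((D.card : ℝ) - q) * δ) := by
          rw [abs_mul, abs_of_nonneg ha₁p]
          exact mul_le_mul_of_nonneg_left h8 ha₁p
        have h13 : |a₂ * ∑ e ∈ R, (F (insert i (insert j (R.erase e))) - F₀ R)|
            ≤ a₂ * ((q : ℝ) * δ) := by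
          rw [abs_mul, abs_of_nonneg ha₂p]
          exact mul_le_mul_of_nonneg_left h9 ha₂p
        rw [hWt, abs_le]
        have h14 := abs_le.1 h10
        have h15 := abs_le.1 h11
        have h16 := abs_le.1 h12
        have h17 := abs_le.1 h13
        constructor
        · linarith [h14.1, h15.1, h16.1, h17.1]
        · linarith [h14.2, h15.2, h16.2, h17.2]
    _ = _ := by
        rw [sum_const, nsmul_eq_mul]
        ring

end Vale.Agent.P335
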