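import Vale.Agent.P335.GraphJohnson2
import Vale.Agent.P335.GraphTriple3
import Vale.Agent.P335.Connect
import Vale.Agent.P335.Spec

/-! The square of the pair operator: expansion and lower bound. -/

set_option linter.unusedSectionVars false

open Finset BigOperators

namespace Vale.Agent.P335

variable {V : Type*} [Fintype V] [DecidableEq V] {d : V → ℕ}

instance (a b c : V) : Decidable (Dist3 a b c) :=
  decidable_of_iff (a ≠ b ∧ a ≠ c ∧ b ≠ c) ⟨fun h => ⟨h.1, h.2.1, h.2.2⟩, fun h => ⟨h.ab, h.ac, h.bc⟩⟩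

instance (a b c e : V) : Decidable (Dist4 a b c e) :=
  decidable_of_iff (a ≠ b ∧ a ≠ c ∧ a ≠ e ∧ b ≠ c ∧ b ≠ e ∧ c ≠ e)
    ⟨fun h => ⟨h.1, h.2.1, h.2.2.1, h.2.2.2.1, h.2.2.2.2.1, h.2.2.2.2.2⟩,
     fun h => ⟨h.ab, h.ac, h.ae, h.bc, h.be, h.ce⟩⟩

/-- Energy of the flip. -/
noncomputable def Sq (f : Om d → ℝ) (a b c e : V) : ℝ :=
  ∑ G, (1 / 4 : ℝ) * (f G - f (sw4 a b c e G)) ^ 2

/-- Energy of the averages over centres. -/
noncomputable def Xq (f : Om d → ℝ) (a b c e : V) : ℝ :=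
  xt (centerF a b c e) (key {a, b}) (Pp a b f)

/-- The sum of the norms of all the defects. -/
noncomputable def E2 (f : Om d → ℝ) : ℝ :=
  ∑ a, ∑ b, if a ≠ b then ip (Pp a b f) (Pp a b f) else 0

/-- The sum of all the defects. -/
noncomputable def Qf (f : Om d → ℝ) : Om d → ℝ :=
  ∑ a, ∑ b, if a ≠ b then Pp a b f else 0

/-- The total flip energy. -/
noncomputable def EE (f : Om d → ℝ) : ℝ :=
  ∑ a, ∑ b, ∑ c, ∑ e, if Dist4 a b c e then Sq f a b c e else 0

lemma sum_three_split {a b : V} (hab : a ≠ b) (g : V → ℝ) :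
    ∑ c, g c = g a + g b + ∑ c, if c ≠ a ∧ c ≠ b then g c else 0 := by
  have h1 : ∀ c, g c = (if c = a then g c else 0) + (if c = b then g c else 0)
      + (if c ≠ a ∧ c ≠ b then g c else 0) := by
    intro c
    by_cases h2 : c = a
    · subst h2; simp [hab]
    · by_cases h3 : c = b
      · subst h3; simp [h2]
      · simp [h2, h3]
  conv_lhs => rw [sum_congr rfl (fun c _ => h1 c)]
  rw [sum_add_distrib, sum_add_distrib]
  simp

/-- Splitting a double sum over ordered pairs relative to the pair `a, b`. -/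
lemma pairs_split {a b : V} (hab : a ≠ b) (h : V → V → ℝ) (hsym : ∀ c e, h c e = h e c) :
    ∑ c, ∑ e, (if c ≠ e then h c e else 0)
      = 2 * h a b + 2 * (∑ x, if x ≠ a ∧ x ≠ b then h a x else 0)
        + 2 * (∑ x, if x ≠ a ∧ x ≠ b then h b x else 0)
        + ∑ c, ∑ e, if Dist4 a b c e then h c e else 0 := by
  rw [sum_three_split hab]
  have h1 : ∑ e, (if a ≠ e then h a e else 0)
      = h a b + ∑ x, if x ≠ a ∧ x ≠ b then h a x else 0 := by
    rw [sum_three_split hab]
    simp only [ne_eq, not_true_eq_false, if_false, hab, not_false_eq_true, if_true, zero_add]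
    congr 1
    refine sum_congr rfl (fun x _ => ?_)
    by_cases h2 : x = a
    · simp [h2]
    · have : ¬ a = x := fun h => h2 h.symm
      simp [this]
  have h2 : ∑ e, (if b ≠ e then h b e else 0)
      = h a b + ∑ x, if x ≠ a ∧ x ≠ b then h b x else 0 := by
    rw [sum_three_split hab]
    simp only [ne_eq, not_true_eq_false, if_false, hab.symm, not_false_eq_true, if_true, add_zero]
    rw [hsym b a]
    congr 1
    refine sum_congr rfl (fun x _ => ?_)
    by_cases h2 : x = b
    · simp [h2]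
    · have : ¬ b = x := fun h => h2 h.symm
      simp [this]
  have h3 : ∀ c, (if c ≠ a ∧ c ≠ b then ∑ e, (if c ≠ e then h c e else 0) else 0)
      = (if c ≠ a ∧ c ≠ b then h a c else 0) + (if c ≠ a ∧ c ≠ b then h b c else 0)
        + ∑ e, if Dist4 a b c e then h c e else 0 := by
    intro c
    by_cases hc : c ≠ a ∧ c ≠ b
    · rw [if_pos hc, if_pos hc, if_pos hc, sum_three_split hab]
      simp only [hc.1, hc.2, ne_eq, not_false_eq_true, if_true]
      rw [hsym c a, hsym c b]
      congr 1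
      refine sum_congr rfl (fun e _ => ?_)
      by_cases he : e ≠ a ∧ e ≠ b
      · rw [if_pos he]
        by_cases hce : c = e
        · subst hce
          have : ¬ Dist4 a b c c := fun hd => hd.ce rfl
          simp [this]
        · have : Dist4 a b c e := ⟨hab, hc.1.symm, he.1.symm, hc.2.symm, he.2.symm, hce⟩
          simp [hce, this]
      · have : ¬ Dist4 a b c e := fun hd => he ⟨hd.ae.symm, hd.be.symm⟩
        simp only [he, this, if_false]
    · have h4 : ∀ e, ¬ Dist4 a b c e := fun e hd => hc ⟨hd.ac.symm, hd.bc.symm⟩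
      simp [hc, h4]
  rw [h1, h2, sum_congr rfl (fun c _ => h3 c), sum_add_distrib, sum_add_distrib]
  ring

lemma ip_Qf_right (f g : Om d → ℝ) :
    ip g (Qf f) = ∑ c, ∑ e, if c ≠ e then ip g (Pp c e f) else 0 := by
  unfold Qf
  rw [ip_sum_right]
  refine sum_congr rfl (fun c _ => ?_)
  rw [ip_sum_right]
  refine sum_congr rfl (fun e _ => ?_)
  split_ifs
  · rfl
  · exact ip_zero_right _

lemma ip_Qf_left (f g : Om d → ℝ) :
    ip (Qf f) g = ∑ c, ∑ e, if c ≠ e then ip (Pp c e f) g else 0 := by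
  rw [ip_comm, ip_Qf_right]
  refine sum_congr rfl (fun c _ => sum_congr rfl (fun e _ => ?_))
  rw [ip_comm]

/-- The three sums over triples. -/
noncomputable def O1 (f : Om d → ℝ) : ℝ :=
  ∑ a, ∑ b, ∑ x, if Dist3 a b x then ip (Pp a b f) (Pp a x f) else 0

noncomputable def O2 (f : Om d → ℝ) : ℝ :=
  ∑ a, ∑ b, ∑ x, if Dist3 a b x then ip (Pp a b f) (Pp b x f) else 0

noncomputable def O3 (f : Om d → ℝ) : ℝ :=
  ∑ a, ∑ b, ∑ x, if Dist3 a b x then ip (Pp a x f) (Pp b x f) else 0

/-- The sum over disjoint pairs. -/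
noncomputable def D4s (f : Om d → ℝ) : ℝ :=
  ∑ a, ∑ b, ∑ c, ∑ e, if Dist4 a b c e then ip (Pp a b f) (Pp c e f) else 0

/-- Expansion of the square. -/
theorem Qf_sq (f : Om d → ℝ) :
    ip (Qf f) (Qf f) = 2 * E2 f + 2 * (O1 f + O2 f) + D4s f := by
  rw [ip_Qf_left]
  have h1 : ∀ a b : V, (if a ≠ b then ip (Pp a b f) (Qf f) else 0)
      = 2 * (if a ≠ b then ip (Pp a b f) (Pp a b f) else 0)
        + 2 * ((∑ x, if Dist3 a b x then ip (Pp a b f) (Pp a x f) else 0)
            + (∑ x, if Dist3 a b x then ip (Pp a b f) (Pp b x f) else 0))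
        + ∑ c, ∑ e, if Dist4 a b c e then ip (Pp a b f) (Pp c e f) else 0 := by
    intro a b
    by_cases hab : a = b
    · subst hab
      have n1 : ∀ x, ¬ Dist3 a a x := fun x h => h.ab rfl
      have n2 : ∀ c e, ¬ Dist4 a a c e := fun c e h => h.ab rfl
      simp [n1, n2]
    · rw [if_pos hab, if_pos hab, ip_Qf_right,
        pairs_split hab (fun c e => ip (Pp a b f) (Pp c e f))
          (fun c e => by simp only [Pp_comm c e])]
      have e1 : ∀ x, (if x ≠ a ∧ x ≠ b then ip (Pp a b f) (Pp a x f) else 0)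
          = if Dist3 a b x then ip (Pp a b f) (Pp a x f) else 0 := by
        intro x
        by_cases hx : x ≠ a ∧ x ≠ b
        · have : Dist3 a b x := ⟨hab, hx.1.symm, hx.2.symm⟩
          rw [if_pos hx, if_pos this]
        · have : ¬ Dist3 a b x := fun h => hx ⟨h.ac.symm, h.bc.symm⟩
          rw [if_neg hx, if_neg this]
      have e2 : ∀ x, (if x ≠ a ∧ x ≠ b then ip (Pp a b f) (Pp b x f) else 0)
          = if Dist3 a b x then ip (Pp a b f) (Pp b x f) else 0 := by
        intro x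
        by_cases hx : x ≠ a ∧ x ≠ b
        · have : Dist3 a b x := ⟨hab, hx.1.symm, hx.2.symm⟩
          rw [if_pos hx, if_pos this]
        · have : ¬ Dist3 a b x := fun h => hx ⟨h.ac.symm, h.bc.symm⟩
          rw [if_neg hx, if_neg this]
      simp only [e1, e2]
      ring
  simp only [h1, sum_add_distrib, ← mul_sum]
  unfold E2 O1 O2 D4s
  ring

lemma O2_eq (f : Om d → ℝ) : O2 f = O1 f := by
  unfold O1 O2
  rw [sum_comm]
  refine sum_congr rfl (fun a _ => sum_congr rfl (fun b _ => sum_congr rfl (fun x _ => ?_)))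
  by_cases h : Dist3 a b x
  · have h' : Dist3 b a x := ⟨h.ab.symm, h.bc, h.ac⟩
    rw [if_pos h, if_pos h', Pp_comm b a]
  · have h' : ¬ Dist3 b a x := fun h2 => h ⟨h2.ab.symm, h2.bc, h2.ac⟩
    rw [if_neg h, if_neg h']

lemma sum3_rot {M : Type*} [AddCommMonoid M] (F : V → V → V → M) :
    ∑ a, ∑ b, ∑ x, F a b x = ∑ a, ∑ b, ∑ x, F x a b := by
  calc ∑ a, ∑ b, ∑ x, F a b x = ∑ b, ∑ a, ∑ x, F a b x := sum_comm
    _ = ∑ b, ∑ x, ∑ a, F a b x := sum_congr rfl (fun _ _ => sum_comm)

lemma O3_eq (f : Om d → ℝ) : O3 f = O1 f := by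
  unfold O1 O3
  conv_rhs => rw [sum3_rot]
  refine sum_congr rfl (fun a _ => sum_congr rfl (fun b _ => sum_congr rfl (fun x _ => ?_)))
  by_cases h : Dist3 a b x
  · have h' : Dist3 x a b := ⟨h.ac.symm, h.bc.symm, h.ab⟩
    rw [if_pos h, if_pos h', Pp_comm a x, Pp_comm b x]
  · have h' : ¬ Dist3 x a b := fun h2 => h ⟨h2.bc, h2.ab.symm, h2.ac.symm⟩
    rw [if_neg h, if_neg h']

lemma O_nonneg (f : Om d → ℝ) : 0 ≤ O1 f + O2 f := by
  have h1 : 0 ≤ O1 f + O2 f + O3 f := by
    unfold O1 O2 O3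
    simp only [← sum_add_distrib]
    refine sum_nonneg (fun a _ => sum_nonneg (fun b _ => sum_nonneg (fun x _ => ?_)))
    by_cases h : Dist3 a b x
    · simp only [if_pos h]
      exact T_nonneg h f
    · simp [h]
  rw [O2_eq, O3_eq] at h1
  rw [O2_eq]
  linarith

lemma sum4_swap {M : Type*} [AddCommMonoid M] (F : V → V → V → V → M) :
    ∑ a, ∑ b, ∑ c, ∑ e, F a b c e = ∑ a, ∑ b, ∑ c, ∑ e, F c e a b := by
  calc ∑ a, ∑ b, ∑ c, ∑ e, F a b c e
      = ∑ a, ∑ c, ∑ b, ∑ e, F a b c e := sum_congr rfl (fun a _ => sum_comm)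
    _ = ∑ c, ∑ a, ∑ b, ∑ e, F a b c e := sum_comm
    _ = ∑ c, ∑ a, ∑ e, ∑ b, F a b c e :=
        sum_congr rfl (fun c _ => sum_congr rfl (fun a _ => sum_comm))
    _ = ∑ c, ∑ e, ∑ a, ∑ b, F a b c e := sum_congr rfl (fun c _ => sum_comm)

/-- Conversion from sums over the vertices other than `a, b` to sums with indicators. -/
lemma sum_W_ite {a b : V} (hab : a ≠ b) (g : V → V → ℝ) :
    ∑ c ∈ WJ a b, ∑ e ∈ (WJ a b).erase c, g c e = ∑ c, ∑ e, if Dist4 a b c e then g c e else 0 := by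
  have h1 : ∀ c ∈ WJ a b, ∑ e ∈ (WJ a b).erase c, g c e
      = ∑ e, if Dist4 a b c e then g c e else 0 := by
    intro c hc
    rw [← sum_filter]
    refine sum_congr ?_ (fun _ _ => rfl)
    ext e
    have hc' := mem_WJ.1 hc
    simp only [mem_erase, mem_WJ, mem_filter, mem_univ, true_and]
    constructor
    · rintro ⟨h2, h3, h4⟩
      exact ⟨hab, hc'.1.symm, h3.symm, hc'.2.symm, h4.symm, h2.symm⟩
    · intro h
      exact ⟨h.ce.symm, h.ae.symm, h.be.symm⟩
  rw [sum_congr rfl h1]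
  refine sum_subset (subset_univ _) (fun c _ hc => ?_)
  refine sum_eq_zero (fun e _ => ?_)
  have : ¬ Dist4 a b c e := fun h => hc (mem_WJ.2 ⟨h.ac.symm, h.bc.symm⟩)
  rw [if_neg this]

/-- Lower bound for the sum over disjoint pairs. -/
theorem D4_ge (f : Om d → ℝ) : -(3 / 2) * E2 f ≤ D4s f := by
  have h1 : ∑ a, ∑ b, ∑ c, ∑ e, (if Dist4 a b c e then Sq f a b c e - (1 / 2) * Xq f a b c e
        - (1 / 2) * Xq f c e a b else 0) ≤ D4s f := by
    unfold D4s
    refine sum_le_sum (fun a _ => sum_le_sum (fun b _ => sum_le_sum (fun c _ =>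
      sum_le_sum (fun e _ => ?_))))
    by_cases h : Dist4 a b c e
    · rw [if_pos h, if_pos h]
      have := quad_graph h f
      unfold Sq Xq
      rw [← centerF_symm (a := a) (b := b) (c := c) (e := e)]
      exact this
    · rw [if_neg h, if_neg h]
  have h2 : ∑ a, ∑ b, ∑ c, ∑ e, (if Dist4 a b c e then Xq f c e a b else 0)
      = ∑ a, ∑ b, ∑ c, ∑ e, (if Dist4 a b c e then Xq f a b c e else 0) := by
    rw [sum4_swap]
    refine sum_congr rfl (fun a _ => sum_congr rfl (fun b _ => sum_congr rfl (fun c _ =>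
      sum_congr rfl (fun e _ => ?_))))
    by_cases h : Dist4 a b c e
    · have h' := h.swap12
      rw [if_pos h, if_pos h']
    · have h' : ¬ Dist4 c e a b := fun h2 => h h2.swap12
      rw [if_neg h, if_neg h']
  have h3 : ∑ a, ∑ b, ∑ c, ∑ e, (if Dist4 a b c e then Sq f a b c e - (1 / 2) * Xq f a b c e
        - (1 / 2) * Xq f c e a b else 0)
      = ∑ a, ∑ b, ∑ c, ∑ e, (if Dist4 a b c e then Sq f a b c e - Xq f a b c e else 0) := by
    have e1 : ∀ a b c e : V, (if Dist4 a b c e then Sq f a b c e - (1 / 2) * Xq f a b c e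
        - (1 / 2) * Xq f c e a b else 0)
        = (if Dist4 a b c e then Sq f a b c e else 0)
          - (1 / 2) * (if Dist4 a b c e then Xq f a b c e else 0)
          - (1 / 2) * (if Dist4 a b c e then Xq f c e a b else 0) := by
      intro a b c e
      split_ifs <;> ring
    have e2 : ∀ a b c e : V, (if Dist4 a b c e then Sq f a b c e - Xq f a b c e else 0)
        = (if Dist4 a b c e then Sq f a b c e else 0)
          - (if Dist4 a b c e then Xq f a b c e else 0) := by
      intro a b c e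
      split_ifs <;> ring
    simp only [e1, e2, sum_sub_distrib, ← mul_sum]
    rw [h2]
    ring
  rw [h3] at h1
  refine le_trans ?_ h1
  unfold E2
  rw [mul_sum]
  refine sum_le_sum (fun a _ => ?_)
  rw [mul_sum]
  refine sum_le_sum (fun b _ => ?_)
  by_cases hab : a = b
  · subst hab
    have n2 : ∀ c e, ¬ Dist4 a a c e := fun c e h => h.ab rfl
    simp [n2]
  · rw [if_pos hab, ← sum_W_ite hab]
    exact (J_graph hab f).2

/-- Lower bound for the total flip energy. -/
theorem EE_ge (f : Om d → ℝ) : 2 * E2 f ≤ EE f := by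
  unfold E2 EE
  rw [mul_sum]
  refine sum_le_sum (fun a _ => ?_)
  rw [mul_sum]
  refine sum_le_sum (fun b _ => ?_)
  by_cases hab : a = b
  · subst hab
    have n2 : ∀ c e, ¬ Dist4 a a c e := fun c e h => h.ab rfl
    simp [n2]
  · rw [if_pos hab, ← sum_W_ite hab]
    exact (J_graph hab f).1

/-- The bound on the square. -/
theorem Qf_sq_ge (f : Om d → ℝ) : (1 / 2) * E2 f ≤ ip (Qf f) (Qf f) := by
  rw [Qf_sq]
  have h1 := O_nonneg f
  have h2 := D4_ge f
  linarith

end Vale.Agent.P335
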