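import Vale.Agent.P335.Bridge5

/-! From the contraction estimate to the mixing time. -/

set_option linter.unusedSectionVars false

open Finset BigOperators

namespace Vale.Agent.P335

section Abstract

variable {X : Type*} [Fintype X] [DecidableEq X] {Pm' : X → X → ℝ}

/-- The L² estimate for the distance to uniform. -/
theorem mix_abs (hsym : ∀ x y, Pm' x y = Pm' y x) (hrow : ∀ x, ∑ y, Pm' x y = 1) {c : ℝ}
    (hc0 : 0 ≤ c)
    (hcontr : ∀ g : X → ℝ, ∑ x, g x = 0 → ∑ x, (∑ y, Pm' x y * g y) ^ 2 ≤ c * ∑ x, (g x) ^ 2)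
    (x₀ : X) (D : ℕ → X → ℝ) (h0 : ∀ y, D 0 y = if y = x₀ then 1 else 0)
    (hs : ∀ t y, D (t + 1) y = ∑ z, D t z * Pm' z y) (t : ℕ) :
    (∑ y, |D t y - 1 / (Fintype.card X : ℝ)|) ^ 2 ≤ (Fintype.card X : ℝ) * c ^ t := by
  have hN : (0 : ℝ) < (Fintype.card X : ℝ) := by
    have : 0 < Fintype.card X := Fintype.card_pos_iff.2 ⟨x₀⟩
    exact_mod_cast this
  set N : ℝ := (Fintype.card X : ℝ) with hNd
  have hmass : ∀ t, ∑ y, D t y = 1 := by
    intro t
    induction t with
    | zero => simp [h0]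
    | succ t ih =>
      simp only [hs]
      rw [sum_comm]
      simp only [← mul_sum, hrow, mul_one]
      exact ih
  set h : ℕ → X → ℝ := fun t y => D t y - 1 / N with hh
  have hmean : ∀ t, ∑ y, h t y = 0 := by
    intro t
    simp only [hh, sum_sub_distrib, hmass, sum_const, card_univ, nsmul_eq_mul]
    rw [← hNd]
    field_simp
    ring
  have hstep : ∀ t y, h (t + 1) y = ∑ z, Pm' y z * h t z := by
    intro t y
    simp only [hh, mul_sub, sum_sub_distrib, ← sum_mul, hrow, hs]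
    rw [sum_congr rfl (fun z _ => by rw [mul_comm, hsym z y])]
    ring
  have hnorm : ∀ t, ∑ y, (h t y) ^ 2 ≤ c ^ t := by
    intro t
    induction t with
    | zero =>
      have h1 : ∑ y, (h 0 y) ^ 2 = 1 - 1 / N := by
        have h2 : ∀ y, (h 0 y) ^ 2 = (if y = x₀ then 1 - 2 / N else 0) + 1 / N ^ 2 := by
          intro y
          simp only [hh, h0]
          by_cases hy : y = x₀
          · simp only [hy, if_true]
            field_simp
            ring
          · simp only [hy, if_false]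
            field_simp
            ring
        rw [sum_congr rfl (fun y _ => h2 y), sum_add_distrib, sum_ite_eq']
        simp only [mem_univ, if_true, sum_const, card_univ, nsmul_eq_mul]
        rw [← hNd]
        field_simp
        ring
      rw [h1, pow_zero]
      have : 0 < 1 / N := by positivity
      linarith
    | succ t ih =>
      have h1 := hcontr (h t) (hmean t)
      simp only [← hstep] at h1
      calc ∑ y, (h (t + 1) y) ^ 2 ≤ c * ∑ y, (h t y) ^ 2 := h1
        _ ≤ c * c ^ t := mul_le_mul_of_nonneg_left ih hc0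
        _ = c ^ (t + 1) := by ring
  have h1 := sq_sum_le_card_mul_sum_sq (s := (univ : Finset X)) (f := fun y => |h t y|)
  simp only [sq_abs, card_univ] at h1
  calc (∑ y, |D t y - 1 / N|) ^ 2 ≤ N * ∑ y, (h t y) ^ 2 := h1
    _ ≤ N * c ^ t := mul_le_mul_of_nonneg_left (hnorm t) hN.le

end Abstract

/-- Arithmetic of the mixing time bound. -/
lemma arith_bound {n : ℕ} (hn : 4 ≤ n) : 48 * n.choose 4 * (n.choose 2 + 2) ≤ n ^ 6 := by
  obtain ⟨m, rfl⟩ : ∃ m, n = m + 4 := ⟨n - 4, by omega⟩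
  have h4 : 24 * (m + 4).choose 4 = (m + 1) * (m + 2) * (m + 3) * (m + 4) := by
    have := Nat.descFactorial_eq_factorial_mul_choose (m + 4) 4
    have h5 : (m + 4).descFactorial 4 = (m + 1) * (m + 2) * (m + 3) * (m + 4) := by
      simp only [Nat.descFactorial]
      have e1 : m + 4 - 3 = m + 1 := by omega
      have e2 : m + 4 - 2 = m + 2 := by omega
      have e3 : m + 4 - 1 = m + 3 := by omega
      have e4 : m + 4 - 0 = m + 4 := by omega
      rw [e1, e2, e3, e4]
      ring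
    rw [h5] at this
    rw [this]
    rfl
  have h2 : 2 * (m + 4).choose 2 = (m + 3) * (m + 4) := by
    have := Nat.descFactorial_eq_factorial_mul_choose (m + 4) 2
    have h5 : (m + 4).descFactorial 2 = (m + 3) * (m + 4) := by
      simp only [Nat.descFactorial]
      have e3 : m + 4 - 1 = m + 3 := by omega
      have e4 : m + 4 - 0 = m + 4 := by omega
      rw [e3, e4]
      ring
    rw [h5] at this
    rw [this]
    rfl
  have h3 : 48 * (m + 4).choose 4 * ((m + 4).choose 2 + 2)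
      = (24 * (m + 4).choose 4) * (2 * (m + 4).choose 2 + 4) := by ring
  rw [h3, h4, h2]
  have h6 : (m + 4) ^ 6 = (m + 1) * (m + 2) * (m + 3) * (m + 4) * ((m + 3) * (m + 4) + 4)
      + (m + 4) * (7 * m ^ 4 + 91 * m ^ 3 + 461 * m ^ 2 + 1062 * m + 928) := by ring
  rw [h6]
  exact Nat.le_add_right _ _

/-- The numerical estimate. -/
theorem numeric {n : ℕ} (hn : 4 ≤ n) {t : ℕ} (ht : n ^ 6 ≤ t) :
    (2 : ℝ) ^ (n.choose 2) * (1 - 1 / (48 * ((n.choose 4 : ℕ) : ℝ))) ^ t ≤ 1 / 4 := by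
  have hCn : 0 < n.choose 4 := Nat.choose_pos hn
  set Lnat : ℕ := 48 * n.choose 4 with hLnat
  have hLpos : 0 < Lnat := by positivity
  have hL : (48 * ((n.choose 4 : ℕ) : ℝ)) = (Lnat : ℝ) := by
    rw [hLnat]; push_cast; ring
  rw [hL]
  have hLr : (1 : ℝ) ≤ (Lnat : ℝ) := by exact_mod_cast hLpos
  have hb0 : 0 ≤ 1 - 1 / (Lnat : ℝ) := by
    rw [sub_nonneg, div_le_one (by linarith)]
    exact hLr
  have hb1 : 1 - 1 / (Lnat : ℝ) ≤ 1 := by
    have : 0 < 1 / (Lnat : ℝ) := by positivity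
    linarith
  set K : ℕ := n.choose 2 + 2 with hK
  have hle : Lnat * K ≤ t := le_trans (arith_bound hn) ht
  have h1 : (1 - 1 / (Lnat : ℝ)) ^ t ≤ (1 - 1 / (Lnat : ℝ)) ^ (Lnat * K) :=
    pow_le_pow_of_le_one hb0 hb1 hle
  have h2 : (1 - 1 / (Lnat : ℝ)) ^ Lnat ≤ 1 / 2 := by
    have h3 := Real.one_sub_div_pow_le_exp_neg (n := Lnat) (t := 1) hLr
    have h4 : Real.exp (-1) ≤ 1 / 2 := by
      rw [Real.exp_neg, one_div]
      have h5 := Real.add_one_le_exp (1 : ℝ)
      apply inv_anti₀ (by norm_num)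
      linarith
    exact le_trans h3 h4
  have h3 : (1 - 1 / (Lnat : ℝ)) ^ (Lnat * K) ≤ (1 / 2 : ℝ) ^ K := by
    rw [pow_mul]
    exact pow_le_pow_left₀ (pow_nonneg hb0 _) h2 K
  calc (2 : ℝ) ^ (n.choose 2) * (1 - 1 / (Lnat : ℝ)) ^ t
      ≤ (2 : ℝ) ^ (n.choose 2) * (1 / 2 : ℝ) ^ K :=
        mul_le_mul_of_nonneg_left (le_trans h1 h3) (by positivity)
    _ = 1 / 4 := by
        rw [hK, pow_add]
        have : (2 : ℝ) ^ (n.choose 2) * (1 / 2 : ℝ) ^ (n.choose 2) = 1 := by
          rw [← mul_pow]; norm_num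
        calc (2 : ℝ) ^ (n.choose 2) * ((1 / 2 : ℝ) ^ (n.choose 2) * (1 / 2 : ℝ) ^ 2)
            = ((2 : ℝ) ^ (n.choose 2) * (1 / 2 : ℝ) ^ (n.choose 2)) * (1 / 2 : ℝ) ^ 2 := by ring
          _ = 1 / 4 := by rw [this]; norm_num

variable {n : ℕ} {d : Fin n → ℕ}

/-- Total variation bound from every start. -/
theorem tv_bound (hn : 4 ≤ n) {t : ℕ} (ht : n ^ 6 ≤ t) {G₀ : EdgeSet n} (hG₀ : G₀ ∈ Omega d) :
    tvToUniform d G₀ t ≤ 1 / 4 := by
  classical
  obtain ⟨x₀, rfl⟩ := exists_psi hG₀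
  have hCpos := choose_pos' hn
  have hc0 : 0 ≤ 1 - 1 / (48 * ((n.choose 4 : ℕ) : ℝ)) := by
    rw [sub_nonneg, div_le_one (by positivity)]
    have : (1 : ℝ) ≤ ((n.choose 4 : ℕ) : ℝ) := by exact_mod_cast Nat.choose_pos hn
    linarith
  have hmain := mix_abs (Pm' := (Pm : Om d → Om d → ℝ)) (Pm_symm hn) (Pm_row hn) hc0
    (fun g hg => contract hn g hg) x₀ (fun t y => walk d (psi x₀) t (psi y))
    (fun y => by
      show walk d (psi x₀) 0 (psi y) = _
      rw [walk]
      by_cases h : y = x₀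
      · simp [h]
      · have : psi y ≠ psi x₀ := fun h2 => h (psi_inj h2)
        simp [h, this])
    (fun t y => by
      show walk d (psi x₀) (t + 1) (psi y) = _
      rw [walk, sum_Omega]
      rfl)
    t
  unfold tvToUniform
  rw [sum_Omega, card_Omega]
  set A := ∑ y : Om d, |walk d (psi x₀) t (psi y) - 1 / (Fintype.card (Om d) : ℝ)| with hA
  have hA0 : 0 ≤ A := sum_nonneg (fun _ _ => abs_nonneg _)
  have h1 : (Fintype.card (Om d) : ℝ) ≤ 2 ^ (n.choose 2) := by
    rw [← card_Omega]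
    exact_mod_cast card_Omega_le
  have h2 : A ^ 2 ≤ 1 / 4 := by
    refine le_trans hmain ?_
    refine le_trans (mul_le_mul_of_nonneg_right h1 (pow_nonneg hc0 _)) ?_
    exact numeric hn ht
  have h3 : A ≤ 1 / 2 := by
    by_contra hcon
    push Not at hcon
    nlinarith
  linarith

/-- The mixing time bound. -/
theorem tmix_bound (hn : 4 ≤ n) (d : Fin n → ℕ) : tmix d ≤ n ^ 6 :=
  Nat.sInf_le (fun _ hG₀ => tv_bound hn le_rfl hG₀)

end Vale.Agent.P335
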