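import Vale.Agent.P335.Cnd

/-! The abstract lemma on two keys with a gluing structure. -/

set_option linter.unusedSectionVars false

open Finset BigOperators

namespace Vale.Agent.P335

variable {α βA βB βX Bl : Type*} [Fintype α]

open Classical in
/-- Energy of the conditional averages on the subset `C`, with respect to the key `k`. -/
noncomputable def xt {β : Type*} (C : Finset α) (k : α → β) (φ : α → ℝ) : ℝ :=
  ip (cnd (fun x : {x // x ∈ C} => k x.1) (fun x => φ x.1))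
    (cnd (fun x : {x // x ∈ C} => k x.1) (fun x => φ x.1))

/-- Gluing hypotheses for two keys over a common coarser key `kX`. -/
structure Glue (kA : α → βA) (kB : α → βB) (kX : α → βX) (B : α → Bl) (ρ γ : Bl → ℕ) : Prop where
  hAX : ∀ x y, kA x = kA y → kX x = kX y
  hBX : ∀ x y, kB x = kB y → kX x = kX y
  hρ : ∀ x y, kA x = kA y → ρ (B x) = ρ (B y)
  hγ : ∀ x y, kB x = kB y → γ (B x) = γ (B y)
  hgl : ∀ x₁ x₂ x₃, kX x₁ = kX x₃ → kX x₂ = kX x₃ → ρ (B x₁) = ρ (B x₃) → γ (B x₂) = γ (B x₃) →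
    ∃ x, kA x = kA x₁ ∧ kB x = kB x₂ ∧ B x = B x₃
  hinj : ∀ x y, kA x = kA y → kB x = kB y → B x = B y → x = y

lemma Glue.symm {kA : α → βA} {kB : α → βB} {kX : α → βX} {B : α → Bl} {ρ γ : Bl → ℕ}
    (h : Glue kA kB kX B ρ γ) : Glue kB kA kX B γ ρ where
  hAX := h.hBX
  hBX := h.hAX
  hρ := h.hγ
  hγ := h.hρ
  hgl := by
    intro x₁ x₂ x₃ h1 h2 h3 h4
    obtain ⟨x, h5, h6, h7⟩ := h.hgl x₂ x₁ x₃ h2 h1 h4 h3
    exact ⟨x, h6, h5, h7⟩
  hinj := fun x y h1 h2 h3 => h.hinj x y h2 h1 h3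

section

variable {kA : α → βA} {kB : α → βB} {kX : α → βX} {B : α → Bl} {ρ γ : Bl → ℕ}

/-- A total gluing function. -/
lemma Glue.exists_gl (h : Glue kA kB kX B ρ γ) : ∃ gl : α → α → α → α, ∀ x₁ x₂ x₃,
    kX x₁ = kX x₃ → kX x₂ = kX x₃ → ρ (B x₁) = ρ (B x₃) → γ (B x₂) = γ (B x₃) →
    kA (gl x₁ x₂ x₃) = kA x₁ ∧ kB (gl x₁ x₂ x₃) = kB x₂ ∧ B (gl x₁ x₂ x₃) = B x₃ := by
  classical
  have h1 : ∀ x₁ x₂ x₃, ∃ x, kX x₁ = kX x₃ → kX x₂ = kX x₃ → ρ (B x₁) = ρ (B x₃) →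
      γ (B x₂) = γ (B x₃) → kA x = kA x₁ ∧ kB x = kB x₂ ∧ B x = B x₃ := by
    intro x₁ x₂ x₃
    by_cases hc : kX x₁ = kX x₃ ∧ kX x₂ = kX x₃ ∧ ρ (B x₁) = ρ (B x₃) ∧ γ (B x₂) = γ (B x₃)
    · obtain ⟨x, hx⟩ := h.hgl x₁ x₂ x₃ hc.1 hc.2.1 hc.2.2.1 hc.2.2.2
      exact ⟨x, fun _ _ _ _ => hx⟩
    · exact ⟨x₁, fun a b c d => absurd ⟨a, b, c, d⟩ hc⟩
  choose gl hgl using h1
  exact ⟨gl, hgl⟩

/-- The key of a fibre for the pair `(kX, ρ, γ)`. -/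
def kW (kX : α → βX) (B : α → Bl) (ρ γ : Bl → ℕ) : α → βX × ℕ × ℕ :=
  fun x => (kX x, ρ (B x), γ (B x))

/-- The key of a fibre for the pair `(kX, γ)`. -/
def kG (kX : α → βX) (B : α → Bl) (γ : Bl → ℕ) : α → βX × ℕ := fun x => (kX x, γ (B x))

lemma kW_eq {x y : α} : kW kX B ρ γ x = kW kX B ρ γ y ↔
    kX x = kX y ∧ ρ (B x) = ρ (B y) ∧ γ (B x) = γ (B y) := by
  simp [kW]

lemma kG_eq {x y : α} : kG kX B γ x = kG kX B γ y ↔ kX x = kX y ∧ γ (B x) = γ (B y) := by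
  simp [kG]

/-- For `kB`-measurable functions, conditioning on `(kX, ρ, γ)` only sees `(kX, γ)`. -/
lemma cnd_kW_of_meas (h : Glue kA kB kX B ρ γ) {φ : α → ℝ}
    (hφ : ∀ x y, kB x = kB y → φ x = φ y) :
    cnd (kW kX B ρ γ) φ = cnd (kG kX B γ) φ := by
  classical
  obtain ⟨gl, hgl⟩ := h.exists_gl
  funext x
  set Z := fib (kW kX B ρ γ) x with hZ
  set Γs := fib (kG kX B γ) x with hΓ
  -- membership
  have hZm : ∀ y, y ∈ Z ↔ kX y = kX x ∧ ρ (B y) = ρ (B x) ∧ γ (B y) = γ (B x) := by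
    intro y; rw [hZ, mem_fib, kW_eq]
  have hΓm : ∀ y, y ∈ Γs ↔ kX y = kX x ∧ γ (B y) = γ (B x) := by
    intro y; rw [hΓ, mem_fib, kG_eq]
  have spec : ∀ y z, y ∈ Z → z ∈ Γs →
      kA (gl y z y) = kA y ∧ kB (gl y z y) = kB z ∧ B (gl y z y) = B y := by
    intro y z hy hz
    obtain ⟨h1, h2, h3⟩ := (hZm y).1 hy
    obtain ⟨h4, h5⟩ := (hΓm z).1 hz
    exact hgl y z y rfl (h4.trans h1.symm) rfl (h5.trans h3.symm)
  have spec' : ∀ y z, y ∈ Z → z ∈ Γs →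
      kA (gl z y z) = kA z ∧ kB (gl z y z) = kB y ∧ B (gl z y z) = B z := by
    intro y z hy hz
    obtain ⟨h1, h2, h3⟩ := (hZm y).1 hy
    obtain ⟨h4, h5⟩ := (hΓm z).1 hz
    exact hgl z y z rfl (h1.trans h4.symm) rfl (h3.trans h5.symm)
  have hmem1 : ∀ y z, y ∈ Z → z ∈ Γs → gl y z y ∈ Z := by
    intro y z hy hz
    obtain ⟨h1, h2, h3⟩ := (hZm y).1 hy
    obtain ⟨h4, h5, h6⟩ := spec y z hy hz
    rw [hZm, h6]
    exact ⟨(h.hAX _ _ h4).trans h1, h2, h3⟩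
  have hmem2 : ∀ y z, y ∈ Z → z ∈ Γs → gl z y z ∈ Γs := by
    intro y z hy hz
    obtain ⟨h1, h2⟩ := (hΓm z).1 hz
    obtain ⟨h4, h5, h6⟩ := spec' y z hy hz
    rw [hΓm, h6]
    exact ⟨(h.hAX _ _ h4).trans h1, h2⟩
  have hinv1 : ∀ y z, y ∈ Z → z ∈ Γs → gl (gl y z y) (gl z y z) (gl y z y) = y := by
    intro y z hy hz
    obtain ⟨a1, a2, a3⟩ := spec y z hy hz
    obtain ⟨b1, b2, b3⟩ := spec' y z hy hz
    obtain ⟨c1, c2, c3⟩ := spec _ _ (hmem1 y z hy hz) (hmem2 y z hy hz)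
    exact h.hinj _ _ (c1.trans a1) (c2.trans b2) (c3.trans a3)
  have hinv2 : ∀ y z, y ∈ Z → z ∈ Γs → gl (gl z y z) (gl y z y) (gl z y z) = z := by
    intro y z hy hz
    obtain ⟨a1, a2, a3⟩ := spec y z hy hz
    obtain ⟨b1, b2, b3⟩ := spec' y z hy hz
    obtain ⟨c1, c2, c3⟩ := spec' _ _ (hmem1 y z hy hz) (hmem2 y z hy hz)
    exact h.hinj _ _ (c1.trans b1) (c2.trans a2) (c3.trans b3)
  have hswap : ∑ p ∈ Z ×ˢ Γs, φ p.1 = ∑ p ∈ Z ×ˢ Γs, φ p.2 := by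
    have step : ∑ p ∈ Z ×ˢ Γs, φ p.2 = ∑ p ∈ Z ×ˢ Γs, φ (gl p.1 p.2 p.1) := by
      refine sum_congr rfl (fun p hp => ?_)
      obtain ⟨h1, h2⟩ := mem_product.1 hp
      exact (hφ _ _ (spec _ _ h1 h2).2.1).symm
    rw [step]
    refine sum_nbij' (fun p => (gl p.1 p.2 p.1, gl p.2 p.1 p.2))
      (fun p => (gl p.1 p.2 p.1, gl p.2 p.1 p.2)) ?_ ?_ ?_ ?_ ?_
    · intro p hp
      obtain ⟨h1, h2⟩ := mem_product.1 hp
      exact mem_product.2 ⟨hmem1 _ _ h1 h2, hmem2 _ _ h1 h2⟩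
    · intro p hp
      obtain ⟨h1, h2⟩ := mem_product.1 hp
      exact mem_product.2 ⟨hmem1 _ _ h1 h2, hmem2 _ _ h1 h2⟩
    · intro p hp
      obtain ⟨h1, h2⟩ := mem_product.1 hp
      exact Prod.ext (hinv1 _ _ h1 h2) (hinv2 _ _ h1 h2)
    · intro p hp
      obtain ⟨h1, h2⟩ := mem_product.1 hp
      exact Prod.ext (hinv1 _ _ h1 h2) (hinv2 _ _ h1 h2)
    · intro p hp
      obtain ⟨h1, h2⟩ := mem_product.1 hp
      simp only [hinv1 _ _ h1 h2]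
  rw [sum_product, sum_product] at hswap
  simp only [sum_const, nsmul_eq_mul] at hswap
  rw [← mul_sum] at hswap
  rw [cnd_apply, cnd_apply, ← hZ, ← hΓ]
  have hZpos : ((Z.card : ℕ) : ℝ) ≠ 0 := card_fib_ne _ _
  have hΓpos : ((Γs.card : ℕ) : ℝ) ≠ 0 := card_fib_ne _ _
  field_simp
  linarith

/-- Same statement for `kA`-measurable functions. -/
lemma cnd_kW_of_meas' (h : Glue kA kB kX B ρ γ) {φ : α → ℝ}
    (hφ : ∀ x y, kA x = kA y → φ x = φ y) :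
    cnd (kW kX B ρ γ) φ = cnd (kG kX B ρ) φ := by
  rw [← cnd_kW_of_meas h.symm hφ]
  apply cnd_congr
  intro x y
  rw [kW_eq, kW_eq]
  tauto

/-- Conditional independence over `(kX, ρ, γ)`: the product formula on a fibre. -/
lemma prod_form (h : Glue kA kB kX B ρ γ) {φ₁ φ₂ : α → ℝ}
    (h1 : ∀ x y, kB x = kB y → φ₁ x = φ₁ y) (h2 : ∀ x y, kA x = kA y → φ₂ x = φ₂ y) (x : α) :
    ((fib (kW kX B ρ γ) x).card : ℝ) * ∑ y ∈ fib (kW kX B ρ γ) x, φ₁ y * φ₂ y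
      = (∑ y ∈ fib (kW kX B ρ γ) x, φ₁ y) * ∑ y ∈ fib (kW kX B ρ γ) x, φ₂ y := by
  classical
  obtain ⟨gl, hgl⟩ := h.exists_gl
  set Z := fib (kW kX B ρ γ) x with hZ
  have hZm : ∀ y, y ∈ Z ↔ kX y = kX x ∧ ρ (B y) = ρ (B x) ∧ γ (B y) = γ (B x) := by
    intro y; rw [hZ, mem_fib, kW_eq]
  have spec : ∀ y z, y ∈ Z → z ∈ Z →
      kA (gl z y y) = kA z ∧ kB (gl z y y) = kB y ∧ B (gl z y y) = B y := by
    intro y z hy hz
    obtain ⟨h3, h4, h5⟩ := (hZm y).1 hy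
    obtain ⟨h6, h7, h8⟩ := (hZm z).1 hz
    exact hgl z y y (h6.trans h3.symm) rfl (h7.trans h4.symm) rfl
  have hmem : ∀ y z, y ∈ Z → z ∈ Z → gl z y y ∈ Z := by
    intro y z hy hz
    obtain ⟨h3, h4, h5⟩ := (hZm y).1 hy
    obtain ⟨a1, a2, a3⟩ := spec y z hy hz
    rw [hZm, a3]
    exact ⟨(h.hBX _ _ a2).trans h3, h4, h5⟩
  have hinv : ∀ y z, y ∈ Z → z ∈ Z → gl (gl y z z) (gl z y y) (gl z y y) = y := by
    intro y z hy hz
    obtain ⟨a1, a2, a3⟩ := spec y z hy hz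
    obtain ⟨b1, b2, b3⟩ := spec z y hz hy
    obtain ⟨c1, c2, c3⟩ := spec _ _ (hmem y z hy hz) (hmem z y hz hy)
    exact h.hinj _ _ (c1.trans b1) (c2.trans a2) (c3.trans a3)
  have key : ∑ p ∈ Z ×ˢ Z, φ₁ p.1 * φ₂ p.2 = ∑ p ∈ Z ×ˢ Z, φ₁ p.1 * φ₂ p.1 := by
    have step : ∑ p ∈ Z ×ˢ Z, φ₁ p.1 * φ₂ p.2
        = ∑ p ∈ Z ×ˢ Z, φ₁ (gl p.2 p.1 p.1) * φ₂ (gl p.2 p.1 p.1) := by
      refine sum_congr rfl (fun p hp => ?_)
      obtain ⟨h3, h4⟩ := mem_product.1 hp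
      obtain ⟨a1, a2, a3⟩ := spec _ _ h3 h4
      rw [h1 _ _ a2, h2 _ _ a1]
    rw [step]
    refine sum_nbij' (fun p => (gl p.2 p.1 p.1, gl p.1 p.2 p.2))
      (fun p => (gl p.2 p.1 p.1, gl p.1 p.2 p.2)) ?_ ?_ ?_ ?_ ?_
    · intro p hp
      obtain ⟨h3, h4⟩ := mem_product.1 hp
      exact mem_product.2 ⟨hmem _ _ h3 h4, hmem _ _ h4 h3⟩
    · intro p hp
      obtain ⟨h3, h4⟩ := mem_product.1 hp
      exact mem_product.2 ⟨hmem _ _ h3 h4, hmem _ _ h4 h3⟩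
    · intro p hp
      obtain ⟨h3, h4⟩ := mem_product.1 hp
      exact Prod.ext (hinv _ _ h3 h4) (hinv _ _ h4 h3)
    · intro p hp
      obtain ⟨h3, h4⟩ := mem_product.1 hp
      exact Prod.ext (hinv _ _ h3 h4) (hinv _ _ h4 h3)
    · intro p hp
      rfl
  rw [sum_product, sum_product] at key
  simp only [sum_const, nsmul_eq_mul] at key
  rw [sum_mul_sum, key, mul_sum]

/-- Conditional independence over `(kX, ρ, γ)`. -/
lemma ip_cond_indep (h : Glue kA kB kX B ρ γ) {φ₁ φ₂ : α → ℝ}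
    (h1 : ∀ x y, kB x = kB y → φ₁ x = φ₁ y) (h2 : ∀ x y, kA x = kA y → φ₂ x = φ₂ y) :
    ip φ₁ φ₂ = ip (cnd (kW kX B ρ γ) φ₁) (cnd (kW kX B ρ γ) φ₂) := by
  have hs := sum_cnd (kW kX B ρ γ) (fun x => φ₁ x * φ₂ x)
  unfold ip
  rw [← hs]
  refine sum_congr rfl (fun x _ => ?_)
  have hp := prod_form h h1 h2 x
  rw [cnd_apply, cnd_apply, cnd_apply]
  have hpos : ((fib (kW kX B ρ γ) x).card : ℝ) ≠ 0 := card_fib_ne _ _
  field_simp
  linarith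

/-- Jensen on a subset saturated for a coarser key. -/
lemma sum_C_le_xt {βW βk : Type*} (C : Finset α) (W : α → βW) (k : α → βk) (Φ : α → ℝ)
    (hC : ∀ x ∈ C, ∀ y, W y = W x → y ∈ C) (hkW : ∀ x ∈ C, ∀ y ∈ C, k x = k y → W x = W y) :
    ∑ x ∈ C, (cnd W Φ x) ^ 2 ≤ xt C k Φ := by
  classical
  have h1 : ∀ x : {x // x ∈ C}, cnd (fun y : {x // x ∈ C} => W y.1) (fun y => Φ y.1) x
      = cnd W Φ x.1 := by
    intro x
    refine cnd_comp_inj Subtype.val Subtype.val_injective W Φ x ?_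
    intro y hy
    exact ⟨⟨y, hC _ x.2 _ hy⟩, rfl⟩
  have h2 : ∑ x ∈ C, (cnd W Φ x) ^ 2
      = ip (cnd (fun y : {x // x ∈ C} => W y.1) (fun y => Φ y.1))
          (cnd (fun y : {x // x ∈ C} => W y.1) (fun y => Φ y.1)) := by
    unfold ip
    rw [← Finset.sum_coe_sort C]
    refine sum_congr rfl (fun x _ => ?_)
    rw [h1 x, pow_two]
  rw [h2]
  exact ip_cnd_mono (fun x y hxy => hkW _ x.2 _ y.2 hxy) _

/-- Data on the involution exchanging the two points of a fibre of the pair of keys. -/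
structure FlipData (kA : α → βA) (kB : α → βB) (σ : α → α) : Prop where
  hσA : ∀ x, kA (σ x) = kA x
  hσB : ∀ x, kB (σ x) = kB x
  hσσ : ∀ x, σ (σ x) = x
  hσJ : ∀ x y, kA y = kA x → kB y = kB x → y = x ∨ y = σ x

/-- The defect of the joint conditional expectation. -/
lemma defect_joint {σ : α → α} (hσ : FlipData kA kB σ) (f : α → ℝ) :
    ip (f - cnd (fun x => (kA x, kB x)) f) (f - cnd (fun x => (kA x, kB x)) f)
      = ∑ x, (1 / 4 : ℝ) * (f x - f (σ x)) ^ 2 := by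
  classical
  unfold ip
  refine sum_congr rfl (fun x _ => ?_)
  have hfib : fib (fun x => (kA x, kB x)) x = {x, σ x} := by
    ext y
    simp only [mem_fib, Prod.mk.injEq, mem_insert, mem_singleton]
    constructor
    · rintro ⟨h1, h2⟩
      exact hσ.hσJ x y h1 h2
    · rintro (rfl | rfl)
      · exact ⟨rfl, rfl⟩
      · exact ⟨hσ.hσA x, hσ.hσB x⟩
  have hval : cnd (fun x => (kA x, kB x)) f x = (f x + f (σ x)) / 2 := by
    rw [cnd_apply, hfib]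
    by_cases hx : x = σ x
    · rw [← hx]
      simp
    · rw [sum_pair hx, card_pair hx]
      norm_num
  simp only [Pi.sub_apply]
  rw [hval]
  ring

lemma ip_add_orth (a b : α → ℝ) (h : ip a b = 0) : ip (a + b) (a + b) = ip a a + ip b b := by
  rw [ip_add_left, ip_add_right, ip_add_right, h, ip_comm b a, h]
  ring

/-- The main abstract lemma. -/
theorem quad_main {σ : α → α} (h : Glue kA kB kX B ρ γ)
    (hF4a : ∀ x y, kX x = kX y → ρ (B x) = ρ (B y) → ρ (B x) ≠ 1 → γ (B x) = γ (B y))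
    (hF4b : ∀ x y, kX x = kX y → γ (B x) = γ (B y) → γ (B x) ≠ 1 → ρ (B x) = ρ (B y))
    (hσ : FlipData kA kB σ) (C : Finset α) (hCm : ∀ x, x ∈ C ↔ ρ (B x) = 1 ∧ γ (B x) = 1)
    (f : α → ℝ) :
    ∑ x, (1 / 4 : ℝ) * (f x - f (σ x)) ^ 2 - (1 / 2) * xt C kB (f - cnd kB f)
        - (1 / 2) * xt C kA (f - cnd kA f)
      ≤ ip (f - cnd kB f) (f - cnd kA f) := by
  classical
  set kJ : α → βA × βB := fun x => (kA x, kB x) with hkJ
  set W := kW kX B ρ γ with hW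
  set R := kG kX B ρ with hR
  set Γ := kG kX B γ with hΓ
  have hJA : ∀ x y, kJ x = kJ y → kA x = kA y := fun x y hxy => (Prod.ext_iff.1 hxy).1
  have hJB : ∀ x y, kJ x = kJ y → kB x = kB y := fun x y hxy => (Prod.ext_iff.1 hxy).2
  have hJX : ∀ x y, kJ x = kJ y → kX x = kX y := fun x y hxy => h.hAX _ _ (hJA _ _ hxy)
  have hJW : ∀ x y, kJ x = kJ y → W x = W y := fun x y hxy =>
    kW_eq.2 ⟨hJX _ _ hxy, h.hρ _ _ (hJA _ _ hxy), h.hγ _ _ (hJB _ _ hxy)⟩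
  have hWX : ∀ x y, W x = W y → kX x = kX y := fun x y hxy => (kW_eq.1 hxy).1
  have hWR : ∀ x y, W x = W y → R x = R y := fun x y hxy =>
    kG_eq.2 ⟨(kW_eq.1 hxy).1, (kW_eq.1 hxy).2.1⟩
  have hWΓ : ∀ x y, W x = W y → Γ x = Γ y := fun x y hxy =>
    kG_eq.2 ⟨(kW_eq.1 hxy).1, (kW_eq.1 hxy).2.2⟩
  have hRX : ∀ x y, R x = R y → kX x = kX y := fun x y hxy => (kG_eq.1 hxy).1
  have hΓX : ∀ x y, Γ x = Γ y → kX x = kX y := fun x y hxy => (kG_eq.1 hxy).1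
  have hAR : ∀ x y, kA x = kA y → R x = R y := fun x y hxy =>
    kG_eq.2 ⟨h.hAX _ _ hxy, h.hρ _ _ hxy⟩
  have hBΓ : ∀ x y, kB x = kB y → Γ x = Γ y := fun x y hxy =>
    kG_eq.2 ⟨h.hBX _ _ hxy, h.hγ _ _ hxy⟩
  set EA := cnd kA f with hEA
  set EB := cnd kB f with hEB
  set E0 := cnd kX f with hE0
  set EJ := cnd kJ f with hEJ
  set EW := cnd W f with hEW
  set ER := cnd R f with hER
  set EG := cnd Γ f with hEG
  have mA : ∀ x y, kA x = kA y → EA x = EA y := fun x y hxy => cnd_eq_of_key _ _ hxy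
  have mB : ∀ x y, kB x = kB y → EB x = EB y := fun x y hxy => cnd_eq_of_key _ _ hxy
  have mX : ∀ x y, kX x = kX y → E0 x = E0 y := fun x y hxy => cnd_eq_of_key _ _ hxy
  -- towers
  have t1 : cnd W EJ = EW := cnd_coarse_fine hJW f
  have t2 : cnd W EB = EG := by
    rw [hW, cnd_kW_of_meas h mB, ← hΓ, hEB, cnd_coarse_fine hBΓ]
  have t3 : cnd W EA = ER := by
    rw [hW, cnd_kW_of_meas' h mA, ← hR, hEA, cnd_coarse_fine hAR]
  have t4 : cnd W E0 = E0 := cnd_fine_coarse hWX f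
  set ψ₁ : α → ℝ := EJ - EB - EA + E0 with hψ₁
  have hcndψ : cnd W ψ₁ = EW - EG - ER + E0 := by
    rw [hψ₁, cnd_add, cnd_sub, cnd_sub, t1, t2, t3, t4]
  -- step A
  have hA := two_key (k₁ := kB) (k₂ := kA) (k₀ := kX) h.hBX h.hAX f
  rw [← hEB, ← hEA, ← hE0] at hA
  -- step B
  have hB : ip (f - EB - EA + E0) (f - EB - EA + E0) = ip (f - EJ) (f - EJ) + ip ψ₁ ψ₁ := by
    have e1 : f - EB - EA + E0 = (f - EJ) + ψ₁ := by
      rw [hψ₁]; funext x; simp only [Pi.add_apply, Pi.sub_apply]; ring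
    have e2 : ip (f - EJ) ψ₁ = 0 := by
      apply ip_defect_meas
      intro x y hxy
      simp only [hψ₁, Pi.add_apply, Pi.sub_apply]
      have e3 : EJ x = EJ y := cnd_eq_of_key kJ f hxy
      rw [e3, mB _ _ (hJB _ _ hxy), mA _ _ (hJA _ _ hxy), mX _ _ (hJX _ _ hxy)]
    rw [e1]
    exact ip_add_orth _ _ e2
  -- step C
  have hC := ip_cnd_le W ψ₁
  rw [hcndψ] at hC
  -- step D
  have hD : ip (EB - E0) (EA - E0) = ip (EG - E0) (ER - E0) := by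
    rw [ip_cond_indep h (φ₁ := EB - E0) (φ₂ := EA - E0)]
    · rw [← hW, cnd_sub, cnd_sub, t2, t3, t4]
    · intro x y hxy
      simp only [Pi.sub_apply]
      rw [mB _ _ hxy, mX _ _ (h.hBX _ _ hxy)]
    · intro x y hxy
      simp only [Pi.sub_apply]
      rw [mA _ _ hxy, mX _ _ (h.hAX _ _ hxy)]
  -- step E
  have hE := two_key (k₁ := Γ) (k₂ := R) (k₀ := kX) hΓX hRX EW
  have e1 : cnd Γ EW = EG := cnd_coarse_fine hWΓ f
  have e2 : cnd R EW = ER := cnd_coarse_fine hWR f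
  have e3 : cnd kX EW = E0 := cnd_coarse_fine hWX f
  rw [e1, e2, e3] at hE
  -- step F
  have hF : ip (f - EJ) (f - EJ) = ∑ x, (1 / 4 : ℝ) * (f x - f (σ x)) ^ 2 := defect_joint hσ f
  -- step G
  set u : α → ℝ := EW - EG with hu
  set v : α → ℝ := EW - ER with hv
  have hucnd : u = cnd W (f - EB) := by
    rw [cnd_sub, t2, hu]
  have hvcnd : v = cnd W (f - EA) := by
    rw [cnd_sub, t3, hv]
  have hG : ip u v = ∑ x ∈ C, u x * v x := by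
    unfold ip
    symm
    apply sum_subset (subset_univ C)
    intro x _ hx
    rw [hCm] at hx
    by_cases h1 : ρ (B x) = 1
    · have h2 : γ (B x) ≠ 1 := fun h3 => hx ⟨h1, h3⟩
      have h3 : u x = 0 := by
        simp only [hu, Pi.sub_apply, hEW, hEG, cnd_apply]
        have : fib W x = fib Γ x := by
          ext y
          rw [mem_fib, mem_fib, hW, hΓ, kW_eq, kG_eq]
          constructor
          · rintro ⟨h4, -, h6⟩; exact ⟨h4, h6⟩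
          · rintro ⟨h4, h6⟩
            exact ⟨h4, (hF4b x y h4.symm h6.symm h2).symm, h6⟩
        rw [this, sub_self]
      rw [h3, zero_mul]
    · have h3 : v x = 0 := by
        simp only [hv, Pi.sub_apply, hEW, hER, cnd_apply]
        have : fib W x = fib R x := by
          ext y
          rw [mem_fib, mem_fib, hW, hR, kW_eq, kG_eq]
          constructor
          · rintro ⟨h4, h5, -⟩; exact ⟨h4, h5⟩
          · rintro ⟨h4, h5⟩
            exact ⟨h4, h5, (hF4a x y h4.symm h5.symm h1).symm⟩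
        rw [this, sub_self]
      rw [h3, mul_zero]
  have hsat : ∀ x ∈ C, ∀ y, W y = W x → y ∈ C := by
    intro x hx y hy
    rw [hCm] at hx ⊢
    obtain ⟨-, h5, h6⟩ := kW_eq.1 hy
    exact ⟨h5.trans hx.1, h6.trans hx.2⟩
  have hHB : ∑ x ∈ C, (u x) ^ 2 ≤ xt C kB (f - EB) := by
    rw [hucnd]
    refine sum_C_le_xt C W kB _ hsat ?_
    intro x hx y hy hxy
    rw [hCm] at hx hy
    exact kW_eq.2 ⟨h.hBX _ _ hxy, hx.1.trans hy.1.symm, hx.2.trans hy.2.symm⟩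
  have hHA : ∑ x ∈ C, (v x) ^ 2 ≤ xt C kA (f - EA) := by
    rw [hvcnd]
    refine sum_C_le_xt C W kA _ hsat ?_
    intro x hx y hy hxy
    rw [hCm] at hx hy
    exact kW_eq.2 ⟨h.hAX _ _ hxy, hx.1.trans hy.1.symm, hx.2.trans hy.2.symm⟩
  have hAM : - (1 / 2 : ℝ) * ∑ x ∈ C, (u x) ^ 2 - (1 / 2) * ∑ x ∈ C, (v x) ^ 2
      ≤ ∑ x ∈ C, u x * v x := by
    rw [mul_sum, mul_sum, ← sum_sub_distrib]
    refine sum_le_sum (fun x _ => ?_)
    nlinarith [sq_nonneg (u x + v x)]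
  linarith

end

end Vale.Agent.P335
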