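import Vale.Agent.P335.Johnson5

/-! Three-row configurations: swaps of columns with equal sums. -/

open Finset BigOperators

namespace Vale.Agent.P335

variable {E : Type*} [Fintype E] [DecidableEq E]

/-- Number of rows containing a column. -/
def colCount (M : Fin 3 → Finset E) (k : E) : ℕ := (univ.filter (fun a => k ∈ M a)).card

/-- Three subsets of `E` with prescribed sizes and prescribed column counts. -/
structure IsCfg (cc : E → ℕ) (r : Fin 3 → ℕ) (M : Fin 3 → Finset E) : Prop where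
  row : ∀ a, (M a).card = r a
  col : ∀ k, colCount M k = cc k

open Classical in
/-- The finite set of configurations. -/
noncomputable def Cfg (cc : E → ℕ) (r : Fin 3 → ℕ) : Finset (Fin 3 → Finset E) :=
  univ.filter (IsCfg cc r)

lemma mem_Cfg {cc : E → ℕ} {r : Fin 3 → ℕ} {M : Fin 3 → Finset E} :
    M ∈ Cfg cc r ↔ IsCfg cc r M := by
  simp [Cfg]

/-- Configurations with a prescribed row. -/
noncomputable def fibC (cc : E → ℕ) (r : Fin 3 → ℕ) (a : Fin 3) (S : Finset E) :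
    Finset (Fin 3 → Finset E) :=
  (Cfg cc r).filter (fun M => M a = S)

lemma mem_fibC {cc : E → ℕ} {r : Fin 3 → ℕ} {a : Fin 3} {S : Finset E} {M : Fin 3 → Finset E} :
    M ∈ fibC cc r a S ↔ IsCfg cc r M ∧ M a = S := by
  simp [fibC, mem_Cfg]

/-- Plain average over a finite set. -/
noncomputable def avgF {α : Type*} (S : Finset α) (F : α → ℝ) : ℝ := (∑ x ∈ S, F x) / S.card

lemma abs_avgF_le {α : Type*} (S : Finset α) (F : α → ℝ) {δ : ℝ} (hδ : 0 ≤ δ)
    (h : ∀ x ∈ S, |F x| ≤ δ) : |avgF S F| ≤ δ := by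
  unfold avgF
  rcases S.eq_empty_or_nonempty with rfl | hne
  · simpa using hδ
  · have hpos : (0 : ℝ) < S.card := by exact_mod_cast card_pos.2 hne
    rw [abs_div, abs_of_pos hpos, div_le_iff₀ hpos]
    calc |∑ x ∈ S, F x| ≤ ∑ x ∈ S, |F x| := abs_sum_le_sum_abs _ _
      _ ≤ ∑ _x ∈ S, δ := sum_le_sum h
      _ = δ * S.card := by simp [mul_comm]

lemma avgF_congr {α : Type*} {S : Finset α} {F F' : α → ℝ} (h : ∀ x ∈ S, F x = F' x) :
    avgF S F = avgF S F' := by
  unfold avgF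
  rw [sum_congr rfl h]

lemma avgF_add_const {α : Type*} {S : Finset α} (hS : S.Nonempty) (c : ℝ) (F : α → ℝ) :
    avgF S (fun x => c + F x) = c + avgF S F := by
  unfold avgF
  have hpos : (S.card : ℝ) ≠ 0 := by
    have := card_pos.2 hS
    positivity
  rw [sum_add_distrib, sum_const, nsmul_eq_mul]
  field_simp

lemma avgF_sub {α : Type*} (S : Finset α) (F F' : α → ℝ) :
    avgF S (fun x => F x - F' x) = avgF S F - avgF S F' := by
  unfold avgF
  rw [sum_sub_distrib, sub_div]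

lemma others (a : Fin 3) : ∃ b₁ b₂ : Fin 3, a ≠ b₁ ∧ a ≠ b₂ ∧ b₁ ≠ b₂ := by
  revert a; decide

lemma univ_fin3 {a b₁ b₂ : Fin 3} (h1 : a ≠ b₁) (h2 : a ≠ b₂) (h3 : b₁ ≠ b₂) :
    (univ : Finset (Fin 3)) = {a, b₁, b₂} := by
  revert a b₁ b₂; decide

lemma sum_fin3 {M : Type*} [AddCommMonoid M] {a b₁ b₂ : Fin 3} (h1 : a ≠ b₁) (h2 : a ≠ b₂)
    (h3 : b₁ ≠ b₂) (g : Fin 3 → M) : ∑ x, g x = g a + (g b₁ + g b₂) := by
  rw [univ_fin3 h1 h2 h3, sum_insert (by simp [h1, h2]), sum_pair h3]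

lemma colCount_eq (M : Fin 3 → Finset E) (k : E) {a b₁ b₂ : Fin 3} (h1 : a ≠ b₁) (h2 : a ≠ b₂)
    (h3 : b₁ ≠ b₂) :
    colCount M k = (if k ∈ M a then 1 else 0) + ((if k ∈ M b₁ then 1 else 0)
      + (if k ∈ M b₂ then 1 else 0)) := by
  unfold colCount
  rw [card_filter, sum_fin3 h1 h2 h3]

lemma colCount_le (M : Fin 3 → Finset E) (k : E) : colCount M k ≤ 3 := by
  unfold colCount
  calc _ ≤ (univ : Finset (Fin 3)).card := card_filter_le _ _
    _ = 3 := by simp

lemma mem_of_col_three {M : Fin 3 → Finset E} {k : E} (h : colCount M k = 3) (a : Fin 3) :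
    k ∈ M a := by
  unfold colCount at h
  have h1 : univ.filter (fun a => k ∈ M a) = univ := by
    apply eq_of_subset_of_card_le (filter_subset _ _)
    rw [h]; simp
  have h2 : a ∈ univ.filter (fun a => k ∈ M a) := by rw [h1]; simp
  exact (mem_filter.1 h2).2

lemma col_pos_of_mem {M : Fin 3 → Finset E} {k : E} {a : Fin 3} (h : k ∈ M a) :
    1 ≤ colCount M k := by
  unfold colCount
  exact card_pos.2 ⟨a, by simp [h]⟩

lemma tau_eq_self {i j : E} {S : Finset E} (h : i ∈ S ↔ j ∈ S) : tau i j S = S := by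
  ext x
  rw [mem_tau]
  by_cases h1 : x = i
  · subst h1; simp [h]
  by_cases h2 : x = j
  · subst h2; simp [h]
  rw [Equiv.swap_apply_of_ne_of_ne h1 h2]

/-- The action of a column swap on a configuration. -/
def swM (i j : E) (M : Fin 3 → Finset E) : Fin 3 → Finset E := fun a => tau i j (M a)

lemma swM_swM (i j : E) (M : Fin 3 → Finset E) : swM i j (swM i j M) = M := by
  funext a; exact tau_tau i j (M a)

lemma colCount_swM (i j : E) (M : Fin 3 → Finset E) (k : E) :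
    colCount (swM i j M) k = colCount M (Equiv.swap i j k) := by
  unfold colCount swM
  simp only [mem_tau]

lemma swM_isCfg {cc : E → ℕ} {r : Fin 3 → ℕ} {M : Fin 3 → Finset E} {i j : E}
    (hc : cc i = cc j) (hM : IsCfg cc r M) : IsCfg cc r (swM i j M) := by
  constructor
  · intro a; rw [swM, card_tau]; exact hM.row a
  · intro k
    rw [colCount_swM, hM.col]
    by_cases h1 : k = i
    · subst h1; simp [hc]
    by_cases h2 : k = j
    · subst h2; simp [hc]
    rw [Equiv.swap_apply_of_ne_of_ne h1 h2]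

/-- Averaging over the fibre of a swapped row. -/
lemma avgF_fib_sw {cc : E → ℕ} {r : Fin 3 → ℕ} {i j : E} (hc : cc i = cc j) (a : Fin 3)
    (S : Finset E) (F : (Fin 3 → Finset E) → ℝ) :
    avgF (fibC cc r a (tau i j S)) F = avgF (fibC cc r a S) (fun M => F (swM i j M)) := by
  have key : ∀ F : (Fin 3 → Finset E) → ℝ,
      ∑ M ∈ fibC cc r a (tau i j S), F M = ∑ M ∈ fibC cc r a S, F (swM i j M) := by
    intro F
    refine sum_nbij' (swM i j) (swM i j) ?_ ?_ ?_ ?_ ?_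
    · intro M hM
      rw [mem_fibC] at hM ⊢
      refine ⟨swM_isCfg hc hM.1, ?_⟩
      simp only [swM, hM.2, tau_tau]
    · intro M hM
      rw [mem_fibC] at hM ⊢
      refine ⟨swM_isCfg hc hM.1, ?_⟩
      simp only [swM, hM.2]
    · intro M _; exact swM_swM i j M
    · intro M _; exact swM_swM i j M
    · intro M _; rw [swM_swM]
  have hcard : (fibC cc r a (tau i j S)).card = (fibC cc r a S).card := by
    have := key (fun _ => 1)
    simp only [sum_const, nsmul_eq_mul, mul_one] at this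
    exact_mod_cast this
  unfold avgF
  rw [key F, hcard]

lemma parity_aux (p₁ p₂ p₃ q₁ q₂ q₃ : Prop) [Decidable p₁] [Decidable p₂] [Decidable p₃]
    [Decidable q₁] [Decidable q₂] [Decidable q₃]
    (h : (if p₁ then 1 else 0) + ((if p₂ then 1 else 0) + (if p₃ then 1 else 0))
      = ((if q₁ then 1 else 0) + ((if q₂ then 1 else 0) + (if q₃ then 1 else 0)) : ℕ))
    (h1 : ¬(p₁ ↔ q₁)) (h2 : ¬(p₂ ↔ q₂)) (h3 : ¬(p₃ ↔ q₃)) : False := by
  by_cases a1 : p₁ <;> by_cases a2 : p₂ <;> by_cases a3 : p₃ <;>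
  by_cases b1 : q₁ <;> by_cases b2 : q₂ <;> by_cases b3 : q₃ <;>
  simp_all

section Eigen

variable {cc : E → ℕ} {r : Fin 3 → ℕ} {G : Fin 3 → Finset E → ℝ} {μ : ℝ}

/-- The eigenvalue equation for row functions. -/
def RowEq (cc : E → ℕ) (r : Fin 3 → ℕ) (G : Fin 3 → Finset E → ℝ) (μ : ℝ) : Prop :=
  ∀ a, ∀ M ∈ Cfg cc r, μ * G a (M a) = avgF (fibC cc r a (M a)) (fun M' => ∑ b, G b (M' b))

lemma self_mem_fibC {M : Fin 3 → Finset E} (hM : M ∈ Cfg cc r) (a : Fin 3) :
    M ∈ fibC cc r a (M a) := by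
  rw [mem_fibC]; exact ⟨mem_Cfg.1 hM, rfl⟩

lemma lambda_eq (hG : RowEq cc r G μ) {a b₁ b₂ : Fin 3} (h1 : a ≠ b₁) (h2 : a ≠ b₂) (h3 : b₁ ≠ b₂)
    {M : Fin 3 → Finset E} (hM : M ∈ Cfg cc r) :
    (μ - 1) * G a (M a) = avgF (fibC cc r a (M a)) (fun M' => G b₁ (M' b₁) + G b₂ (M' b₂)) := by
  have h := hG a M hM
  have hcongr : ∀ M' ∈ fibC cc r a (M a),
      ∑ b, G b (M' b) = G a (M a) + (G b₁ (M' b₁) + G b₂ (M' b₂)) := by
    intro M' hM'
    rw [sum_fin3 h1 h2 h3, (mem_fibC.1 hM').2]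
  rw [avgF_congr hcongr, avgF_add_const ⟨M, self_mem_fibC hM a⟩] at h
  linarith

/-- Step one: the row functions are invariant under swaps of columns with equal sums. -/
theorem step1 (hμ : 2 < μ) (hG : RowEq cc r G μ) {i j : E} (hc : cc i = cc j) :
    ∀ a, ∀ M ∈ Cfg cc r, G a (tau i j (M a)) = G a (M a) := by
  by_contra hne
  push Not at hne
  obtain ⟨a₀, M₀, hM₀, hne₀⟩ := hne
  set D : Fin 3 → (Fin 3 → Finset E) → ℝ := fun a M => G a (tau i j (M a)) - G a (M a) with hD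
  obtain ⟨⟨a, M⟩, hp, hmax⟩ := exists_max_image ((univ : Finset (Fin 3)) ×ˢ Cfg cc r)
    (fun p => |D p.1 p.2|) ⟨(a₀, M₀), by simp [hM₀]⟩
  have hM : M ∈ Cfg cc r := (mem_product.1 hp).2
  have hmax' : ∀ b, ∀ M' ∈ Cfg cc r, |D b M'| ≤ |D a M| := by
    intro b M' hM'
    exact hmax (b, M') (by simp [hM'])
  have hδ : 0 < |D a M| := by
    refine lt_of_lt_of_le ?_ (hmax' a₀ M₀ hM₀)
    rw [abs_pos, hD]
    exact sub_ne_zero.2 hne₀
  obtain ⟨b₁, b₂, h1, h2, h3⟩ := others a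
  have hdist : ¬ (i ∈ M a ↔ j ∈ M a) := by
    intro h
    have : D a M = 0 := by
      simp only [hD]
      rw [tau_eq_self h, sub_self]
    rw [this] at hδ
    simp at hδ
  have heq : (μ - 1) * D a M
      = avgF (fibC cc r a (M a)) (fun M' => D b₁ M' + D b₂ M') := by
    have e1 := lambda_eq hG h1 h2 h3 hM
    have hsw : swM i j M ∈ Cfg cc r := mem_Cfg.2 (swM_isCfg hc (mem_Cfg.1 hM))
    have e2 := lambda_eq hG h1 h2 h3 hsw
    have e3 : (swM i j M) a = tau i j (M a) := rfl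
    rw [e3, avgF_fib_sw hc] at e2
    simp only [hD]
    rw [mul_sub, e1, e2, ← avgF_sub]
    refine avgF_congr (fun M' _ => ?_)
    simp only [swM]
    ring
  have hbound : |avgF (fibC cc r a (M a)) (fun M' => D b₁ M' + D b₂ M')| ≤ |D a M| := by
    refine abs_avgF_le _ _ hδ.le (fun M' hM' => ?_)
    obtain ⟨hM'cfg, hM'a⟩ := mem_fibC.1 hM'
    have hM'mem : M' ∈ Cfg cc r := mem_Cfg.2 hM'cfg
    have hpar : (i ∈ M' b₁ ↔ j ∈ M' b₁) ∨ (i ∈ M' b₂ ↔ j ∈ M' b₂) := by
      by_contra hcon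
      push Not at hcon
      have hcol : colCount M' i = colCount M' j := by
        rw [hM'cfg.col, hM'cfg.col, hc]
      rw [colCount_eq M' i h1 h2 h3, colCount_eq M' j h1 h2 h3] at hcol
      refine parity_aux _ _ _ _ _ _ hcol ?_ ?_ ?_
      · rw [hM'a]; exact hdist
      · intro h; rcases hcon.1 with ⟨h4, h5⟩ | ⟨h4, h5⟩
        · exact h5 (h.1 h4)
        · exact h4 (h.2 h5)
      · intro h; rcases hcon.2 with ⟨h4, h5⟩ | ⟨h4, h5⟩
        · exact h5 (h.1 h4)
        · exact h4 (h.2 h5)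
    rcases hpar with hp1 | hp2
    · have : D b₁ M' = 0 := by
        simp only [hD]; rw [tau_eq_self hp1, sub_self]
      simp only [this, zero_add]
      exact hmax' b₂ M' hM'mem
    · have : D b₂ M' = 0 := by
        simp only [hD]; rw [tau_eq_self hp2, sub_self]
      simp only [this, add_zero]
      exact hmax' b₁ M' hM'mem
  rw [← heq, abs_mul, abs_of_pos (by linarith : 0 < μ - 1)] at hbound
  nlinarith

end Eigen

end Vale.Agent.P335
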