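import Vale.Agent.P335.ThreeRow1

/-! Three-row configurations: equal class counts, moves, and parametrising fibres. -/

set_option linter.unusedSectionVars false

open Finset BigOperators

namespace Vale.Agent.P335

variable {E : Type*} [Fintype E] [DecidableEq E]

lemma fin3_cases {a b₁ b₂ : Fin 3} (h1 : a ≠ b₁) (h2 : a ≠ b₂) (h3 : b₁ ≠ b₂) (x : Fin 3) :
    x = a ∨ x = b₁ ∨ x = b₂ := by
  revert a b₁ b₂ x; decide

/-- Number of elements of `S` in columns with column sum two. -/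
def sB (cc : E → ℕ) (S : Finset E) : ℕ := (S.filter (fun k => cc k = 2)).card

/-- Number of elements of `S` in columns with column sum one. -/
def sA (cc : E → ℕ) (S : Finset E) : ℕ := (S.filter (fun k => cc k = 1)).card

section Basic

variable {cc : E → ℕ} {r : Fin 3 → ℕ} {M : Fin 3 → Finset E}

lemma cc_of_mem (hM : IsCfg cc r M) {k : E} {a : Fin 3} (h : k ∈ M a) :
    cc k = 1 ∨ cc k = 2 ∨ cc k = 3 := by
  have h1 := col_pos_of_mem h
  have h2 := colCount_le M k
  rw [hM.col] at h1 h2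
  omega

lemma mem_of_cc_three (hM : IsCfg cc r M) {k : E} (h : cc k = 3) (a : Fin 3) : k ∈ M a :=
  mem_of_col_three (by rw [hM.col, h]) a

lemma row_decomp (hM : IsCfg cc r M) (a : Fin 3) :
    (M a).card = sA cc (M a) + sB cc (M a) + (univ.filter (fun k => cc k = 3)).card := by
  have h3 : univ.filter (fun k => cc k = 3) = (M a).filter (fun k => cc k = 3) := by
    ext k
    simp only [mem_filter, mem_univ, true_and]
    exact ⟨fun h => ⟨mem_of_cc_three hM h a, h⟩, fun h => h.2⟩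
  rw [h3, sA, sB, card_filter, card_filter, card_filter, ← sum_add_distrib, ← sum_add_distrib,
    card_eq_sum_ones]
  refine sum_congr rfl (fun k hk => ?_)
  rcases cc_of_mem hM hk with h | h | h <;> simp [h]

lemma card_filter_tau {i j : E} (S : Finset E) {p : E → Prop} [DecidablePred p]
    (h : ∀ k, p (Equiv.swap i j k) ↔ p k) :
    ((tau i j S).filter p).card = (S.filter p).card := by
  rw [tau, filter_map, card_map]
  congr 1
  ext k
  simp [h]

lemma cc_swap {i j : E} (hc : cc i = cc j) (k : E) : cc (Equiv.swap i j k) = cc k := by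
  by_cases h1 : k = i
  · subst h1; simp [hc]
  by_cases h2 : k = j
  · subst h2; simp [hc]
  rw [Equiv.swap_apply_of_ne_of_ne h1 h2]

lemma sB_tau {i j : E} (hc : cc i = cc j) (S : Finset E) : sB cc (tau i j S) = sB cc S :=
  card_filter_tau S (fun k => by rw [cc_swap hc])

lemma sB_move {i j : E} {S : Finset E} (hi : i ∈ S) (hci : cc i = 1) (hj : j ∉ S)
    (hcj : cc j = 2) : sB cc (tau i j S) = sB cc S + 1 := by
  rw [tau_eq_insert_erase hi hj, sB, sB, filter_insert, if_pos hcj,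
    filter_erase, card_insert_of_notMem]
  · rw [erase_eq_of_notMem]
    simp [hci]
  · simp [hj]

variable {G : Fin 3 → Finset E → ℝ} {μ : ℝ}

/-- Step two: rows with equal counts of class-two columns have equal row function value. -/
theorem step2 (hμ : 2 < μ) (hG : RowEq cc r G μ) (a : Fin 3) :
    ∀ (n : ℕ) (M₁ : Fin 3 → Finset E), M₁ ∈ Cfg cc r → ∀ M₂ ∈ Cfg cc r,
      sB cc (M₁ a) = sB cc (M₂ a) → ((M₁ a) \ (M₂ a)).card = n → G a (M₁ a) = G a (M₂ a) := by
  intro n
  induction n with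
  | zero =>
    intro M₁ h₁ M₂ h₂ _ hn
    have hsub : M₁ a ⊆ M₂ a := by
      rw [← sdiff_eq_empty_iff_subset, ← card_eq_zero]; exact hn
    have hcard : (M₂ a).card ≤ (M₁ a).card := by
      rw [(mem_Cfg.1 h₁).row, (mem_Cfg.1 h₂).row]
    rw [eq_of_subset_of_card_le hsub hcard]
  | succ n ih =>
    intro M₁ h₁ M₂ h₂ hs hn
    have hM₁ := mem_Cfg.1 h₁
    have hM₂ := mem_Cfg.1 h₂
    obtain ⟨i, hi⟩ : ((M₁ a) \ (M₂ a)).Nonempty := by
      rw [← card_pos]; omega
    obtain ⟨hi1, hi2⟩ := mem_sdiff.1 hi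
    have hsA : sA cc (M₁ a) = sA cc (M₂ a) := by
      have e1 := row_decomp hM₁ a
      have e2 := row_decomp hM₂ a
      rw [hM₁.row a] at e1
      rw [hM₂.row a] at e2
      omega
    have hci : cc i = 1 ∨ cc i = 2 := by
      rcases cc_of_mem hM₁ hi1 with h | h | h
      · exact Or.inl h
      · exact Or.inr h
      · exact absurd (mem_of_cc_three hM₂ h a) hi2
    have hex : ∃ j, j ∈ M₂ a ∧ j ∉ M₁ a ∧ cc j = cc i := by
      by_contra hcon
      push Not at hcon
      have hcardeq : ((M₁ a).filter (fun k => cc k = cc i)).card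
          = ((M₂ a).filter (fun k => cc k = cc i)).card := by
        rcases hci with h | h
        · rw [h]; exact hsA
        · rw [h]; exact hs
      have hsub : (M₂ a).filter (fun k => cc k = cc i) ⊆ (M₁ a).filter (fun k => cc k = cc i) := by
        intro k hk
        obtain ⟨hk1, hk2⟩ := mem_filter.1 hk
        refine mem_filter.2 ⟨?_, hk2⟩
        by_contra hk3
        exact hcon k hk1 hk3 hk2
      have heq := eq_of_subset_of_card_le hsub (le_of_eq hcardeq)
      have : i ∈ (M₂ a).filter (fun k => cc k = cc i) := by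
        rw [heq]; exact mem_filter.2 ⟨hi1, rfl⟩
      exact hi2 (mem_filter.1 this).1
    obtain ⟨j, hj1, hj2, hj3⟩ := hex
    have hc : cc i = cc j := hj3.symm
    have hM₃ : swM i j M₁ ∈ Cfg cc r := mem_Cfg.2 (swM_isCfg hc hM₁)
    have hstep := step1 hμ hG hc a M₁ h₁
    rw [← hstep]
    refine ih (swM i j M₁) hM₃ M₂ h₂ ?_ ?_
    · show sB cc (tau i j (M₁ a)) = _
      rw [sB_tau hc, hs]
    · show ((tau i j (M₁ a)) \ (M₂ a)).card = n
      rw [tau_eq_insert_erase hi1 hj2, insert_sdiff_of_mem _ hj1, erase_sdiff_comm,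
        card_erase_of_mem hi, hn]
      rfl

/-- Moving a class-one column in and a class-two column out of the row. -/
def mvM (a b₁ : Fin 3) (i j : E) (M : Fin 3 → Finset E) : Fin 3 → Finset E :=
  fun x => if x = a then tau i j (M a) else if x = b₁ then tau i j (M b₁) else M x

lemma not_mem_of_cc_one (hM : IsCfg cc r M) {a b₁ b₂ : Fin 3} (h1 : a ≠ b₁) (h2 : a ≠ b₂)
    (h3 : b₁ ≠ b₂) {i : E} (hi : i ∈ M a) (hci : cc i = 1) : i ∉ M b₁ ∧ i ∉ M b₂ := by
  have := colCount_eq M i h1 h2 h3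
  rw [hM.col, hci, if_pos hi] at this
  constructor
  · intro h; rw [if_pos h] at this; omega
  · intro h; rw [if_pos h] at this; omega

lemma mem_of_cc_two (hM : IsCfg cc r M) {a b₁ b₂ : Fin 3} (h1 : a ≠ b₁) (h2 : a ≠ b₂)
    (h3 : b₁ ≠ b₂) {j : E} (hj : j ∉ M a) (hcj : cc j = 2) : j ∈ M b₁ ∧ j ∈ M b₂ := by
  have := colCount_eq M j h1 h2 h3
  rw [hM.col, hcj, if_neg hj] at this
  constructor
  · by_contra h; rw [if_neg h] at this; split_ifs at this <;> omega
  · by_contra h; rw [if_neg h] at this; split_ifs at this <;> omega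

lemma mvM_isCfg (hM : IsCfg cc r M) {a b₁ b₂ : Fin 3} (h1 : a ≠ b₁) (h2 : a ≠ b₂)
    (h3 : b₁ ≠ b₂) {i j : E} (hi : i ∈ M a) (hci : cc i = 1) (hj : j ∉ M a) (hcj : cc j = 2) :
    IsCfg cc r (mvM a b₁ i j M) := by
  have hij : i ≠ j := fun h => hj (h ▸ hi)
  obtain ⟨hi1, hi2⟩ := not_mem_of_cc_one hM h1 h2 h3 hi hci
  obtain ⟨hj1, hj2⟩ := mem_of_cc_two hM h1 h2 h3 hj hcj
  constructor
  · intro x
    unfold mvM
    split_ifs with h4 h5
    · rw [card_tau, h4]; exact hM.row a
    · rw [card_tau, h5]; exact hM.row b₁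
    · exact hM.row x
  · intro k
    rw [colCount_eq _ k h1 h2 h3, ← hM.col k, colCount_eq M k h1 h2 h3]
    have e1 : mvM a b₁ i j M a = tau i j (M a) := by simp [mvM]
    have e2 : mvM a b₁ i j M b₁ = tau i j (M b₁) := by simp [mvM, h1.symm]
    have e3 : mvM a b₁ i j M b₂ = M b₂ := by simp [mvM, h2.symm, h3.symm]
    rw [e1, e2, e3]
    simp only [mem_tau]
    by_cases h4 : k = i
    · subst h4
      simp [hj, hj1, hi, hi1, hi2]
    by_cases h5 : k = j
    · subst h5
      simp [hj, hj1, hi, hi1, hi2, hj2]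
    rw [Equiv.swap_apply_of_ne_of_ne h4 h5]

end Basic

/-- The remaining count of a column after fixing the row `S`. -/
def remC (cc : E → ℕ) (S : Finset E) (k : E) : ℕ := cc k - (if k ∈ S then 1 else 0)

/-- Columns lying in exactly one of the two remaining rows. -/
def dS (cc : E → ℕ) (S : Finset E) : Finset E := univ.filter (fun k => remC cc S k = 1)

/-- Columns lying in both remaining rows. -/
def fS (cc : E → ℕ) (S : Finset E) : Finset E := univ.filter (fun k => remC cc S k = 2)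

/-- The configuration with row `S` at `a`, determined by the part `R` of `dS` in row `b₁`. -/
def configM (cc : E → ℕ) (a b₁ : Fin 3) (S R : Finset E) : Fin 3 → Finset E :=
  fun x => if x = a then S else if x = b₁ then R ∪ fS cc S else (dS cc S \ R) ∪ fS cc S

section Config

variable {cc : E → ℕ} {r : Fin 3 → ℕ} {M : Fin 3 → Finset E} {a b₁ b₂ : Fin 3}

lemma configM_a (S R : Finset E) : configM cc a b₁ S R a = S := by simp [configM]

lemma configM_b₁ (h1 : a ≠ b₁) (S R : Finset E) :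
    configM cc a b₁ S R b₁ = R ∪ fS cc S := by simp [configM, h1.symm]

lemma configM_b₂ (h2 : a ≠ b₂) (h3 : b₁ ≠ b₂) (S R : Finset E) :
    configM cc a b₁ S R b₂ = (dS cc S \ R) ∪ fS cc S := by simp [configM, h2.symm, h3.symm]

lemma disjoint_dS_fS (S : Finset E) : Disjoint (dS cc S) (fS cc S) := by
  rw [disjoint_left]
  intro k h1 h2
  simp only [dS, fS, mem_filter, mem_univ, true_and] at h1 h2
  omega

lemma remC_eq (hM : IsCfg cc r M) (h1 : a ≠ b₁) (h2 : a ≠ b₂) (h3 : b₁ ≠ b₂) (k : E) :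
    remC cc (M a) k = (if k ∈ M b₁ then 1 else 0) + (if k ∈ M b₂ then 1 else 0) := by
  unfold remC
  rw [← hM.col k, colCount_eq M k h1 h2 h3]
  split_ifs <;> omega

lemma mem_fS_iff (hM : IsCfg cc r M) (h1 : a ≠ b₁) (h2 : a ≠ b₂) (h3 : b₁ ≠ b₂) (k : E) :
    k ∈ fS cc (M a) ↔ k ∈ M b₁ ∧ k ∈ M b₂ := by
  simp only [fS, mem_filter, mem_univ, true_and]
  rw [remC_eq hM h1 h2 h3]
  split_ifs <;> simp_all

lemma mem_dS_iff (hM : IsCfg cc r M) (h1 : a ≠ b₁) (h2 : a ≠ b₂) (h3 : b₁ ≠ b₂) (k : E) :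
    k ∈ dS cc (M a) ↔ (k ∈ M b₁ ∧ k ∉ M b₂) ∨ (k ∉ M b₁ ∧ k ∈ M b₂) := by
  simp only [dS, mem_filter, mem_univ, true_and]
  rw [remC_eq hM h1 h2 h3]
  split_ifs <;> simp_all

/-- Every configuration is of the form `configM`. -/
lemma eq_configM (hM : IsCfg cc r M) (h1 : a ≠ b₁) (h2 : a ≠ b₂) (h3 : b₁ ≠ b₂) :
    M = configM cc a b₁ (M a) (M b₁ ∩ dS cc (M a)) := by
  funext x
  have hx := fin3_cases h1 h2 h3 x
  rcases hx with rfl | rfl | rfl
  · rw [configM_a]
  · rw [configM_b₁ h1]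
    ext k
    simp only [mem_union, mem_inter, mem_fS_iff hM h1 h2 h3, mem_dS_iff hM h1 h2 h3]
    tauto
  · rw [configM_b₂ h2 h3]
    ext k
    simp only [mem_union, mem_inter, mem_sdiff, mem_fS_iff hM h1 h2 h3, mem_dS_iff hM h1 h2 h3]
    tauto

lemma card_rows (hM : IsCfg cc r M) (h1 : a ≠ b₁) (h2 : a ≠ b₂) (h3 : b₁ ≠ b₂) :
    r b₁ + r b₂ = (dS cc (M a)).card + 2 * (fS cc (M a)).card := by
  have e1 := congrFun (eq_configM hM h1 h2 h3) b₁
  have e2 := congrFun (eq_configM hM h1 h2 h3) b₂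
  rw [configM_b₁ h1] at e1
  rw [configM_b₂ h2 h3] at e2
  have hsubR : M b₁ ∩ dS cc (M a) ⊆ dS cc (M a) := inter_subset_right
  have d1 : Disjoint (M b₁ ∩ dS cc (M a)) (fS cc (M a)) :=
    disjoint_of_subset_left hsubR (disjoint_dS_fS _)
  have d2 : Disjoint (dS cc (M a) \ (M b₁ ∩ dS cc (M a))) (fS cc (M a)) :=
    disjoint_of_subset_left sdiff_subset (disjoint_dS_fS _)
  have c1 := congrArg card e1
  have c2 := congrArg card e2
  rw [card_union_of_disjoint d1, hM.row] at c1
  rw [card_union_of_disjoint d2, hM.row, card_sdiff_of_subset hsubR] at c2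
  have := card_le_card hsubR
  omega

/-- Validity of `configM`, given a base configuration. -/
lemma configM_isCfg (hM : IsCfg cc r M) (h1 : a ≠ b₁) (h2 : a ≠ b₂) (h3 : b₁ ≠ b₂)
    {R : Finset E} (hR : R ⊆ dS cc (M a)) (hc : R.card + (fS cc (M a)).card = r b₁) :
    IsCfg cc r (configM cc a b₁ (M a) R) := by
  have d1 : Disjoint R (fS cc (M a)) := disjoint_of_subset_left hR (disjoint_dS_fS _)
  have d2 : Disjoint (dS cc (M a) \ R) (fS cc (M a)) :=
    disjoint_of_subset_left sdiff_subset (disjoint_dS_fS _)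
  constructor
  · intro x
    have hx := fin3_cases h1 h2 h3 x
    rcases hx with rfl | rfl | rfl
    · rw [configM_a]; exact hM.row _
    · rw [configM_b₁ h1, card_union_of_disjoint d1]; exact hc
    · rw [configM_b₂ h2 h3, card_union_of_disjoint d2, card_sdiff_of_subset hR]
      have := card_rows hM h1 h2 h3
      have := card_le_card hR
      omega
  · intro k
    rw [colCount_eq _ k h1 h2 h3, configM_a, configM_b₁ h1, configM_b₂ h2 h3, ← hM.col k,
      colCount_eq M k h1 h2 h3]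
    simp only [mem_union, mem_sdiff, mem_fS_iff hM h1 h2 h3]
    have h4 : k ∈ R → k ∈ dS cc (M a) := fun h => hR h
    rw [mem_dS_iff hM h1 h2 h3] at h4
    by_cases h5 : k ∈ M b₁ <;> by_cases h6 : k ∈ M b₂ <;> by_cases h7 : k ∈ R <;>
    by_cases h8 : k ∈ dS cc (M a) <;> simp_all [mem_dS_iff hM h1 h2 h3]

/-- Parametrisation of the fibre of a row by subsets of `dS`. -/
lemma sum_fibC (hM : IsCfg cc r M) (h1 : a ≠ b₁) (h2 : a ≠ b₂) (h3 : b₁ ≠ b₂)
    {q : ℕ} (hq : q + (fS cc (M a)).card = r b₁) (F : (Fin 3 → Finset E) → ℝ) :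
    ∑ M' ∈ fibC cc r a (M a), F M'
      = ∑ R ∈ powersetCard q (dS cc (M a)), F (configM cc a b₁ (M a) R) := by
  refine sum_nbij' (fun M' => M' b₁ ∩ dS cc (M a)) (fun R => configM cc a b₁ (M a) R)
    ?_ ?_ ?_ ?_ ?_
  · intro M' hM'
    obtain ⟨hc, ha⟩ := mem_fibC.1 hM'
    rw [mem_powersetCard]
    refine ⟨inter_subset_right, ?_⟩
    have e1 := congrFun (eq_configM hc h1 h2 h3) b₁
    rw [configM_b₁ h1, ha] at e1
    have d1 : Disjoint (M' b₁ ∩ dS cc (M a)) (fS cc (M a)) :=
      disjoint_of_subset_left inter_subset_right (disjoint_dS_fS _)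
    have c1 := congrArg card e1
    rw [card_union_of_disjoint d1, hc.row] at c1
    omega
  · intro R hR
    obtain ⟨hR1, hR2⟩ := mem_powersetCard.1 hR
    rw [mem_fibC]
    exact ⟨configM_isCfg hM h1 h2 h3 hR1 (by rw [hR2]; exact hq), configM_a _ _⟩
  · intro M' hM'
    obtain ⟨hc, ha⟩ := mem_fibC.1 hM'
    have := eq_configM hc h1 h2 h3
    rw [ha] at this
    exact this.symm
  · intro R hR
    obtain ⟨hR1, hR2⟩ := mem_powersetCard.1 hR
    rw [configM_b₁ h1, union_inter_distrib_right, inter_eq_left.2 hR1,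
      (disjoint_iff_inter_eq_empty.1 (disjoint_dS_fS (cc := cc) (M a)).symm), union_empty]
  · intro M' hM'
    obtain ⟨hc, ha⟩ := mem_fibC.1 hM'
    have := eq_configM hc h1 h2 h3
    rw [ha] at this
    exact congrArg F this

end Config

end Vale.Agent.P335
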