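import Vale.Agent.P335.ThreeRow3a

/-! Three-row configurations: moves do not change row functions. -/

set_option linter.unusedSectionVars false

open Finset BigOperators

namespace Vale.Agent.P335

variable {E : Type*} [Fintype E] [DecidableEq E]

variable {cc : E → ℕ} {r : Fin 3 → ℕ} {G : Fin 3 → Finset E → ℝ} {μ : ℝ}

section MoveSets

variable {S : Finset E} {i j : E}

lemma remC_tau_other (k : E) (h1 : k ≠ i) (h2 : k ≠ j) : remC cc (tau i j S) k = remC cc S k := by
  unfold remC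
  have : k ∈ tau i j S ↔ k ∈ S := by
    rw [mem_tau, Equiv.swap_apply_of_ne_of_ne h1 h2]
  simp only [this]

lemma remC_tau_i (hj : j ∉ S) (hci : cc i = 1) : remC cc (tau i j S) i = 1 := by
  unfold remC
  have : i ∉ tau i j S := by rw [mem_tau_left]; exact hj
  simp [this, hci]

lemma remC_tau_j (hi : i ∈ S) (hcj : cc j = 2) : remC cc (tau i j S) j = 1 := by
  unfold remC
  have : j ∈ tau i j S := by rw [mem_tau_right]; exact hi
  simp [this, hcj]

lemma remC_i (hi : i ∈ S) (hci : cc i = 1) : remC cc S i = 0 := by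
  unfold remC; simp [hi, hci]

lemma remC_j (hj : j ∉ S) (hcj : cc j = 2) : remC cc S j = 2 := by
  unfold remC; simp [hj, hcj]

lemma dS_move (hi : i ∈ S) (hci : cc i = 1) (hj : j ∉ S) (hcj : cc j = 2) :
    dS cc (tau i j S) = insert i (insert j (dS cc S)) := by
  ext k
  simp only [dS, mem_filter, mem_univ, true_and, mem_insert]
  by_cases h1 : k = i
  · subst h1; simp [remC_tau_i hj hci]
  by_cases h2 : k = j
  · subst h2; simp [remC_tau_j hi hcj]
  rw [remC_tau_other k h1 h2]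
  simp [h1, h2]

lemma fS_move (hi : i ∈ S) (hci : cc i = 1) (hj : j ∉ S) (hcj : cc j = 2) :
    fS cc (tau i j S) = (fS cc S).erase j := by
  ext k
  simp only [fS, mem_filter, mem_univ, true_and, mem_erase]
  by_cases h1 : k = i
  · subst h1
    rw [remC_tau_i hj hci, remC_i hi hci]
    simp
  by_cases h2 : k = j
  · subst h2
    rw [remC_tau_j hi hcj]
    simp
  rw [remC_tau_other k h1 h2]
  simp [h2]

lemma i_not_dS (hi : i ∈ S) (hci : cc i = 1) : i ∉ dS cc S := by
  simp [dS, remC_i hi hci]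

lemma j_not_dS (hj : j ∉ S) (hcj : cc j = 2) : j ∉ dS cc S := by
  simp [dS, remC_j hj hcj]

lemma i_not_fS (hi : i ∈ S) (hci : cc i = 1) : i ∉ fS cc S := by
  simp [fS, remC_i hi hci]

lemma j_mem_fS (hj : j ∉ S) (hcj : cc j = 2) : j ∈ fS cc S := by
  simp [fS, remC_j hj hcj]

lemma cc_of_mem_dS {e : E} (he : e ∈ dS cc S) : cc e = 1 ∨ cc e = 2 := by
  have h : remC cc S e = 1 := by simpa [dS] using he
  unfold remC at h
  split_ifs at h <;> omega

end MoveSets

/-- The average over a fibre, in terms of the parametrisation. -/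
lemma avgF_fibC {M : Fin 3 → Finset E} {a b₁ b₂ : Fin 3} (hM : IsCfg cc r M) (h1 : a ≠ b₁)
    (h2 : a ≠ b₂) (h3 : b₁ ≠ b₂) {q : ℕ} (hq : q + (fS cc (M a)).card = r b₁)
    (F : (Fin 3 → Finset E) → ℝ) :
    avgF (fibC cc r a (M a)) F
      = (∑ R ∈ powersetCard q (dS cc (M a)), F (configM cc a b₁ (M a) R))
        / ((powersetCard q (dS cc (M a))).card : ℝ) := by
  unfold avgF
  rw [sum_fibC hM h1 h2 h3 hq F]
  have := sum_fibC hM h1 h2 h3 hq (fun _ => (1 : ℝ))
  simp only [sum_const, nsmul_eq_mul, mul_one] at this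
  rw [this]

/-- Step three: a move of a class-one column against a class-two column does not change the
row function. -/
theorem step3 (hμ : 2 < μ) (hG : RowEq cc r G μ) :
    ∀ a, ∀ M ∈ Cfg cc r, ∀ i j, i ∈ M a → cc i = 1 → j ∉ M a → cc j = 2 →
      G a (tau i j (M a)) = G a (M a) := by
  classical
  by_contra hne
  push Not at hne
  obtain ⟨a₀, M₀, hM₀, i₀, j₀, h01, h02, h03, h04, hne₀⟩ := hne
  set T : Finset (Fin 3 × (Fin 3 → Finset E) × E × E) :=
    (univ ×ˢ Cfg cc r ×ˢ univ ×ˢ univ).filter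
      (fun p => p.2.2.1 ∈ p.2.1 p.1 ∧ cc p.2.2.1 = 1 ∧ p.2.2.2 ∉ p.2.1 p.1 ∧ cc p.2.2.2 = 2) with hT
  have hTmem : ∀ (b : Fin 3) (M' : Fin 3 → Finset E) (u v : E), M' ∈ Cfg cc r → u ∈ M' b →
      cc u = 1 → v ∉ M' b → cc v = 2 → (b, M', u, v) ∈ T := by
    intro b M' u v h1 h2 h3 h4 h5
    simp only [hT, mem_filter, mem_product, mem_univ, true_and, and_true]
    exact ⟨h1, h2, h3, h4, h5⟩
  obtain ⟨⟨a, M, i, j⟩, hp, hmax⟩ := exists_max_image T
    (fun p => |G p.1 (tau p.2.2.1 p.2.2.2 (p.2.1 p.1)) - G p.1 (p.2.1 p.1)|)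
    ⟨(a₀, M₀, i₀, j₀), hTmem _ _ _ _ hM₀ h01 h02 h03 h04⟩
  simp only [hT, mem_filter, mem_product, mem_univ, true_and, and_true] at hp
  obtain ⟨hMm, hi, hci, hj, hcj⟩ := hp
  simp only at hmax
  set Δ := |G a (tau i j (M a)) - G a (M a)| with hΔdef
  have hΔ : ∀ (b : Fin 3) (M' : Fin 3 → Finset E) (u v : E), M' ∈ Cfg cc r → u ∈ M' b →
      cc u = 1 → v ∉ M' b → cc v = 2 → |G b (tau u v (M' b)) - G b (M' b)| ≤ Δ := by
    intro b M' u v h1 h2 h3 h4 h5
    exact hmax (b, M', u, v) (hTmem _ _ _ _ h1 h2 h3 h4 h5)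
  have hΔpos : 0 < Δ := by
    refine lt_of_lt_of_le ?_ (hΔ a₀ M₀ i₀ j₀ hM₀ h01 h02 h03 h04)
    rw [abs_pos]
    exact sub_ne_zero.2 hne₀
  -- the bound for moves
  have hmove : ∀ (b : Fin 3) (M' : Fin 3 → Finset E) (X : Finset E) (u v : E), M' ∈ Cfg cc r →
      M' b = tau u v X → cc u = 1 → cc v = 2 → v ∈ X → u ∉ X →
      |G b (M' b) - G b X| ≤ Δ := by
    intro b M' X u v h1 h2 h3 h4 h5 h6
    have h7 := hΔ b M' u v h1 (by rw [h2, mem_tau_left]; exact h5) h3
      (by rw [h2, mem_tau_right]; exact h6) h4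
    rw [h2, tau_tau, ← h2, abs_sub_comm] at h7
    exact h7
  obtain ⟨b₁, b₂, h1, h2, h3⟩ := others a
  have hM := mem_Cfg.1 hMm
  have hij : i ≠ j := fun h => hj (h ▸ hi)
  set S := M a with hS
  set Dd := dS cc S with hDd
  set Fr := fS cc S with hFr
  have hM'c : IsCfg cc r (mvM a b₁ i j M) := mvM_isCfg hM h1 h2 h3 hi hci hj hcj
  have hM'a : (mvM a b₁ i j M) a = tau i j S := by simp [mvM, hS]
  set S' := tau i j S with hS'
  have hiD : i ∉ Dd := i_not_dS hi hci
  have hjD : j ∉ Dd := j_not_dS hj hcj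
  have hiF : i ∉ Fr := i_not_fS hi hci
  have hjF : j ∈ Fr := j_mem_fS hj hcj
  have hdisj : Disjoint Dd Fr := disjoint_dS_fS S
  have hDd' : dS cc S' = insert i (insert j Dd) := dS_move hi hci hj hcj
  have hFr' : fS cc S' = Fr.erase j := fS_move hi hci hj hcj
  -- the parameter
  set q := (M b₁ ∩ Dd).card with hq
  have hqeq : q + Fr.card = r b₁ := by
    have e1 := congrFun (eq_configM hM h1 h2 h3) b₁
    rw [configM_b₁ h1] at e1
    have d1 : Disjoint (M b₁ ∩ Dd) Fr := disjoint_of_subset_left inter_subset_right hdisj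
    have c1 := congrArg card e1
    rw [card_union_of_disjoint d1, hM.row] at c1
    omega
  have hqD : q ≤ Dd.card := card_le_card inter_subset_right
  have hFpos : 1 ≤ Fr.card := card_pos.2 ⟨j, hjF⟩
  have hqeq' : (q + 1) + (fS cc ((mvM a b₁ i j M) a)).card = r b₁ := by
    rw [hM'a, hFr', card_erase_of_mem hjF]
    omega
  -- validity
  have hM₀c : ∀ R ∈ powersetCard q Dd, configM cc a b₁ S R ∈ Cfg cc r := by
    intro R hR
    obtain ⟨hR1, hR2⟩ := mem_powersetCard.1 hR
    exact mem_Cfg.2 (configM_isCfg hM h1 h2 h3 hR1 (by rw [hR2]; exact hqeq))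
  have hM₁c : ∀ R' ∈ powersetCard (q + 1) (insert i (insert j Dd)),
      configM cc a b₁ S' R' ∈ Cfg cc r := by
    intro R' hR'
    obtain ⟨hR1, hR2⟩ := mem_powersetCard.1 hR'
    have := configM_isCfg hM'c h1 h2 h3 (R := R')
      (by rw [hM'a, hDd']; exact hR1) (by rw [hR2]; exact hqeq')
    rw [hM'a] at this
    exact mem_Cfg.2 this
  -- the functions to compare
  set F : Finset E → ℝ := fun R' => G b₁ (R' ∪ Fr.erase j)
    + G b₂ ((insert i (insert j Dd) \ R') ∪ Fr.erase j) with hF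
  set F₀ : Finset E → ℝ := fun R => G b₁ (R ∪ Fr) + G b₂ ((Dd \ R) ∪ Fr) with hF₀
  have hrow1 : ∀ R', configM cc a b₁ S' R' b₁ = R' ∪ Fr.erase j := by
    intro R'; rw [configM_b₁ h1, hFr']
  have hrow2 : ∀ R', configM cc a b₁ S' R' b₂ = (insert i (insert j Dd) \ R') ∪ Fr.erase j := by
    intro R'; rw [configM_b₂ h2 h3, hFr', hDd']
  have hrow01 : ∀ R, configM cc a b₁ S R b₁ = R ∪ Fr := fun R => configM_b₁ h1 _ _
  have hrow02 : ∀ R, configM cc a b₁ S R b₂ = (Dd \ R) ∪ Fr := fun R => configM_b₂ h2 h3 _ _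
  -- equations
  have heq0 : (μ - 1) * G a S = (∑ R ∈ powersetCard q Dd, F₀ R)
      / ((powersetCard q Dd).card : ℝ) := by
    have e := lambda_eq hG h1 h2 h3 hMm
    rw [avgF_fibC hM h1 h2 h3 hqeq] at e
    rw [← hS] at e
    rw [e]
    congr 1
    refine sum_congr rfl (fun R _ => ?_)
    simp only [hF₀, hrow01, hrow02]
  have heq1 : (μ - 1) * G a S' = (∑ R' ∈ powersetCard (q + 1) (insert i (insert j Dd)), F R')
      / ((powersetCard (q + 1) (insert i (insert j Dd))).card : ℝ) := by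
    have e := lambda_eq hG h1 h2 h3 (mem_Cfg.2 hM'c)
    rw [avgF_fibC hM'c h1 h2 h3 hqeq', hM'a, hDd'] at e
    rw [e]
    congr 1
    refine sum_congr rfl (fun R _ => ?_)
    simp only [hF, hrow1, hrow2]
  -- combining two row estimates
  have hcomb1 : ∀ A B X Y, |G b₁ A - G b₁ X| ≤ Δ → G b₂ B = G b₂ Y →
      |(G b₁ A + G b₂ B) - (G b₁ X + G b₂ Y)| ≤ Δ := by
    intro A B X Y h4 h5
    rw [h5]
    simpa using h4
  have hcomb2 : ∀ A B X Y, G b₁ A = G b₁ X → |G b₂ B - G b₂ Y| ≤ Δ →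
      |(G b₁ A + G b₂ B) - (G b₁ X + G b₂ Y)| ≤ Δ := by
    intro A B X Y h4 h5
    rw [h4]
    simpa using h5
  have hcoupling := johnson_coupling (D := Dd) (i := i) (j := j) hiD hjD hij hqD F F₀ (δ := Δ)
    ?_ ?_ ?_ ?_
  · rw [← heq1, ← heq0, ← mul_sub, abs_mul, abs_of_pos (by linarith : 0 < μ - 1)] at hcoupling
    nlinarith
  · -- first family: add `i`
    intro R hR
    obtain ⟨hR1, hR2⟩ := mem_powersetCard.1 hR
    have hiR : i ∉ R := fun h => hiD (hR1 h)
    have hmem : insert i R ∈ powersetCard (q + 1) (insert i (insert j Dd)) := by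
      rw [mem_powersetCard]
      refine ⟨insert_subset_insert _ (hR1.trans (subset_insert _ _)), ?_⟩
      rw [card_insert_of_notMem hiR, hR2]
    have hc := hM₁c _ hmem
    simp only [hF, hF₀]
    rw [L2 hiD hjD hjF hiF hR1 hdisj hij]
    apply hcomb1 _ _ _ _ _ rfl
    rw [← hrow1]
    refine hmove b₁ _ (R ∪ Fr) i j hc ?_ hci hcj (mem_union_right _ hjF) ?_
    · rw [hrow1, L1 hiD hjD hjF hiF hR1 hdisj hij, tau_comm]
    · simp only [mem_union, not_or]; exact ⟨hiR, hiF⟩
  · -- second family: add `j`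
    intro R hR
    obtain ⟨hR1, hR2⟩ := mem_powersetCard.1 hR
    have hjR : j ∉ R := fun h => hjD (hR1 h)
    have hmem : insert j R ∈ powersetCard (q + 1) (insert i (insert j Dd)) := by
      rw [mem_powersetCard]
      refine ⟨(insert_subset_insert _ hR1).trans (subset_insert _ _), ?_⟩
      rw [card_insert_of_notMem hjR, hR2]
    have hc := hM₁c _ hmem
    simp only [hF, hF₀]
    rw [L3 hjF]
    apply hcomb2 _ _ _ _ rfl
    rw [← hrow2]
    refine hmove b₂ _ ((Dd \ R) ∪ Fr) i j hc ?_ hci hcj (mem_union_right _ hjF) ?_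
    · rw [hrow2, L4 hiD hjD hjF hiF hR1 hdisj hij, tau_comm]
    · simp only [mem_union, mem_sdiff, not_or, not_and]
      exact ⟨fun h => absurd h hiD, hiF⟩
  · -- third family: add `e` outside `R`
    intro R hR e he
    obtain ⟨hR1, hR2⟩ := mem_powersetCard.1 hR
    obtain ⟨he1, he2⟩ := mem_sdiff.1 he
    have hmem : insert e R ∈ powersetCard (q + 1) (insert i (insert j Dd)) := by
      rw [mem_powersetCard]
      refine ⟨?_, ?_⟩
      · intro x hx
        rw [mem_insert] at hx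
        rcases hx with rfl | hx
        · exact mem_insert_of_mem (mem_insert_of_mem he1)
        · exact mem_insert_of_mem (mem_insert_of_mem (hR1 hx))
      · rw [card_insert_of_notMem he2, hR2]
    have hc := hM₁c _ hmem
    have hc0 := hM₀c R hR
    have heF : e ∉ Fr := fun h => (disjoint_left.1 hdisj) he1 h
    simp only [hF, hF₀]
    rw [L5 he hjD hjF hR1 hdisj, L6 he hiD hjD hjF hiF hR1 hdisj hij]
    rcases cc_of_mem_dS (cc := cc) he1 with hce | hce
    · -- class one
      have e2 : G b₂ (tau e i ((Dd \ R) ∪ Fr)) = G b₂ ((Dd \ R) ∪ Fr) := by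
        have := step1 hμ hG (i := e) (j := i) (by rw [hce, hci]) b₂ _ hc0
        rwa [hrow02] at this
      apply hcomb1 _ _ _ _ _ e2
      have := hmove b₁ _ (R ∪ Fr) e j hc (by
        rw [hrow1, L5 he hjD hjF hR1 hdisj, tau_comm]) hce hcj (mem_union_right _ hjF)
        (by simp only [mem_union, not_or]; exact ⟨he2, heF⟩)
      rw [hrow1, L5 he hjD hjF hR1 hdisj] at this
      exact this
    · -- class two
      have e1 : G b₁ (tau j e (R ∪ Fr)) = G b₁ (R ∪ Fr) := by
        have := step1 hμ hG (i := j) (j := e) (by rw [hce, hcj]) b₁ _ hc0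
        rwa [hrow01] at this
      apply hcomb2 _ _ _ _ e1
      have := hmove b₂ _ ((Dd \ R) ∪ Fr) i e hc (by
        rw [hrow2, L6 he hiD hjD hjF hiF hR1 hdisj hij, tau_comm]) hci hce
        (mem_union_left _ he) (by
          simp only [mem_union, mem_sdiff, not_or, not_and]
          exact ⟨fun h => absurd h hiD, hiF⟩)
      rw [hrow2, L6 he hiD hjD hjF hiF hR1 hdisj hij] at this
      exact this
  · -- fourth family: remove `e` inside `R`, add `i, j`
    intro R hR e he
    obtain ⟨hR1, hR2⟩ := mem_powersetCard.1 hR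
    have he1 := hR1 he
    have hiR : i ∉ R := fun h => hiD (hR1 h)
    have hjR : j ∉ R := fun h => hjD (hR1 h)
    have hmem : insert i (insert j (R.erase e)) ∈ powersetCard (q + 1) (insert i (insert j Dd)) := by
      rw [mem_powersetCard]
      refine ⟨?_, ?_⟩
      · exact insert_subset_insert _ (insert_subset_insert _ ((erase_subset _ _).trans hR1))
      · have h5 : j ∉ R.erase e := fun h => hjR (mem_of_mem_erase h)
        have h6 : i ∉ insert j (R.erase e) := by
          rw [mem_insert]; push Not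
          exact ⟨hij, fun h => hiR (mem_of_mem_erase h)⟩
        rw [card_insert_of_notMem h6, card_insert_of_notMem h5, card_erase_of_mem he, hR2]
        have : 1 ≤ q := by
          rw [← hR2]; exact card_pos.2 ⟨e, he⟩
        omega
    have hc := hM₁c _ hmem
    have hc0 := hM₀c R hR
    have heF : e ∉ Fr := fun h => (disjoint_left.1 hdisj) he1 h
    simp only [hF, hF₀]
    rw [L7 he hiD hjD hjF hiF hR1 hdisj hij, L8 he hiD hjD hjF hiF hR1 hdisj hij]
    rcases cc_of_mem_dS (cc := cc) he1 with hce | hce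
    · -- class one
      have e1 : G b₁ (tau e i (R ∪ Fr)) = G b₁ (R ∪ Fr) := by
        have := step1 hμ hG (i := e) (j := i) (by rw [hce, hci]) b₁ _ hc0
        rwa [hrow01] at this
      apply hcomb2 _ _ _ _ e1
      have := hmove b₂ _ ((Dd \ R) ∪ Fr) e j hc (by
        rw [hrow2, L8 he hiD hjD hjF hiF hR1 hdisj hij, tau_comm]) hce hcj
        (mem_union_right _ hjF) (by
          simp only [mem_union, mem_sdiff, not_or, not_and, not_not]
          exact ⟨fun _ => he, heF⟩)
      rw [hrow2, L8 he hiD hjD hjF hiF hR1 hdisj hij] at this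
      exact this
    · -- class two
      have e2 : G b₂ (tau j e ((Dd \ R) ∪ Fr)) = G b₂ ((Dd \ R) ∪ Fr) := by
        have := step1 hμ hG (i := j) (j := e) (by rw [hce, hcj]) b₂ _ hc0
        rwa [hrow02] at this
      apply hcomb1 _ _ _ _ _ e2
      have := hmove b₁ _ (R ∪ Fr) i e hc (by
        rw [hrow1, L7 he hiD hjD hjF hiF hR1 hdisj hij, tau_comm]) hci hce
        (mem_union_left _ he) (by
          simp only [mem_union, not_or]; exact ⟨hiR, hiF⟩)
      rw [hrow1, L7 he hiD hjD hjF hiF hR1 hdisj hij] at this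
      exact this

end Vale.Agent.P335
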