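import Vale.Agent.P335.ThreeRow2

/-! Set identities for the coupling of fibres. -/

set_option linter.unusedSectionVars false
set_option linter.unusedVariables false

open Finset BigOperators

namespace Vale.Agent.P335

variable {E : Type*} [DecidableEq E]

section Sets

variable {Dd Fr R : Finset E} {i j e : E}

lemma L1 (hi : i ∉ Dd) (hj : j ∉ Dd) (hjF : j ∈ Fr) (hiF : i ∉ Fr) (hR : R ⊆ Dd)
    (hd : Disjoint Dd Fr) (hij : i ≠ j) :
    insert i R ∪ Fr.erase j = tau j i (R ∪ Fr) := by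
  have hjR : j ∉ R := fun h => hj (hR h)
  have hiR : i ∉ R := fun h => hi (hR h)
  have hj' : j ∈ R ∪ Fr := mem_union_right _ hjF
  have hi' : i ∉ R ∪ Fr := by
    simp only [mem_union, not_or]; exact ⟨hiR, hiF⟩
  rw [tau_eq_insert_erase hj' hi']
  ext k
  simp only [mem_union, mem_insert, mem_erase]
  by_cases hk : k = j
  · subst hk; simp [hij.symm, hjR]
  · simp only [hk, ne_eq, not_false_eq_true, true_and]
    tauto

lemma L2 (hi : i ∉ Dd) (hj : j ∉ Dd) (hjF : j ∈ Fr) (hiF : i ∉ Fr) (hR : R ⊆ Dd)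
    (hd : Disjoint Dd Fr) (hij : i ≠ j) :
    (insert i (insert j Dd) \ insert i R) ∪ Fr.erase j = (Dd \ R) ∪ Fr := by
  have hjR : j ∉ R := fun h => hj (hR h)
  ext k
  simp only [mem_union, mem_insert, mem_erase, mem_sdiff]
  by_cases hk : k = j
  · subst hk; simp [hij.symm, hjF, hjR]
  by_cases hk2 : k = i
  · subst hk2; simp [hk, hi, hiF]
  simp only [hk, hk2, ne_eq, not_false_eq_true, true_and, false_or, not_or, not_false_eq_true,
    true_and]

lemma L3 (hjF : j ∈ Fr) :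
    insert j R ∪ Fr.erase j = R ∪ Fr := by
  ext k
  simp only [mem_union, mem_insert, mem_erase]
  by_cases hk : k = j
  · subst hk; simp [hjF]
  · simp only [hk, ne_eq, not_false_eq_true, true_and, false_or]

lemma L4 (hi : i ∉ Dd) (hj : j ∉ Dd) (hjF : j ∈ Fr) (hiF : i ∉ Fr) (hR : R ⊆ Dd)
    (hd : Disjoint Dd Fr) (hij : i ≠ j) :
    (insert i (insert j Dd) \ insert j R) ∪ Fr.erase j = tau j i ((Dd \ R) ∪ Fr) := by
  have hiR : i ∉ R := fun h => hi (hR h)
  have hj' : j ∈ (Dd \ R) ∪ Fr := mem_union_right _ hjF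
  have hi' : i ∉ (Dd \ R) ∪ Fr := by
    simp only [mem_union, mem_sdiff, not_or, not_and]; exact ⟨fun h => absurd h hi, hiF⟩
  rw [tau_eq_insert_erase hj' hi']
  ext k
  simp only [mem_union, mem_insert, mem_erase, mem_sdiff]
  by_cases hk : k = j
  · subst hk; simp [hij.symm]
  by_cases hk2 : k = i
  · subst hk2; simp [hk, hiR]
  simp only [hk, hk2, ne_eq, not_false_eq_true, true_and, false_or, not_or]

lemma L5 (he : e ∈ Dd \ R) (hj : j ∉ Dd) (hjF : j ∈ Fr) (hR : R ⊆ Dd)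
    (hd : Disjoint Dd Fr) :
    insert e R ∪ Fr.erase j = tau j e (R ∪ Fr) := by
  obtain ⟨he1, he2⟩ := mem_sdiff.1 he
  have hjR : j ∉ R := fun h => hj (hR h)
  have hj' : j ∈ R ∪ Fr := mem_union_right _ hjF
  have he' : e ∉ R ∪ Fr := by
    simp only [mem_union, not_or]; exact ⟨he2, fun h => (disjoint_left.1 hd) he1 h⟩
  rw [tau_eq_insert_erase hj' he']
  have hej : e ≠ j := fun h => hj (h ▸ he1)
  ext k
  simp only [mem_union, mem_insert, mem_erase]
  by_cases hk : k = j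
  · subst hk; simp [hej.symm, hjR]
  · simp only [hk, ne_eq, not_false_eq_true, true_and]
    tauto

lemma L6 (he : e ∈ Dd \ R) (hi : i ∉ Dd) (hj : j ∉ Dd) (hjF : j ∈ Fr) (hiF : i ∉ Fr)
    (hR : R ⊆ Dd) (hd : Disjoint Dd Fr) (hij : i ≠ j) :
    (insert i (insert j Dd) \ insert e R) ∪ Fr.erase j = tau e i ((Dd \ R) ∪ Fr) := by
  obtain ⟨he1, he2⟩ := mem_sdiff.1 he
  have hjR : j ∉ R := fun h => hj (hR h)
  have hiR : i ∉ R := fun h => hi (hR h)
  have he' : e ∈ (Dd \ R) ∪ Fr := mem_union_left _ he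
  have hi' : i ∉ (Dd \ R) ∪ Fr := by
    simp only [mem_union, mem_sdiff, not_or, not_and]; exact ⟨fun h => absurd h hi, hiF⟩
  rw [tau_eq_insert_erase he' hi']
  have hej : e ≠ j := fun h => hj (h ▸ he1)
  have hei : e ≠ i := fun h => hi (h ▸ he1)
  have heF : e ∉ Fr := fun h => (disjoint_left.1 hd) he1 h
  ext k
  simp only [mem_union, mem_insert, mem_erase, mem_sdiff]
  by_cases hk : k = j
  · subst hk; simp [hij.symm, hjR, hjF, hej.symm]
  by_cases hk2 : k = i
  · subst hk2; simp [hk, hei.symm, hiR]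
  by_cases hk3 : k = e
  · subst hk3; simp [hk, hk2, heF]
  simp only [hk, hk2, hk3, ne_eq, not_false_eq_true, true_and, false_or, not_or]

lemma L7 (he : e ∈ R) (hi : i ∉ Dd) (hj : j ∉ Dd) (hjF : j ∈ Fr) (hiF : i ∉ Fr) (hR : R ⊆ Dd)
    (hd : Disjoint Dd Fr) (hij : i ≠ j) :
    insert i (insert j (R.erase e)) ∪ Fr.erase j = tau e i (R ∪ Fr) := by
  have hiR : i ∉ R := fun h => hi (hR h)
  have he' : e ∈ R ∪ Fr := mem_union_left _ he
  have hi' : i ∉ R ∪ Fr := by
    simp only [mem_union, not_or]; exact ⟨hiR, hiF⟩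
  rw [tau_eq_insert_erase he' hi']
  have he1 := hR he
  have hej : e ≠ j := fun h => hj (h ▸ he1)
  have hei : e ≠ i := fun h => hi (h ▸ he1)
  have heF : e ∉ Fr := fun h => (disjoint_left.1 hd) he1 h
  ext k
  simp only [mem_union, mem_insert, mem_erase]
  by_cases hk : k = j
  · subst hk
    simp [hij.symm, hej.symm, hjF]
  by_cases hk3 : k = e
  · subst hk3; simp [hk, heF, hei]
  simp only [hk, hk3, ne_eq, not_false_eq_true, true_and, false_or]
  tauto

lemma L8 (he : e ∈ R) (hi : i ∉ Dd) (hj : j ∉ Dd) (hjF : j ∈ Fr) (hiF : i ∉ Fr) (hR : R ⊆ Dd)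
    (hd : Disjoint Dd Fr) (hij : i ≠ j) :
    (insert i (insert j Dd) \ insert i (insert j (R.erase e))) ∪ Fr.erase j
      = tau j e ((Dd \ R) ∪ Fr) := by
  have hiR : i ∉ R := fun h => hi (hR h)
  have hj' : j ∈ (Dd \ R) ∪ Fr := mem_union_right _ hjF
  have he1 := hR he
  have heF : e ∉ Fr := fun h => (disjoint_left.1 hd) he1 h
  have he' : e ∉ (Dd \ R) ∪ Fr := by
    simp only [mem_union, mem_sdiff, not_or, not_and, not_not]
    exact ⟨fun _ => he, heF⟩
  rw [tau_eq_insert_erase hj' he']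
  have hej : e ≠ j := fun h => hj (h ▸ he1)
  have hei : e ≠ i := fun h => hi (h ▸ he1)
  ext k
  simp only [mem_union, mem_insert, mem_erase, mem_sdiff]
  by_cases hk : k = j
  · subst hk; simp [hij.symm, hej.symm]
  by_cases hk2 : k = i
  · subst hk2
    simp [hk, hei.symm, hiR, hiF, hi]
  by_cases hk3 : k = e
  · subst hk3; simp [hk, hk2, he1]
  simp only [hk, hk2, hk3, ne_eq, not_false_eq_true, true_and, false_or, not_or, not_and, not_not]

end Sets

end Vale.Agent.P335
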